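import Crest.Agent.SPI.Iter

/-! Row 110: the theorem. Chunk R110-MAIN. -/

set_option autoImplicit false

namespace Crest.Agent.SPI

universe u

/-- weight function `κ(t) = 1/√(max t e)` -/
noncomputable def kap (e : ℝ) (t : ℝ) : ℝ := (Real.sqrt (max t e))⁻¹

theorem kap_continuous (e : ℝ) (he : 0 < e) : Continuous (kap e) := by
  unfold kap
  refine Continuous.inv₀ (by fun_prop) (fun t => ?_)
  have : 0 < max t e := lt_max_of_lt_right he
  exact (Real.sqrt_pos.2 this).ne'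

theorem main_ramp_eq_one {a b t : ℝ} (hab : a < b) (ht : b ≤ t) : ramp a b t = 1 := by
  have h : 1 ≤ (t - a) / (b - a) := by rw [le_div_iff₀ (by linarith)]; linarith
  unfold ramp
  rw [min_eq_left h]; norm_num

theorem main_ramp_eq_zero {a b t : ℝ} (hab : a < b) (ht : t ≤ a) : ramp a b t = 0 := by
  have h : (t - a) / (b - a) ≤ 0 := div_nonpos_of_nonpos_of_nonneg (by linarith) (by linarith)
  unfold ramp
  rw [min_eq_right (by linarith)]; exact max_eq_left h

theorem main_iter_one (m : ℕ) : Ft (phit^[m] 1) = 1 := by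
  have h1 : phit 1 = 1 := main_ramp_eq_one (by norm_num) (by norm_num)
  have h2 : phit^[m] 1 = 1 := Function.iterate_fixed h1 m
  rw [h2]
  exact main_ramp_eq_one (by norm_num) (by norm_num)

theorem main_iter_continuous (m : ℕ) : Continuous (fun t => Ft (phit^[m] t)) := by
  have h1 : Continuous phit := ramp_continuous _ _
  have h2 : Continuous phit^[m] := h1.iterate m
  have h3 : Continuous Ft := ramp_continuous _ _
  exact h3.comp h2

theorem kap_key (e t : ℝ) (he : 0 < e) :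
    kap e t * t * kap e t * ut (ramp e (2 * e) t) = ut (ramp e (2 * e) t) := by
  by_cases ht : e ≤ t
  · have h1 : kap e t * t * kap e t = 1 := by
      unfold kap
      rw [max_eq_left ht]
      have h2 : 0 < Real.sqrt t := Real.sqrt_pos.2 (by linarith)
      have h3 : Real.sqrt t * Real.sqrt t = t := Real.mul_self_sqrt (by linarith)
      nth_rewrite 2 [← h3]
      field_simp
    rw [h1, one_mul]
  · have h1 : ramp e (2 * e) t = 0 := main_ramp_eq_zero (by linarith) (by linarith)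
    have h2 : ut 0 = 0 := main_ramp_eq_zero (by norm_num) (by norm_num)
    rw [h1, h2, mul_zero]

theorem main_fun_bound (e t : ℝ) (he : 0 < e) (ht : 0 ≤ t) (m : ℕ) :
    ‖Real.sqrt t * Ft (phit^[m] (ramp e (2 * e) t)) * Real.sqrt t - t‖ ≤ 2 * e := by
  have h3 : Real.sqrt t * Real.sqrt t = t := Real.mul_self_sqrt ht
  have h4 : Real.sqrt t * Ft (phit^[m] (ramp e (2 * e) t)) * Real.sqrt t - t
      = t * (Ft (phit^[m] (ramp e (2 * e) t)) - 1) := by
    have : Real.sqrt t * Ft (phit^[m] (ramp e (2 * e) t)) * Real.sqrt t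
      = (Real.sqrt t * Real.sqrt t) * Ft (phit^[m] (ramp e (2 * e) t)) := by ring
    rw [this, h3]; ring
  rw [h4]
  by_cases h : 2 * e ≤ t
  · rw [main_ramp_eq_one (by linarith) h, main_iter_one]
    simp; linarith
  · have h5 : 0 ≤ Ft (phit^[m] (ramp e (2 * e) t)) := ramp_nonneg _ _ _
    have h6 : Ft (phit^[m] (ramp e (2 * e) t)) ≤ 1 := ramp_le_one _ _ _
    rw [Real.norm_eq_abs, abs_le]
    constructor <;> nlinarith

section

variable {M : Type u} [CStarAlgebra M] [PartialOrder M] [StarOrderedRing M] [Nontrivial M]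

omit [Nontrivial M] in
theorem main_half {A : Submodule ℂ M} (hA : PIIdeal A) (a : M)
    (ha0 : 0 ≤ a) (ha1 : a ≤ 1) (e : ℝ) (he : 0 < e) (ε : ℝ) (hε : 0 < ε) (he2 : 2 * e < ε / 2)
    (m : ℕ) (S' : M) (hS' : S' ∈ A)
    (hS : ‖star (cfc ut (cfc (ramp e (2 * e)) a) * S') * (cfc ut (cfc (ramp e (2 * e)) a) * S')
      - cfc (fun t => Ft (phit^[m] t)) (cfc (ramp e (2 * e)) a)‖ < ε / 2) :
    (cfc (kap e) a * (cfc ut (cfc (ramp e (2 * e)) a) * S') * cfc Real.sqrt a) ∈ A ∧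
    ‖star (cfc (kap e) a * (cfc ut (cfc (ramp e (2 * e)) a) * S') * cfc Real.sqrt a) * a *
      (cfc (kap e) a * (cfc ut (cfc (ramp e (2 * e)) a) * S') * cfc Real.sqrt a) - a‖ < ε := by
  have hsa : IsSelfAdjoint a := IsSelfAdjoint.of_nonneg ha0
  set p := cfc (ramp e (2 * e)) a with hp
  set S := cfc ut p * S' with hSdef
  set k := cfc (kap e) a with hk
  set r := cfc Real.sqrt a with hr
  refine ⟨hA.mul_right _ _ (hA.mul_left _ _ (hA.mul_left _ _ hS')), ?_⟩
  have hrs : star r = r := (cfc_predicate Real.sqrt a : IsSelfAdjoint r).star_eq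
  have hks : star k = k := (cfc_predicate (kap e) a : IsSelfAdjoint k).star_eq
  have hck : Continuous (kap e) := kap_continuous e he
  have hcr : Continuous (ramp e (2 * e)) := ramp_continuous _ _
  have hcu : Continuous ut := ramp_continuous _ _
  have hcG := main_iter_continuous m
  -- k a k ut(p) = ut(p)
  have hup : cfc ut p = cfc (fun t => ut (ramp e (2 * e) t)) a := by
    rw [hp, ← cfc_comp' ut (ramp e (2 * e)) a (hcu.continuousOn) (hcr.continuousOn) hsa]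
  have h1 : k * a * k * cfc ut p = cfc ut p := by
    rw [hup]
    have e1 : cfc (fun t => kap e t * t * kap e t * ut (ramp e (2 * e) t)) a
        = k * a * k * cfc (fun t => ut (ramp e (2 * e) t)) a := by
      rw [cfc_mul (fun t => kap e t * t * kap e t) (fun t => ut (ramp e (2 * e) t)) a
        (by fun_prop) (by fun_prop),
        cfc_mul (fun t => kap e t * t) (fun t => kap e t) a (by fun_prop) (by fun_prop),
        cfc_mul (fun t => kap e t) (fun t => t) a (by fun_prop) (by fun_prop), cfc_id' ℝ a hsa]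
    rw [← e1]
    congr 1
    funext t
    exact kap_key e t he
  have h2 : star (k * S * r) * a * (k * S * r) = r * (star S * S) * r := by
    simp only [star_mul, hrs, hks]
    calc r * (star S * k) * a * (k * S * r)
        = r * star S * (k * a * k * cfc ut p) * S' * r := by rw [hSdef]; noncomm_ring
      _ = r * star S * (cfc ut p) * S' * r := by rw [h1]
      _ = r * (star S * S) * r := by rw [hSdef]; noncomm_ring
  have h3 : cfc (fun t => Ft (phit^[m] t)) p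
      = cfc (fun t => Ft (phit^[m] (ramp e (2 * e) t))) a := by
    rw [hp, ← cfc_comp' (fun t => Ft (phit^[m] t)) (ramp e (2 * e)) a (hcG.continuousOn)
      (hcr.continuousOn) hsa]
  have hcG2 : Continuous (fun t => Ft (phit^[m] (ramp e (2 * e) t))) := hcG.comp hcr
  have h4 : r * cfc (fun t => Ft (phit^[m] (ramp e (2 * e) t))) a * r - a
      = cfc (fun t => Real.sqrt t * Ft (phit^[m] (ramp e (2 * e) t)) * Real.sqrt t - t) a := by
    rw [cfc_sub (fun t => Real.sqrt t * Ft (phit^[m] (ramp e (2 * e) t)) * Real.sqrt t)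
      (fun t => t) a (((Real.continuous_sqrt.mul hcG2).mul Real.continuous_sqrt).continuousOn)
      (by fun_prop),
      cfc_mul (fun t => Real.sqrt t * Ft (phit^[m] (ramp e (2 * e) t))) (fun t => Real.sqrt t) a
        ((Real.continuous_sqrt.mul hcG2).continuousOn) (by fun_prop),
      cfc_mul (fun t => Real.sqrt t) (fun t => Ft (phit^[m] (ramp e (2 * e) t))) a
        (by fun_prop) (hcG2.continuousOn), cfc_id' ℝ a hsa]
  have h5 : ‖r * cfc (fun t => Ft (phit^[m] (ramp e (2 * e) t))) a * r - a‖ ≤ 2 * e := by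
    rw [h4]
    refine norm_cfc_le (by linarith) (fun t ht => ?_)
    exact main_fun_bound e t he (spectrum_nonneg_of_nonneg ha0 ht) m
  have h6 : ‖r‖ ≤ 1 := by
    refine norm_cfc_le zero_le_one (fun t ht => ?_)
    have ht0 : 0 ≤ t := spectrum_nonneg_of_nonneg ha0 ht
    have ht1 : t ≤ 1 := by
      have := (cfc_le_one_iff (fun t : ℝ => t) a).1 (by rwa [cfc_id' ℝ a hsa])
      exact this t ht
    rw [Real.norm_eq_abs, abs_of_nonneg (Real.sqrt_nonneg t)]
    exact Real.sqrt_le_one.2 ht1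
  rw [h2]
  have h7 : r * (star S * S) * r - a = r * (star S * S - cfc (fun t => Ft (phit^[m] t)) p) * r
      + (r * cfc (fun t => Ft (phit^[m] (ramp e (2 * e) t))) a * r - a) := by
    rw [h3]; noncomm_ring
  rw [h7]
  refine lt_of_le_of_lt (norm_add_le _ _) ?_
  have h8 : ‖r * (star S * S - cfc (fun t => Ft (phit^[m] t)) p) * r‖ ≤
      ‖star S * S - cfc (fun t => Ft (phit^[m] t)) p‖ := by
    calc _ ≤ ‖r * (star S * S - cfc (fun t => Ft (phit^[m] t)) p)‖ * ‖r‖ := norm_mul_le _ _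
      _ ≤ ‖r * (star S * S - cfc (fun t => Ft (phit^[m] t)) p)‖ * 1 := by gcongr
      _ = ‖r * (star S * S - cfc (fun t => Ft (phit^[m] t)) p)‖ := mul_one _
      _ ≤ ‖r‖ * ‖star S * S - cfc (fun t => Ft (phit^[m] t)) p‖ := norm_mul_le _ _
      _ ≤ 1 * ‖star S * S - cfc (fun t => Ft (phit^[m] t)) p‖ := by gcongr
      _ = _ := one_mul _
  linarith

omit [Nontrivial M] in
theorem main_norm_sqrt (a : M) (ha0 : 0 ≤ a) (ha1 : a ≤ 1) : ‖cfc Real.sqrt a‖ ≤ 1 := by
  have hsa : IsSelfAdjoint a := IsSelfAdjoint.of_nonneg ha0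
  refine norm_cfc_le zero_le_one (fun t ht => ?_)
  have ht0 : 0 ≤ t := spectrum_nonneg_of_nonneg ha0 ht
  have ht1 : t ≤ 1 := by
    have := (cfc_le_one_iff (fun t : ℝ => t) a).1 (by rwa [cfc_id' ℝ a hsa])
    exact this t ht
  rw [Real.norm_eq_abs, abs_of_nonneg (Real.sqrt_nonneg t)]
  exact Real.sqrt_le_one.2 ht1

theorem main_contractive {A : Submodule ℂ M} (hA : PIIdeal A) (a b c : M) (ha : a ∈ A) (hb : b ∈ A)
    (ha0 : 0 ≤ a) (ha1 : a ≤ 1) (hb0 : 0 ≤ b) (hb1 : b ≤ 1) (ε : ℝ) (hε : 0 < ε) :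
    ∃ s ∈ A, ∃ t ∈ A, ‖star s * a * s - a‖ < ε ∧ ‖star t * b * t - b‖ < ε ∧
      ‖star s * c * t‖ < ε := by
  obtain ⟨δ, hδ0, hδ1, hit⟩ := iterate hA
  set e := ε / 8 with hedef
  have he : 0 < e := by positivity
  have he2 : 2 * e < ε / 2 := by rw [hedef]; linarith
  have hasa : IsSelfAdjoint a := IsSelfAdjoint.of_nonneg ha0
  have hbsa : IsSelfAdjoint b := IsSelfAdjoint.of_nonneg hb0
  set p := cfc (ramp e (2 * e)) a with hp
  set q := cfc (ramp e (2 * e)) b with hq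
  have hr0 : ramp e (2 * e) 0 = 0 := main_ramp_eq_zero (by linarith) he.le
  have hpA : p ∈ A := hA.toCIdeal.cfc_mem a ha hasa _ (ramp_continuous _ _).continuousOn hr0
  have hqA : q ∈ A := hA.toCIdeal.cfc_mem b hb hbsa _ (ramp_continuous _ _).continuousOn hr0
  set c' := cfc (kap e) a * c * cfc (kap e) b with hc'
  set K : ℝ := ‖c'‖ + 1 with hK
  have hK0 : 0 < K := by rw [hK]; positivity
  obtain ⟨m, hm⟩ : ∃ m : ℕ, δ ^ m < ε / K := exists_pow_lt_of_lt_one (by positivity) hδ1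
  have hcn : ‖((K⁻¹ : ℝ) : ℂ) • c'‖ ≤ 1 := by
    rw [norm_smul, Complex.norm_real, Real.norm_eq_abs, abs_of_pos (by positivity),
      inv_mul_le_iff₀ hK0, hK]
    linarith
  obtain ⟨S', hS', T', hT', h1, h2, h3⟩ := hit m p q (((K⁻¹ : ℝ) : ℂ) • c') hpA hqA
    (cfc_ramp_nonneg _ _ _) (cfc_ramp_le_one _ _ _) (cfc_ramp_nonneg _ _ _)
    (cfc_ramp_le_one _ _ _) hcn (ε / 2) (by positivity)
  obtain ⟨hsA, hs⟩ := main_half hA a ha0 ha1 e he ε hε he2 m S' hS' h1
  obtain ⟨htA, ht⟩ := main_half hA b hb0 hb1 e he ε hε he2 m T' hT' h2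
  refine ⟨_, hsA, _, htA, hs, ht, ?_⟩
  have hra : star (cfc Real.sqrt a) = cfc Real.sqrt a :=
    (cfc_predicate Real.sqrt a : IsSelfAdjoint (cfc Real.sqrt a)).star_eq
  have hka : star (cfc (kap e) a) = cfc (kap e) a :=
    (cfc_predicate (kap e) a : IsSelfAdjoint (cfc (kap e) a)).star_eq
  set S := cfc ut p * S' with hSdef
  set T := cfc ut q * T' with hTdef
  have e1 : star (cfc (kap e) a * S * cfc Real.sqrt a) * c * (cfc (kap e) b * T * cfc Real.sqrt b)
      = cfc Real.sqrt a * (star S * c' * T) * cfc Real.sqrt b := by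
    simp only [star_mul, hra, hka, hc']
    noncomm_ring
  rw [e1]
  have hsa1 := main_norm_sqrt a ha0 ha1
  have hsb1 := main_norm_sqrt b hb0 hb1
  have e2 : star S * c' * T = (K : ℂ) • (star S * (((K⁻¹ : ℝ) : ℂ) • c') * T) := by
    rw [mul_smul_comm, smul_mul_assoc, smul_smul]
    have : (K : ℂ) * ((K⁻¹ : ℝ) : ℂ) = 1 := by
      rw [← Complex.ofReal_mul, mul_inv_cancel₀ hK0.ne']; simp
    rw [this, one_smul]
  have e3 : ‖star S * c' * T‖ ≤ K * δ ^ (m + 1) := by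
    rw [e2, norm_smul, Complex.norm_real, Real.norm_eq_abs, abs_of_pos hK0]
    gcongr
  have e4 : K * δ ^ (m + 1) < ε := by
    have : δ ^ (m + 1) ≤ δ ^ m := pow_le_pow_of_le_one hδ0.le hδ1.le (Nat.le_succ m)
    have h5 : K * δ ^ m < ε := by rwa [lt_div_iff₀ hK0, mul_comm] at hm
    nlinarith
  calc ‖cfc Real.sqrt a * (star S * c' * T) * cfc Real.sqrt b‖
      ≤ ‖cfc Real.sqrt a * (star S * c' * T)‖ * ‖cfc Real.sqrt b‖ := norm_mul_le _ _
    _ ≤ ‖cfc Real.sqrt a * (star S * c' * T)‖ * 1 := by gcongr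
    _ = ‖cfc Real.sqrt a * (star S * c' * T)‖ := mul_one _
    _ ≤ ‖cfc Real.sqrt a‖ * ‖star S * c' * T‖ := norm_mul_le _ _
    _ ≤ 1 * ‖star S * c' * T‖ := by gcongr
    _ < ε := by rw [one_mul]; linarith

/-- PROOF. WLOG (scaling) `a, b ≤ 1` (replace `a` by `a/K`, `b` by `b/K` and `ε` by `ε/K`; the third
condition is not affected). `0 < e < 1` small (`2 e < ε/2`), `p = cfc (ramp e (2e)) a`,
`q = cfc (ramp e (2e)) b`, `κ(t) = (max t e)^{-1/2}` so `κ(t)² t = 1` for `t ≥ e`,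
`c' = κ(a) c κ(b)`, `K' = ‖c'‖ + 1`; `iterate` for `(p, q, c'/K')` with `m` such that
`δ^(m+1) K' < ε` and tolerance `ε/2`: `S = ut(p) S'`, `T = ut(q) T'`. Put `s = κ(a) S a^{1/2}`,
`t = κ(b) T b^{1/2}`. `s⋆ a s = a^{1/2} S⋆ κ(a) a κ(a) S a^{1/2} = a^{1/2} S⋆ S a^{1/2}` (as
`κ(t)² t ut(ramp e 2e t) = ut(...)`), `≈ a^{1/2} Ft(φ^m(p)) a^{1/2}`, and `Ft(φ^m(ramp e 2e t)) = 1`
for `t ≥ 2e`, so this is within `2e` of `a`. `‖s⋆ c t‖ = ‖a^{1/2} S⋆ c' T b^{1/2}‖ ≤ δ^(m+1) K'`. -/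
theorem main {A : Submodule ℂ M} (hA : PIIdeal A) (a b c : M) (ha : a ∈ A) (hb : b ∈ A)
    (ha0 : 0 ≤ a) (hb0 : 0 ≤ b) (ε : ℝ) (hε : 0 < ε) :
    ∃ s ∈ A, ∃ t ∈ A, ‖star s * a * s - a‖ < ε ∧ ‖star t * b * t - b‖ < ε ∧
      ‖star s * c * t‖ < ε := by
  set K : ℝ := ‖a‖ + ‖b‖ + 1 with hK
  have hK1 : 1 ≤ K := by rw [hK]; linarith [norm_nonneg a, norm_nonneg b]
  have hK0 : 0 < K := by linarith
  have hKi : (0 : ℝ) ≤ K⁻¹ := by positivity
  have hsc : ∀ x : M, 0 ≤ x → ‖x‖ ≤ K → 0 ≤ (K⁻¹ : ℝ) • x ∧ (K⁻¹ : ℝ) • x ≤ 1 := by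
    intro x hx hxK
    have h0 : 0 ≤ (K⁻¹ : ℝ) • x := smul_nonneg hKi hx
    refine ⟨h0, ?_⟩
    rw [← CStarAlgebra.norm_le_one_iff_of_nonneg _ h0, norm_smul, Real.norm_eq_abs,
      abs_of_nonneg hKi, inv_mul_le_iff₀ hK0]
    linarith
  obtain ⟨ha0', ha1'⟩ := hsc a ha0 (by rw [hK]; linarith [norm_nonneg b])
  obtain ⟨hb0', hb1'⟩ := hsc b hb0 (by rw [hK]; linarith [norm_nonneg a])
  have hmem : ∀ x ∈ A, (K⁻¹ : ℝ) • x ∈ A := by
    intro x hx
    have : (K⁻¹ : ℝ) • x = (((K⁻¹ : ℝ) : ℂ)) • x := by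
      exact (Complex.coe_smul _ _).symm
    rw [this]
    exact A.smul_mem _ hx
  obtain ⟨s, hs, t, ht, h1, h2, h3⟩ := main_contractive hA ((K⁻¹ : ℝ) • a) ((K⁻¹ : ℝ) • b) c
    (hmem a ha) (hmem b hb) ha0' ha1' hb0' hb1' (ε / K) (by positivity)
  have hback : ∀ x z : M, ‖star z * ((K⁻¹ : ℝ) • x) * z - (K⁻¹ : ℝ) • x‖ < ε / K →
      ‖star z * x * z - x‖ < ε := by
    intro x z h
    have e1 : star z * ((K⁻¹ : ℝ) • x) * z - (K⁻¹ : ℝ) • x = (K⁻¹ : ℝ) • (star z * x * z - x) := by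
      rw [mul_smul_comm, smul_mul_assoc, smul_sub]
    rw [e1, norm_smul, Real.norm_eq_abs, abs_of_nonneg hKi, inv_mul_lt_iff₀ hK0] at h
    have : K * (ε / K) = ε := by field_simp
    rwa [this] at h
  refine ⟨s, hs, t, ht, hback a s h1, hback b t h2, ?_⟩
  refine lt_of_lt_of_le h3 ?_
  exact div_le_self hε.le hK1

end

end Crest.Agent.SPI
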