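import Crest.Statements.S0145
import Crest.Agent.SPI.Main

/-! Row 110: from `main` to S0145 (Unitization). Chunk R110-FINAL. -/

set_option autoImplicit false
open Crest Crest.AnalysisR Crest.AnalysisR.OperatorAlgebra

namespace Crest.Agent.SPI

section aux

variable (C : Type*) [NonUnitalCStarAlgebra C]

/-- the ideal `C` in its unitization -/
noncomputable def inrSub : Submodule ℂ (Unitization ℂ C) :=
  LinearMap.range (Unitization.inrHom ℂ ℂ C)

variable {C}

theorem mem_inrSub {x : Unitization ℂ C} : x ∈ inrSub C ↔ ∃ y : C, (y : Unitization ℂ C) = x :=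
  Iff.rfl

theorem inrSub_cideal : CIdeal (inrSub C) := by
  refine ⟨?_, ?_, ?_, ?_⟩
  · have h : (inrSub C : Set (Unitization ℂ C)) = Set.range (fun y : C => (y : Unitization ℂ C)) :=
      rfl
    rw [h]
    exact (Unitization.isometry_inr (𝕜 := ℂ) (A := C)).isClosedEmbedding.isClosed_range
  · rintro m a ⟨y, rfl⟩
    refine ⟨m.fst • y + m.snd * y, ?_⟩
    refine Unitization.ext ?_ ?_ <;> simp [Unitization.inrHom]
  · rintro m a ⟨y, rfl⟩
    refine ⟨m.fst • y + y * m.snd, ?_⟩
    refine Unitization.ext ?_ ?_ <;> simp [Unitization.inrHom]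
  · rintro a ⟨y, rfl⟩
    exact ⟨star y, by simp [Unitization.inrHom]⟩

end aux

/-- PROOF. `M = Unitization ℂ C` (`Unitization.instCStarAlgebra`, order
`CStarAlgebra.spectralOrder`), `A = ` range of `Unitization.inr` as a submodule (closed: `inr` is
isometric). `PIIdeal A`: `0 ≤ inr x` gives `x = star y * y`. Then `main`. -/
theorem final
    (C : Type*) [NonUnitalCStarAlgebra C]
    (hC : ∀ x : C, Crest.OpAlg.IsProperlyInfinite (star x * x))
    (a b c : C) (ha : ∃ x : C, a = star x * x) (hb : ∃ y : C, b = star y * y) (ε : ℝ) (hε : 0 < ε) :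
    ∃ s t : C, ‖star s * a * s - a‖ < ε ∧ ‖star t * b * t - b‖ < ε ∧ ‖star s * c * t‖ < ε := by
  let _ : PartialOrder C := CStarAlgebra.spectralOrder C
  have _ : StarOrderedRing C := CStarAlgebra.spectralOrderedRing C
  have key : ∀ r x s : C, ‖star (r : Unitization ℂ C) * (x : Unitization ℂ C) * s - x‖
      = ‖star r * x * s - x‖ := by
    intro r x s
    rw [← Unitization.inr_star, ← Unitization.inr_mul, ← Unitization.inr_mul, ← Unitization.inr_sub,
      Unitization.norm_inr]
  have key' : ∀ r x s : C, ‖star (r : Unitization ℂ C) * (x : Unitization ℂ C) * s‖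
      = ‖star r * x * s‖ := by
    intro r x s
    rw [← Unitization.inr_star, ← Unitization.inr_mul, ← Unitization.inr_mul,
      Unitization.norm_inr]
  have hA : PIIdeal (inrSub C) := by
    refine ⟨inrSub_cideal, ?_⟩
    rintro x ⟨y, rfl⟩ hx δ hδ
    have hy : 0 ≤ y := Unitization.inr_nonneg_iff.1 hx
    obtain ⟨z, hz⟩ := CStarAlgebra.nonneg_iff_eq_star_mul_self.1 hy
    obtain ⟨r, s, h1, h2, h3⟩ := hC z δ hδ
    rw [← hz] at h1 h2 h3
    refine ⟨(r : Unitization ℂ C), ⟨r, rfl⟩, (s : Unitization ℂ C), ⟨s, rfl⟩, ?_, ?_, ?_⟩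
    · exact (key r y r).trans_lt h1
    · exact (key s y s).trans_lt h2
    · exact (key' r y s).trans_lt h3
  obtain ⟨x, rfl⟩ := ha
  obtain ⟨y, rfl⟩ := hb
  obtain ⟨s, ⟨s', rfl⟩, t, ⟨t', rfl⟩, h1, h2, h3⟩ :=
    main hA ((star x * x : C) : Unitization ℂ C) ((star y * y : C) : Unitization ℂ C)
      (c : Unitization ℂ C) ⟨_, rfl⟩ ⟨_, rfl⟩
      (Unitization.inr_nonneg_iff.2 (star_mul_self_nonneg x))
      (Unitization.inr_nonneg_iff.2 (star_mul_self_nonneg y)) ε hε
  refine ⟨s', t', ?_, ?_, ?_⟩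
  · exact (key s' _ s').symm.trans_lt h1
  · exact (key t' _ t').symm.trans_lt h2
  · exact (key' s' _ t').symm.trans_lt h3

end Crest.Agent.SPI
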