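import Crest.Agent.SPI.AlgU

/-! Row 110: the exact algebra in the quotient `B`. -/

set_option autoImplicit false
set_option linter.unusedSectionVars false
set_option linter.unusedVariables false

namespace Crest.Agent.SPI

universe u

variable {B : Type u} [CStarAlgebra B] [PartialOrder B] [StarOrderedRing B]

theorem eq_of_norm_le_zero {X Y : B} (h : ‖X - Y‖ ≤ 0) : X = Y := by
  have := norm_le_zero_iff.mp h
  exact sub_eq_zero.mp this

theorem zero_of_norm_le_zero {X : B} (h : ‖X‖ ≤ 0) : X = 0 := norm_le_zero_iff.mp h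

theorem R2_props {u f0 s b fi : B} (hu : star u = u) (hf0 : star f0 = f0) (hb : star b = b)
    (u_f0 : u * f0 = f0) (u_s : u * s = s) (s_u : s * u = s) (u_b : u * b = b * u) :
    star (R2 f0 s b) = R2 f0 s b ∧ u * R2 f0 s b = R2 f0 s b := by
  have su' : u * star s = star s := by
    have := congrArg star s_u
    rwa [star_mul, hu] at this
  constructor
  · unfold R2
    simp only [star_sub, star_mul, star_star, hf0, hb]
    abel
  · unfold R2
    calc u * (f0 - s * star s - s * b - b * star s)
        = u * f0 - (u * s) * star s - (u * s) * b - (u * b) * star s := by noncomm_ring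
      _ = f0 - s * star s - s * b - b * (u * star s) := by
          rw [u_f0, u_s, u_b]; noncomm_ring
      _ = _ := by rw [su']

/-- The algebraic heart (ideas id=524: (0)-(R3), (U*), Steps A, B, C). -/
theorem alg (x : Nm → B) (hD : Data 0 x)
    (h0 : x .u * (9 - x .c * x .T * star (x .T) * star (x .c)) * x .u ≤ 0) :
    x .fi = 0 := by
  have sa : ∀ i ∈ [Nm.u, .f0, .chi, .fi, .b, .ew, .y, .d, .h, .h1, .e1, .e2], star (x i) = x i :=
    hD.sa
  have hu := sa .u (by simp)
  have hf0 := sa .f0 (by simp)
  have hchi := sa .chi (by simp)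
  have hfi := sa .fi (by simp)
  have hb := sa .b (by simp)
  have hew := sa .ew (by simp)
  have hy := sa .y (by simp)
  have hd := sa .d (by simp)
  have hh1 := sa .h1 (by simp)
  have he1 := sa .e1 (by simp)
  have he2 := sa .e2 (by simp)
  have cw : ∀ i ∈ base, x .ew * x i = x i * x .ew := fun i hi =>
    eq_of_norm_le_zero (hD.comm_w i hi)
  have c1 : ∀ i ∈ Nm.ew :: Nm.s :: base, x .e1 * x i = x i * x .e1 := fun i hi =>
    eq_of_norm_le_zero (hD.comm_1 i hi)
  have c2 : ∀ i ∈ Nm.e1 :: Nm.ew :: Nm.s :: base, x .e2 * x i = x i * x .e2 := fun i hi =>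
    eq_of_norm_le_zero (hD.comm_2 i hi)
  obtain ⟨hR2s, hR2u⟩ := R2_props (fi := x .fi) hu hf0 hb hD.u_f0 hD.u_s hD.s_u hD.u_b
  -- e commutes with R2
  have commR2 : ∀ D : B, star D = D → D * x .f0 = x .f0 * D → D * x .s = x .s * D →
      D * x .b = x .b * D → D * R2 (x .f0) (x .s) (x .b) = R2 (x .f0) (x .s) (x .b) * D := by
    intro D hDs h1 h2 h3
    have h2' := comm_star hDs h2
    unfold R2
    calc D * (x .f0 - x .s * star (x .s) - x .s * x .b - x .b * star (x .s))
        = D * x .f0 - (D * x .s) * star (x .s) - (D * x .s) * x .b - (D * x .b) * star (x .s) := by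
          noncomm_ring
      _ = x .f0 * D - x .s * D * star (x .s) - x .s * D * x .b - x .b * D * star (x .s) := by
          rw [h1, h2, h3]
      _ = x .f0 * D - x .s * (D * star (x .s)) - x .s * (D * x .b) - x .b * (D * star (x .s)) := by
          noncomm_ring
      _ = _ := by rw [h2', h3]; noncomm_ring
  have X1 : Ctx (x .c) (x .T) (x .u) (x .h) (x .h1) (x .R) (x .L1) (x .k1) (x .k2) (x .chi)
      (x .y) (x .d) (x .e1) (x .v1) (x .p1) (x .m1) :=
    { hc := hD.c_norm
      hu := hu
      hr := hchi
      hy := hy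
      hd := hd
      hh1 := hh1
      he := he1
      h_le := hD.h_le
      hTT := eq_of_norm_le_zero hD.T_T
      hRT := eq_of_norm_le_zero hD.R_T
      hLT := eq_of_norm_le_zero hD.L1_T
      h0 := h0
      ur := hD.u_chi
      h1h1 := hD.h1_h1
      yh := hD.y_h
      dh := hD.d_h
      yk := hD.y_k1
      yk' := hD.y_k2
      kk := eq_of_norm_le_zero hD.k11
      kk' := zero_of_norm_le_zero hD.k12
      k'k' := eq_of_norm_le_zero hD.k22
      Ly := eq_of_norm_le_zero hD.L1y
      Lv := eq_of_norm_le_zero hD.blk1.Lv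
      e0 := hD.blk1.e_nonneg
      e1 := hD.blk1.e_le
      p0 := hD.blk1.p_nonneg
      m0 := hD.blk1.m_nonneg
      pm := hD.blk1.pm
      N_eq := hD.blk1.N_eq
      ep := zero_of_norm_le_zero hD.blk1.ep
      vv := eq_of_norm_le_zero hD.blk1.vv
      Kv := hD.blk1.Kv
      ec := c1 _ (by simp [base])
      eR := c1 _ (by simp [base])
      eL := c1 _ (by simp [base])
      ek := c1 _ (by simp [base])
      ek' := c1 _ (by simp [base])
      eh := c1 _ (by simp [base])
      eh1 := c1 _ (by simp [base])
      ed := c1 _ (by simp [base])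
      ey := c1 _ (by simp [base])
      er := c1 _ (by simp [base]) }
  have X2 : Ctx (x .c) (x .T) (x .u) (x .h) (x .h1) (x .R) (x .L2) (x .k1) (x .k2)
      (R2 (x .f0) (x .s) (x .b)) (x .y) (x .d) (x .e2) (x .v2) (x .p2) (x .m2) :=
    { hc := hD.c_norm
      hu := hu
      hr := hR2s
      hy := hy
      hd := hd
      hh1 := hh1
      he := he2
      h_le := hD.h_le
      hTT := eq_of_norm_le_zero hD.T_T
      hRT := eq_of_norm_le_zero hD.R_T
      hLT := eq_of_norm_le_zero hD.L2_T
      h0 := h0
      ur := hR2u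
      h1h1 := hD.h1_h1
      yh := hD.y_h
      dh := hD.d_h
      yk := hD.y_k1
      yk' := hD.y_k2
      kk := eq_of_norm_le_zero hD.k11
      kk' := zero_of_norm_le_zero hD.k12
      k'k' := eq_of_norm_le_zero hD.k22
      Ly := eq_of_norm_le_zero hD.L2y
      Lv := eq_of_norm_le_zero hD.blk2.Lv
      e0 := hD.blk2.e_nonneg
      e1 := hD.blk2.e_le
      p0 := hD.blk2.p_nonneg
      m0 := hD.blk2.m_nonneg
      pm := hD.blk2.pm
      N_eq := hD.blk2.N_eq
      ep := zero_of_norm_le_zero hD.blk2.ep
      vv := eq_of_norm_le_zero hD.blk2.vv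
      Kv := hD.blk2.Kv
      ec := c2 _ (by simp [base])
      eR := c2 _ (by simp [base])
      eL := c2 _ (by simp [base])
      ek := c2 _ (by simp [base])
      ek' := c2 _ (by simp [base])
      eh := c2 _ (by simp [base])
      eh1 := c2 _ (by simp [base])
      ed := c2 _ (by simp [base])
      ey := c2 _ (by simp [base])
      er := commR2 _ he2 (c2 _ (by simp [base])) (c2 _ (by simp [base])) (c2 _ (by simp [base])) }
  -- complement of a commuting element
  have compl : ∀ e z : B, e * z = z * e → (1 - e) * z = z * (1 - e) := by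
    intro e z h
    rw [sub_mul, mul_sub, h, one_mul, mul_one]
  have compls : ∀ e : B, star e = e → star (1 - e) = 1 - e := by
    intro e h; rw [star_sub, star_one, h]
  -- STEP A
  have A1 : (1 - x .ew) * x .chi = 0 := by
    refine ustar X1 (1 - x .ew) (compls _ hew) (compl _ _ (cw _ (by simp [base])))
      (compl _ _ (cw _ (by simp [base]))) (compl _ _ (cw _ (by simp [base])))
      (compl _ _ (cw _ (by simp [base]))) (compl _ _ (cw _ (by simp [base])))
      (compl _ _ (cw _ (by simp [base]))) (compl _ _ (cw _ (by simp [base])))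
      (compl _ _ (cw _ (by simp [base]))) (compl _ _ (c1 .ew (by simp)).symm) ?_
    have := zero_of_norm_le_zero hD.ew_w
    rw [mul_sub, sub_eq_zero] at this
    exact this.symm
  have A2 : (1 - x .ew) * ((1 - x .e1) * x .y) = 0 := by
    rw [relR3 X1]
    have q1 := comm_star (compls _ hew) (compl _ _ (cw .L1 (by simp [base])))
    have q2 := comm_star (compls _ hew) (compl _ _ (cw .c (by simp [base])))
    have q3 := compl _ _ (c1 .ew (by simp)).symm
    set D := 1 - x .ew with hDdef
    have q4 : D * (1 - x .e1) = (1 - x .e1) * D := by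
      calc D * (1 - x .e1) = D - D * x .e1 := by noncomm_ring
        _ = _ := by rw [q3]; noncomm_ring
    unfold Kf Th
    calc D * ((1 - x .e1) * (star (x .L1) * (star (x .c) * (x .chi *
            (9 + x .c * x .L1 * (x .k1 * star (x .k1)) * star (x .L1) * star (x .c)) * x .chi)
            * x .c) * x .L1 * x .y))
        = (D * (1 - x .e1)) * (star (x .L1) * (star (x .c) * (x .chi *
            ((9 + x .c * x .L1 * (x .k1 * star (x .k1)) * star (x .L1) * star (x .c)) * x .chi
            * x .c * x .L1 * x .y)))) := by noncomm_ring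
      _ = (1 - x .e1) * (D * (star (x .L1) * (star (x .c) * (x .chi *
            ((9 + x .c * x .L1 * (x .k1 * star (x .k1)) * star (x .L1) * star (x .c)) * x .chi
            * x .c * x .L1 * x .y))))) := by rw [q4]; noncomm_ring
      _ = (1 - x .e1) * (star (x .L1) * (star (x .c) * (D * x .chi *
            ((9 + x .c * x .L1 * (x .k1 * star (x .k1)) * star (x .L1) * star (x .c)) * x .chi
            * x .c * x .L1 * x .y)))) := by
            rw [← mv q1, ← mv q2, ← mul_assoc D (x .chi)]
      _ = 0 := by rw [A1]; simp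
  have A3 : (1 - x .ew) * ((1 - x .e1) * x .f0) = 0 := by
    obtain ⟨-, r2, r3, -⟩ := zrel (x .c) (x .T) (x .u) (x .h) (x .h1) (x .R) (x .f0) X1.hc X1.hTT
      X1.h_le X1.h1h1 X1.hRT X1.h0 X1.hu hD.u_f0
    have Dw := w_comm (compls _ hew) X1 hD.u_f0 (compl _ _ (cw _ (by simp [base])))
      (compl _ _ (cw _ (by simp [base]))) (compl _ _ (cw _ (by simp [base])))
      (compl _ _ (cw _ (by simp [base])))
    have ew' := w_comm (compls _ he1) X1 hD.u_f0 (compl _ _ (c1 _ (by simp [base])))
      (compl _ _ (c1 _ (by simp [base]))) (compl _ _ (c1 _ (by simp [base])))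
      (compl _ _ (c1 _ (by simp [base])))
    have q3 := compl _ _ (c1 .ew (by simp)).symm
    have qf1 := compl _ _ (cw .f0 (by simp [base]))
    have qf2 := compl _ _ (c1 .f0 (by simp [base]))
    have q4 : (1 - x .ew) * (1 - x .e1) = (1 - x .e1) * (1 - x .ew) := by
      rw [mul_sub, mul_one, q3]; noncomm_ring
    set w := star (x .T) * star (x .c) * x .f0 with hw
    set D := 1 - x .ew with hDdef
    set E := 1 - x .e1 with hEdef
    have hDs : star D = D := compls _ hew
    have hEs : star E = E := compls _ he1
    have a1 : D * (E * w) = 0 := by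
      calc D * (E * w) = D * (E * (x .y * x .h * w)) := by rw [hD.y_h, r3]
        _ = D * (E * x .y) * (x .h * w) := by noncomm_ring
        _ = 0 := by rw [A2, zero_mul]
    have a2 : x .f0 * (D * E) = 0 := by
      apply eq_zero_of_star_mul'
      apply cancel_nat 9 (by norm_num)
      push_cast
      calc 9 * (star (x .f0 * (D * E)) * (x .f0 * (D * E)))
          = E * D * (9 * (star (x .f0) * x .f0)) * (D * E) := by
            simp only [star_mul, hDs, hEs]; noncomm_ring
        _ = E * D * star w * (w * (D * E)) := by rw [← r2]; noncomm_ring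
        _ = 9 * 0 := by
            have : w * (D * E) = D * (E * w) := by
              rw [← mul_assoc, ← Dw, mul_assoc, ← ew']
            rw [this, a1]; simp
    calc D * (E * x .f0) = D * (x .f0 * E) := by rw [qf2]
      _ = x .f0 * (D * E) := by rw [← mul_assoc, qf1, mul_assoc]
      _ = 0 := a2
  -- STEP B
  set D := 1 - x .e1 with hDdef
  have hDs : star D = D := compls _ he1
  have Ds : D * x .s = x .s * D := compl _ _ (c1 _ (by simp))
  have Db : D * x .b = x .b * D := compl _ _ (c1 _ (by simp [base]))
  have Df0 : D * x .f0 = x .f0 * D := compl _ _ (c1 _ (by simp [base]))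
  have Dew : D * x .ew = x .ew * D := compl _ _ (c1 _ (by simp))
  have s_b : star (x .s) * x .b = 0 := by
    have := congrArg star hD.b_s
    rwa [star_mul, hb, star_zero] at this
  have ss : star (x .s) * x .s = x .ew * x .f0 * x .ew := eq_of_norm_le_zero hD.s_s
  have ewf0 : x .ew * x .f0 = x .f0 * x .ew := cw _ (by simp [base])
  have B1 : D * (x .ew * x .f0) = D * x .f0 := by
    have : D * x .f0 - D * (x .ew * x .f0) = (1 - x .ew) * (D * x .f0) := by
      calc D * x .f0 - D * (x .ew * x .f0) = D * x .f0 - (D * x .ew) * x .f0 := by noncomm_ring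
        _ = _ := by rw [Dew]; noncomm_ring
    rw [A3] at this
    exact (sub_eq_zero.mp this).symm
  have B2 : D * (star (x .s) * x .s) = D * x .f0 := by
    rw [ss]
    calc D * (x .ew * x .f0 * x .ew) = (D * (x .ew * x .f0)) * x .ew := by noncomm_ring
      _ = D * (x .f0 * x .ew) := by rw [B1]; noncomm_ring
      _ = _ := by rw [← ewf0, B1]
  set v := x .s + x .b with hv
  have hR2v : R2 (x .f0) (x .s) (x .b) = 1 - v * star v := by
    unfold R2
    rw [hv, star_add, hb]
    have : (x .s + x .b) * (star (x .s) + x .b)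
        = x .s * star (x .s) + x .s * x .b + x .b * star (x .s) + x .b * x .b := by noncomm_ring
    rw [this, hD.b_b]; noncomm_ring
  have B3 : D * (star v * v) = D := by
    have : star v * v = star (x .s) * x .s + (1 - x .f0) := by
      rw [hv, star_add, hb]
      calc (star (x .s) + x .b) * (x .s + x .b)
          = star (x .s) * x .s + star (x .s) * x .b + x .b * x .s + x .b * x .b := by noncomm_ring
        _ = _ := by rw [s_b, hD.b_s, hD.b_b]; noncomm_ring
    rw [this, mul_add, B2]; noncomm_ring
  have Dv : D * v = v * D := by rw [hv, mul_add, add_mul, Ds, Db]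
  have Dv' := comm_star hDs Dv
  have B4 : D * (R2 (x .f0) (x .s) (x .b) * R2 (x .f0) (x .s) (x .b))
      = D * R2 (x .f0) (x .s) (x .b) := by
    rw [hR2v]
    have e1 : D * (v * (star v * v) * star v) = D * (v * star v) := by
      calc D * (v * (star v * v) * star v) = (D * v) * ((star v * v) * star v) := by noncomm_ring
        _ = v * (D * (star v * v)) * star v := by rw [Dv]; noncomm_ring
        _ = v * D * star v := by rw [B3]
        _ = _ := by rw [← Dv]; noncomm_ring
    calc D * ((1 - v * star v) * (1 - v * star v))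
        = D - 2 * (D * (v * star v)) + D * (v * (star v * v) * star v) := by noncomm_ring
      _ = _ := by rw [e1]; noncomm_ring
  have B5 : D * R2 (x .f0) (x .s) (x .b) = 0 := by
    refine ustar X2 D hDs (compl _ _ (c1 _ (by simp [base])))
      (compl _ _ (c1 _ (by simp [base]))) (compl _ _ (c1 _ (by simp [base])))
      (compl _ _ (c1 _ (by simp [base]))) (compl _ _ (c1 _ (by simp [base])))
      (compl _ _ (c1 _ (by simp [base]))) (compl _ _ (c1 _ (by simp [base])))
      (commR2 D hDs Df0 Ds Db) (compl _ _ (c2 .e1 (by simp)).symm) B4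
  have fiR2 : R2 (x .f0) (x .s) (x .b) * x .fi = x .fi := by
    have q : x .fi * R2 (x .f0) (x .s) (x .b) = x .fi := by
      unfold R2
      calc x .fi * (x .f0 - x .s * star (x .s) - x .s * x .b - x .b * star (x .s))
          = x .fi * x .f0 - (x .fi * x .s) * star (x .s) - (x .fi * x .s) * x .b
            - (x .fi * x .b) * star (x .s) := by noncomm_ring
        _ = _ := by rw [hD.fi_f0, hD.fi_s, hD.fi_b]; noncomm_ring
    have := congrArg star q
    rwa [star_mul, hR2s, hfi] at this
  have B6 : D * x .fi = 0 := by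
    rw [← fiR2, ← mul_assoc, B5, zero_mul]
  -- STEP C
  have C1 : x .e1 * x .fi = x .fi := by
    rw [hDdef, sub_mul, one_mul, sub_eq_zero] at B6
    exact B6.symm
  exact kill X1 (x .e1) he1 (c1 _ (by simp [base])) (x .fi) hfi C1 hD.chi_fi

end Crest.Agent.SPI
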