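import Crest.Agent.SPI.AlgTools

/-! Row 110: the exact relations of one block. -/

set_option autoImplicit false
set_option linter.unusedSectionVars false
set_option linter.unusedVariables false

namespace Crest.Agent.SPI

universe u

variable {B : Type u} [CStarAlgebra B] [PartialOrder B] [StarOrderedRing B]

/-- exact context of one block -/
structure Ctx (c T u h h1 R L k k' r y d e v p m : B) : Prop where
  hc : ‖c‖ ≤ 1
  hu : star u = u
  hr : star r = r
  hy : star y = y
  hd : star d = d
  hh1 : star h1 = h1
  he : star e = e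
  h_le : h ≤ 1
  hTT : star T * T = 9 * h
  hRT : star R * T = h1
  hLT : star L * T = 2 * v
  h0 : u * (9 - c * T * star T * star c) * u ≤ 0
  ur : u * r = r
  h1h1 : h1 * h1 = h
  yh : y * h = h
  dh : d * h = h
  yk : y * k = k
  yk' : y * k' = k'
  kk : star k * k = d
  kk' : star k * k' = 0
  k'k' : star k' * k' = d
  Ly : star L * L * y = y
  Lv : star L * L * v = v
  e0 : 0 ≤ e
  e1 : e ≤ 1
  p0 : 0 ≤ p
  m0 : 0 ≤ m
  pm : p * m = 0
  N_eq : Nf c L k r y = p - m
  ep : (1 - e) * p = 0
  vv : star v * v = e * h * e
  Kv : star v * (star L * Kf c L k r * L) * v ≤ star v * (star L * L) * v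
  ec : e * c = c * e
  eR : e * R = R * e
  eL : e * L = L * e
  ek : e * k = k * e
  ek' : e * k' = k' * e
  eh : e * h = h * e
  eh1 : e * h1 = h1 * e
  ed : e * d = d * e
  ey : e * y = y * e
  er : e * r = r * e

theorem comm_star {e x : B} (he : star e = e) (h : e * x = x * e) :
    e * star x = star x * e := by
  have := congrArg star h
  rw [star_mul, star_mul, he] at this
  exact this.symm

theorem mv {e x : B} (h : e * x = x * e) (z : B) : x * (e * z) = e * (x * z) := by
  rw [← mul_assoc, ← h, mul_assoc]

section block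

variable {c T u h h1 R L k k' r y d e v p m : B}

theorem Th_nonneg (c L k r : B) (hr : star r = r) : 0 ≤ Th c L k r := by
  have h1 : Th c L k r = star r * (9 + (c * L * k) * star (c * L * k)) * r := by
    unfold Th
    rw [hr]
    simp only [star_mul, mul_assoc]
  rw [h1]
  apply conj_nonneg
  have h9 : (0 : B) ≤ 9 := by
    have := nat_mul_le (B := B) 9 0 1 zero_le_one
    push_cast at this
    simpa using this
  exact add_nonneg h9 (mul_star_self_nonneg _)

theorem Th_ge (c L k r : B) (hr : star r = r) : 9 * (r * r) ≤ Th c L k r := by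
  have h1 : Th c L k r - 9 * (r * r) = star r * ((c * L * k) * star (c * L * k)) * r := by
    unfold Th
    rw [hr]
    simp only [star_mul]
    noncomm_ring
  rw [← sub_nonneg, h1]
  exact conj_nonneg _ _ (mul_star_self_nonneg _)

theorem Th_comm (e c L k r : B) (he : star e = e) (hc : e * c = c * e) (hL : e * L = L * e)
    (hk : e * k = k * e) (hr : e * r = r * e) : e * Th c L k r = Th c L k r * e := by
  have hc' := comm_star he hc
  have hL' := comm_star he hL
  have hk' := comm_star he hk
  unfold Th
  have m1 := mv hc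
  have m2 := mv hL
  have m3 := mv hk
  have m4 := mv hr
  have m5 := mv hc'
  have m6 := mv hL'
  have m7 := mv hk'
  have m9 : ∀ z : B, (9 : B) * (e * z) = e * (9 * z) := fun z => by noncomm_ring
  simp only [mul_add, add_mul, mul_assoc]
  simp only [← hr, m1, m2, m3, m4, m5, m6, m7, m9]

theorem Kf_comm (e c L k r : B) (he : star e = e) (hc : e * c = c * e) (hL : e * L = L * e)
    (hk : e * k = k * e) (hr : e * r = r * e) : e * Kf c L k r = Kf c L k r * e := by
  have hc' := comm_star he hc
  have hT := Th_comm e c L k r he hc hL hk hr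
  unfold Kf
  calc e * (star c * Th c L k r * c) = (e * star c) * Th c L k r * c := by noncomm_ring
    _ = star c * (e * Th c L k r) * c := by rw [hc']; noncomm_ring
    _ = star c * Th c L k r * (e * c) := by rw [hT]; noncomm_ring
    _ = _ := by rw [hc]; noncomm_ring

theorem LKL_comm (e c L k r : B) (he : star e = e) (hc : e * c = c * e) (hL : e * L = L * e)
    (hk : e * k = k * e) (hr : e * r = r * e) :
    e * (star L * Kf c L k r * L) = star L * Kf c L k r * L * e := by
  have hL' := comm_star he hL
  have hK := Kf_comm e c L k r he hc hL hk hr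
  calc e * (star L * Kf c L k r * L) = (e * star L) * Kf c L k r * L := by noncomm_ring
    _ = star L * (e * Kf c L k r) * L := by rw [hL']; noncomm_ring
    _ = star L * Kf c L k r * (e * L) := by rw [hK]; noncomm_ring
    _ = _ := by rw [hL]; noncomm_ring

/-- `w_z` commutes with `D` -/
theorem w_comm {D z : B} (hD : star D = D) (X : Ctx c T u h h1 R L k k' r y d e v p m)
    (huz : u * z = z) (Dc : D * c = c * D) (DR : D * R = R * D) (Dh1 : D * h1 = h1 * D)
    (Dz : D * z = z * D) :
    D * (star T * star c * z) = (star T * star c * z) * D := by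
  obtain ⟨-, -, -, r4⟩ := zrel c T u h h1 R z X.hc X.hTT X.h_le X.h1h1 X.hRT X.h0 X.hu huz
  have Dc' := comm_star hD Dc
  have DR' := comm_star hD DR
  rw [r4]
  calc D * (9 * (h1 * (star R * (star c * z)))) = 9 * ((D * h1) * star R * star c * z) := by
        noncomm_ring
    _ = 9 * (h1 * (D * star R) * star c * z) := by rw [Dh1]; noncomm_ring
    _ = 9 * (h1 * star R * (D * star c) * z) := by rw [DR']; noncomm_ring
    _ = 9 * (h1 * star R * star c * (D * z)) := by rw [Dc']; noncomm_ring
    _ = _ := by rw [Dz]; noncomm_ring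

/-- (R1): `9 r c L L⋆ c⋆ r = 4 e² r²` -/
theorem relR1 (X : Ctx c T u h h1 R L k k' r y d e v p m) :
    9 * (r * c * L * star L * star c * r) = 4 * (e * e * (r * r)) := by
  obtain ⟨r1, r2, r3, -⟩ := zrel c T u h h1 R r X.hc X.hTT X.h_le X.h1h1 X.hRT X.h0 X.hu X.ur
  have hw := w_comm X.he X X.ur X.ec X.eR X.eh1 X.er
  set w := star T * star c * r with hwdef
  have g1 : 9 * (star L * star c * r) = 2 * (v * w) := by
    calc 9 * (star L * star c * r) = star L * (9 * (star c * r)) := by noncomm_ring
      _ = (star L * T) * w := by rw [r1]; noncomm_ring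
      _ = _ := by rw [X.hLT]; noncomm_ring
  have g2 : star (9 * (star L * star c * r)) = 9 * (r * c * L) := by
    simp only [star_mul, star_star, star_ofNat, X.hr]
    noncomm_ring
  have g3 : 81 * (r * c * L * star L * star c * r) = 4 * (star w * (star v * v) * w) := by
    calc 81 * (r * c * L * star L * star c * r)
        = (9 * (r * c * L)) * (9 * (star L * star c * r)) := by noncomm_ring
      _ = star (2 * (v * w)) * (2 * (v * w)) := by rw [← g2, g1]
      _ = _ := by simp only [star_mul, star_ofNat]; noncomm_ring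
  have g4 : star w * (star v * v) * w = 9 * (e * e * (r * r)) := by
    have hws := comm_star X.he hw
    calc star w * (star v * v) * w = (star w * e) * (h * (e * w)) := by
          rw [X.vv]; noncomm_ring
      _ = (e * star w) * (h * w * e) := by rw [← hws, hw]; noncomm_ring
      _ = e * (star w * w) * e := by rw [r3]; noncomm_ring
      _ = 9 * (e * (r * (r * e))) := by rw [r2, X.hr]; noncomm_ring
      _ = 9 * (e * (r * (e * r))) := by rw [← X.er]
      _ = 9 * (e * (e * (r * r))) := by rw [mv X.er]
      _ = _ := by noncomm_ring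
  apply cancel_nat 9 (by norm_num)
  push_cast
  calc 9 * (9 * (r * c * L * star L * star c * r))
      = 81 * (r * c * L * star L * star c * r) := by noncomm_ring
    _ = 9 * (4 * (e * e * (r * r))) := by rw [g3, g4]; noncomm_ring

theorem ThC (X : Ctx c T u h h1 R L k k' r y d e v p m) :
    0 ≤ Th c L k r ∧ u * Th c L k r = Th c L k r ∧ e * Th c L k r = Th c L k r * e := by
  refine ⟨Th_nonneg c L k r X.hr, ?_, Th_comm e c L k r X.he X.ec X.eL X.ek X.er⟩
  unfold Th
  calc u * (r * (9 + c * L * (k * star k) * star L * star c) * r)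
      = (u * r) * (9 + c * L * (k * star k) * star L * star c) * r := by noncomm_ring
    _ = _ := by rw [X.ur]

/-- (R2) and (R3a): `4 e² Θ ≤ 9`, `L⋆ K L ≤ 1`. -/
theorem relR23 (X : Ctx c T u h h1 R L k k' r y d e v p m) :
    4 * (e * e * Th c L k r) ≤ 9 ∧ star L * Kf c L k r * L ≤ 1 := by
  obtain ⟨hΘ0, huΘ, heΘ⟩ := ThC X
  have Kdef : Kf c L k r = star c * Th c L k r * c := rfl
  rw [Kdef]
  have Kv := X.Kv
  rw [Kdef] at Kv
  set Θ := Th c L k r with hΘ
  have hqq := sqrt_sqrt Θ hΘ0
  have hqs := star_sqrt Θ
  have huq := u_sqrt u Θ X.hu hΘ0 huΘ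
  have heq := sqrt_comm Θ e hΘ0 heΘ
  set q := CFC.sqrt Θ with hq
  obtain ⟨r1, r2, r3, -⟩ := zrel c T u h h1 R q X.hc X.hTT X.h_le X.h1h1 X.hRT X.h0 X.hu huq
  have hw := w_comm X.he X huq X.ec X.eR X.eh1 heq
  set w := star T * star c * q with hwdef
  have hws := comm_star X.he hw
  rw [hqs, hqq] at r2
  -- e² Θ
  have hY0 : 0 ≤ e * e * Θ := by
    have g1 : e * e * Θ = star e * Θ * e := by
      calc e * e * Θ = e * (e * Θ) := by noncomm_ring
        _ = e * (Θ * e) := by rw [heΘ]
        _ = star e * Θ * e := by rw [X.he]; noncomm_ring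
    rw [g1]; exact conj_nonneg _ _ hΘ0
  have g1 : 9 * (star L * star c * q) = 2 * (v * w) := by
    calc 9 * (star L * star c * q) = star L * (9 * (star c * q)) := by noncomm_ring
      _ = (star L * T) * w := by rw [r1]; noncomm_ring
      _ = _ := by rw [X.hLT]; noncomm_ring
  have g5 : 9 * (star v * (star L * star c * q)) = 2 * (e * e * w) := by
    calc 9 * (star v * (star L * star c * q)) = star v * (9 * (star L * star c * q)) := by
          noncomm_ring
      _ = 2 * ((star v * v) * w) := by rw [g1]; noncomm_ring
      _ = 2 * (e * h * (e * w)) := by rw [X.vv]; noncomm_ring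
      _ = 2 * (e * (h * w) * e) := by rw [hw]; noncomm_ring
      _ = 2 * (e * (w * e)) := by rw [r3]; noncomm_ring
      _ = _ := by rw [← hw]; noncomm_ring
  -- X X⋆ ≤ e²
  have g6 : star v * (star L * star c * q) * star (star v * (star L * star c * q)) ≤ e * e := by
    have a1 : star v * (star L * star c * q) * star (star v * (star L * star c * q))
        = star v * (star L * (star c * Θ * c) * L) * v := by
      simp only [star_mul, star_star, hqs]
      rw [← hqq]; noncomm_ring
    rw [a1]
    refine Kv.trans ?_
    have a2 : star v * (star L * L) * v = e * h * e := by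
      calc star v * (star L * L) * v = star v * (star L * L * v) := by noncomm_ring
        _ = _ := by rw [X.Lv, X.vv]
    rw [a2]
    have a3 := conj_le _ _ e X.h_le
    rw [X.he, mul_one] at a3
    exact a3
  have g7 : 4 * (e * e * w * star w * (e * e)) ≤ 81 * (e * e) := by
    have a1 := nat_mul_le 81 _ _ g6
    push_cast at a1
    refine le_trans (le_of_eq ?_) a1
    calc 4 * (e * e * w * star w * (e * e))
        = (2 * (e * e * w)) * star (2 * (e * e * w)) := by
          simp only [star_mul, star_ofNat, X.he]; noncomm_ring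
      _ = (9 * (star v * (star L * star c * q))) * star (9 * (star v * (star L * star c * q))) := by
          rw [g5]
      _ = _ := by simp only [star_mul, star_ofNat]; noncomm_ring
  have g8 := conj_le _ _ w g7
  have g9 : star w * (e * e) * w = 9 * (e * e * Θ) := by
    calc star w * (e * e) * w = (star w * e) * (e * w) := by noncomm_ring
      _ = (e * star w) * (w * e) := by rw [hws, hw]
      _ = e * (star w * w) * e := by noncomm_ring
      _ = 9 * (e * (Θ * e)) := by rw [r2]; noncomm_ring
      _ = _ := by rw [← heΘ]; noncomm_ring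
  have g10 : star w * (4 * (e * e * w * star w * (e * e))) * w
      = 4 * (81 * ((e * e * Θ) * (e * e * Θ))) := by
    calc star w * (4 * (e * e * w * star w * (e * e))) * w
        = 4 * ((star w * (e * e) * w) * (star w * (e * e) * w)) := by noncomm_ring
      _ = _ := by rw [g9]; noncomm_ring
  have g11 : star w * (81 * (e * e)) * w = 81 * (9 * (e * e * Θ)) := by
    calc star w * (81 * (e * e)) * w = 81 * (star w * (e * e) * w) := by noncomm_ring
      _ = _ := by rw [g9]
  rw [g10, g11] at g8
  have g12 : 4 * ((e * e * Θ) * (e * e * Θ)) ≤ 9 * (e * e * Θ) := by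
    apply le_of_nat 81 (by norm_num)
    push_cast
    calc 81 * (4 * ((e * e * Θ) * (e * e * Θ)))
        = 4 * (81 * ((e * e * Θ) * (e * e * Θ))) := by noncomm_ring
      _ ≤ _ := g8
  have R2 : 4 * (e * e * Θ) ≤ 9 := four_le_nine _ hY0 g12
  refine ⟨R2, ?_⟩
  -- G = L⋆ c⋆ q
  have k1 : star (star L * star c * q) * (star L * star c * q) ≤ 1 := by
    apply le_of_nat 81 (by norm_num)
    push_cast
    calc 81 * (star (star L * star c * q) * (star L * star c * q))
        = star (9 * (star L * star c * q)) * (9 * (star L * star c * q)) := by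
          simp only [star_mul, star_star, star_ofNat]; noncomm_ring
      _ = 4 * (star w * (star v * v) * w) := by
          rw [g1]; simp only [star_mul, star_ofNat]; noncomm_ring
      _ = 4 * ((star w * e) * (h * (e * w))) := by rw [X.vv]; noncomm_ring
      _ = 4 * ((e * star w) * ((h * w) * e)) := by rw [← hws, hw]; noncomm_ring
      _ = 4 * (e * (star w * w) * e) := by rw [r3]; noncomm_ring
      _ = 4 * (9 * (e * (Θ * e))) := by rw [r2]; noncomm_ring
      _ = 9 * (4 * (e * e * Θ)) := by rw [← heΘ]; noncomm_ring
      _ ≤ 9 * 9 := by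
          have := nat_mul_le 9 _ _ R2
          push_cast at this
          exact this
      _ = 81 * 1 := by norm_num
  have k2 := norm_le_of_star_mul_le _ k1
  have k3 := mul_star_le_of_norm _ k2
  refine le_trans (le_of_eq ?_) k3
  simp only [star_mul, star_star, hqs]
  rw [← hqq]; noncomm_ring

/-- (R3): `(1-e) y = (1-e) L⋆ K L y`. -/
theorem relR3 (X : Ctx c T u h h1 R L k k' r y d e v p m) :
    (1 - e) * y = (1 - e) * ((star L * Kf c L k r * L) * y) := by
  obtain ⟨-, hle⟩ := relR23 X
  have hcomm := LKL_comm e c L k r X.he X.ec X.eL X.ek X.er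
  have hN : Nf c L k r y = y * (1 - star L * Kf c L k r * L) * y := by
    unfold Nf
    calc y * (star L * L - star L * Kf c L k r * L) * y
        = y * (star L * L * y) - y * (star L * Kf c L k r * L) * y := by noncomm_ring
      _ = _ := by rw [X.Ly]; noncomm_ring
  set G := star L * Kf c L k r * L with hG
  have hN0 : 0 ≤ Nf c L k r y := by
    rw [hN]
    have := conj_nonneg _ y (sub_nonneg.mpr hle)
    rwa [X.hy] at this
  -- m = 0
  have hms : star m = m := (IsSelfAdjoint.of_nonneg X.m0).star_eq
  have hm : m = 0 := by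
    apply cube_zero m X.m0
    have a1 := conj_nonneg _ m hN0
    rw [hms, X.N_eq] at a1
    have a2 : m * (p - m) * m = - (m * m * m) := by
      calc m * (p - m) * m = m * (p * m) - m * m * m := by noncomm_ring
        _ = _ := by rw [X.pm]; noncomm_ring
    rw [a2] at a1
    exact neg_nonneg.mp a1
  have hNp : (1 - e) * (y * (1 - G) * y) = 0 := by
    rw [← hN, X.N_eq, hm, sub_zero, X.ep]
  have hX0 : 0 ≤ 1 - G := sub_nonneg.mpr hle
  have hqq := sqrt_sqrt (1 - G) hX0
  have hqs := star_sqrt (1 - G)
  set q := CFC.sqrt (1 - G) with hq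
  have a1 : q * y * (1 - e) = 0 := by
    apply eq_zero_of_star_mul'
    calc star (q * y * (1 - e)) * (q * y * (1 - e))
        = (1 - e) * (y * (q * q) * y) * (1 - e) := by
          simp only [star_mul, star_sub, star_one, X.he, X.hy, hqs]; noncomm_ring
      _ = 0 := by rw [hqq, hNp, zero_mul]
  have a2 : (1 - G) * y * (1 - e) = 0 := by
    rw [← hqq]
    calc q * q * y * (1 - e) = q * (q * y * (1 - e)) := by noncomm_ring
      _ = 0 := by rw [a1, mul_zero]
  have a3 : (1 - e) * ((1 - G) * y) = 0 := by
    calc (1 - e) * ((1 - G) * y)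
        = (1 - G) * y - (e * y - (e * G) * y) := by noncomm_ring
      _ = (1 - G) * y - (1 - G) * (e * y) := by rw [hcomm]; noncomm_ring
      _ = (1 - G) * y * (1 - e) := by rw [X.ey]; noncomm_ring
      _ = 0 := a2
  have a4 : (1 - e) * y - (1 - e) * (G * y) = 0 := by
    rw [← a3]; noncomm_ring
  exact sub_eq_zero.mp a4

end block

end Crest.Agent.SPI
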