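import Crest.Agent.SPI.Defs

/-! Row 110: tools for the exact algebra. -/

set_option autoImplicit false
set_option linter.unusedSectionVars false
set_option linter.unusedVariables false

namespace Crest.Agent.SPI

universe u

variable {B : Type u} [CStarAlgebra B] [PartialOrder B] [StarOrderedRing B]

theorem natCast_eq (n : ℕ) (X : B) : (n : B) * X = (n : ℝ) • X := by
  rw [Nat.cast_smul_eq_nsmul, nsmul_eq_mul]

theorem cancel_nat (n : ℕ) (hn : n ≠ 0) (X Y : B) (h : (n : B) * X = (n : B) * Y) : X = Y := by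
  rw [natCast_eq, natCast_eq] at h
  have hn' : (n : ℝ) ≠ 0 := by exact_mod_cast hn
  exact smul_right_injective B hn' h

theorem nonpos_of_nat (n : ℕ) (hn : n ≠ 0) (X : B) (h : (n : B) * X ≤ 0) : X ≤ 0 := by
  rw [natCast_eq] at h
  have hn' : (0 : ℝ) < n := by exact_mod_cast Nat.pos_of_ne_zero hn
  have h2 : 0 ≤ (n : ℝ) • (-X) := by rw [smul_neg]; exact neg_nonneg.mpr h
  have h3 : 0 ≤ ((n : ℝ)⁻¹) • ((n : ℝ) • (-X)) := smul_nonneg (by positivity) h2
  rw [smul_smul, inv_mul_cancel₀ hn'.ne', one_smul] at h3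
  exact neg_nonneg.mp h3

theorem le_of_nat (n : ℕ) (hn : n ≠ 0) (X Y : B) (h : (n : B) * X ≤ (n : B) * Y) : X ≤ Y := by
  have := nonpos_of_nat n hn (X - Y) (by rw [mul_sub]; exact sub_nonpos.mpr h)
  exact sub_nonpos.mp this

theorem nat_mul_le (n : ℕ) (X Y : B) (h : X ≤ Y) : (n : B) * X ≤ (n : B) * Y := by
  rw [natCast_eq, natCast_eq]
  exact smul_le_smul_of_nonneg_left h (by positivity)

theorem eq_zero_of_star_mul (X : B) (h : star X * X ≤ 0) : X = 0 := by
  have h2 : star X * X = 0 := le_antisymm h (star_mul_self_nonneg X)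
  exact (CStarRing.star_mul_self_eq_zero_iff X).mp h2

theorem eq_zero_of_star_mul' (X : B) (h : star X * X = 0) : X = 0 :=
  (CStarRing.star_mul_self_eq_zero_iff X).mp h

theorem eq_zero_of_mul_star (X : B) (h : X * star X = 0) : X = 0 :=
  (CStarRing.mul_star_self_eq_zero_iff X).mp h

theorem conj_le (X Y Z : B) (h : X ≤ Y) : star Z * X * Z ≤ star Z * Y * Z :=
  star_left_conjugate_le_conjugate h Z

theorem conj_le' (X Y Z : B) (h : X ≤ Y) : Z * X * star Z ≤ Z * Y * star Z :=
  star_right_conjugate_le_conjugate h Z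

theorem conj_nonneg (X Z : B) (h : 0 ≤ X) : 0 ≤ star Z * X * Z :=
  star_left_conjugate_nonneg h Z

theorem conj_nonneg' (X Z : B) (h : 0 ≤ X) : 0 ≤ Z * X * star Z :=
  star_right_conjugate_nonneg h Z

theorem star_mul_le_of_norm (X : B) (h : ‖X‖ ≤ 1) : star X * X ≤ 1 := by
  have h1 := CStarAlgebra.star_mul_le_algebraMap_norm_sq (a := X)
  have h2 : algebraMap ℝ B (‖X‖ ^ 2) ≤ algebraMap ℝ B 1 := by
    apply algebraMap_mono
    nlinarith [norm_nonneg X]
  simpa using h1.trans h2

theorem mul_star_le_of_norm (X : B) (h : ‖X‖ ≤ 1) : X * star X ≤ 1 := by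
  have := star_mul_le_of_norm (star X) (by rwa [norm_star])
  simpa using this

theorem norm_le_of_star_mul_le (X : B) (h : star X * X ≤ 1) : ‖X‖ ≤ 1 := by
  have h1 : ‖star X * X‖ ≤ 1 :=
    (CStarAlgebra.norm_le_one_iff_of_nonneg (star X * X) (star_mul_self_nonneg X)).mpr h
  rw [CStarRing.norm_star_mul_self] at h1
  nlinarith [norm_nonneg X]

/-- `Y ≥ 0`, `4 Y² ≤ 9 Y ⇒ 4 Y ≤ 9`. -/
theorem four_le_nine (Y : B) (hY : 0 ≤ Y) (h : 4 * (Y * Y) ≤ 9 * Y) : 4 * Y ≤ 9 := by
  have hsa : IsSelfAdjoint Y := IsSelfAdjoint.of_nonneg hY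
  have h4 : (4 : B) * (Y * Y) = (4 : ℝ) • (Y * Y) := by
    have := natCast_eq 4 (Y * Y); push_cast at this; exact this
  have h9 : (9 : B) * Y = (9 : ℝ) • Y := by
    have := natCast_eq 9 Y; push_cast at this; exact this
  have h4' : (4 : B) * Y = (4 : ℝ) • Y := by
    have := natCast_eq 4 Y; push_cast at this; exact this
  have h0 : 0 ≤ (4 : B) * (Y * Y) := by
    rw [h4]
    have : 0 ≤ Y * Y := by
      have := star_mul_self_nonneg Y
      rwa [hsa.star_eq] at this
    exact smul_nonneg (by norm_num) this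
  have hn := CStarAlgebra.norm_le_norm_of_nonneg_of_le h0 h
  rw [h4, h9, norm_smul, norm_smul] at hn
  have hYY : ‖Y * Y‖ = ‖Y‖ * ‖Y‖ := by
    have := CStarRing.norm_star_mul_self (x := Y)
    rwa [hsa.star_eq] at this
  rw [hYY] at hn
  simp only [Real.norm_ofNat] at hn
  have hle : ‖Y‖ ≤ 9 / 4 := by
    by_contra hcon
    push Not at hcon
    nlinarith [norm_nonneg Y]
  have h5 : Y ≤ algebraMap ℝ B (9 / 4) :=
    (hsa.le_algebraMap_norm_self).trans (algebraMap_mono B hle)
  rw [h4']
  have h6 : (4 : ℝ) • Y ≤ (4 : ℝ) • algebraMap ℝ B (9 / 4) :=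
    smul_le_smul_of_nonneg_left h5 (by norm_num)
  refine h6.trans (le_of_eq ?_)
  rw [Algebra.smul_def, ← map_mul]
  norm_num
  exact map_ofNat (algebraMap ℝ B) 9

/-- `m ≥ 0`, `m³ ≤ 0 ⇒ m = 0`. -/
theorem cube_zero (m : B) (hm : 0 ≤ m) (h : m * m * m ≤ 0) : m = 0 := by
  have hsa : star m = m := (IsSelfAdjoint.of_nonneg hm).star_eq
  have h0 : 0 ≤ m * m * m := by
    have := conj_nonneg m m hm
    rwa [hsa] at this
  have h1 : m * m * m = 0 := le_antisymm h h0
  have h2 : star (m * m) * (m * m) = 0 := by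
    rw [star_mul, hsa]
    calc m * m * (m * m) = (m * m * m) * m := by noncomm_ring
      _ = 0 := by rw [h1, zero_mul]
  have h3 := eq_zero_of_star_mul' _ h2
  apply eq_zero_of_star_mul'
  rw [hsa, h3]

/-- sqrt of a positive element commutes with what commutes with it -/
theorem sqrt_comm (Θ e : B) (hΘ : 0 ≤ Θ) (h : e * Θ = Θ * e) :
    e * CFC.sqrt Θ = CFC.sqrt Θ * e := by
  have h1 : Commute Θ e := h.symm
  rw [CFC.sqrt_eq_cfc]
  exact (h1.cfc_nnreal NNReal.sqrt).symm

theorem sqrt_sqrt (Θ : B) (hΘ : 0 ≤ Θ) : CFC.sqrt Θ * CFC.sqrt Θ = Θ :=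
  CFC.sqrt_mul_sqrt_self Θ hΘ

theorem star_sqrt (Θ : B) : star (CFC.sqrt Θ) = CFC.sqrt Θ :=
  (IsSelfAdjoint.of_nonneg (CFC.sqrt_nonneg Θ)).star_eq

theorem u_sqrt (u Θ : B) (hu : star u = u) (hΘ : 0 ≤ Θ) (h : u * Θ = Θ) :
    u * CFC.sqrt Θ = CFC.sqrt Θ := by
  have h1 : (1 - u) * CFC.sqrt Θ = 0 := by
    apply eq_zero_of_mul_star
    rw [star_mul, star_sqrt, star_sub, star_one, hu]
    calc (1 - u) * CFC.sqrt Θ * (CFC.sqrt Θ * (1 - u))
        = (1 - u) * (CFC.sqrt Θ * CFC.sqrt Θ) * (1 - u) := by noncomm_ring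
      _ = 0 := by rw [sqrt_sqrt Θ hΘ, sub_mul, one_mul, h, sub_self, zero_mul]
  rw [sub_mul, one_mul, sub_eq_zero] at h1
  exact h1.symm

/-- relation (0) and its consequences, for `u z = z`, `w = T⋆ c⋆ z`. -/
theorem zrel (c T u h h1 R z : B) (hc : ‖c‖ ≤ 1) (hTT : star T * T = 9 * h) (hle : h ≤ 1)
    (hh : h1 * h1 = h) (hRT : star R * T = h1)
    (h0 : u * (9 - c * T * star T * star c) * u ≤ 0) (hu : star u = u) (huz : u * z = z) :
    9 * (star c * z) = T * (star T * star c * z) ∧
    star (star T * star c * z) * (star T * star c * z) = 9 * (star z * z) ∧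
    h * (star T * star c * z) = star T * star c * z ∧
    star T * star c * z = 9 * (h1 * (star R * (star c * z))) := by
  have hzu : star z * u = star z := by
    have := congrArg star huz
    rwa [star_mul, hu] at this
  set w := star T * star c * z with hw
  have hsw : star w = star z * c * T := by
    rw [hw]; simp only [star_mul, star_star, mul_assoc]
  have hww1 : 9 * (star z * z) ≤ star w * w := by
    have h1 := conj_le _ _ z h0
    have h2 : star z * (u * (9 - c * T * star T * star c) * u) * z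
        = 9 * (star z * z) - star w * w := by
      calc star z * (u * (9 - c * T * star T * star c) * u) * z
          = (star z * u) * (9 - c * T * star T * star c) * (u * z) := by noncomm_ring
        _ = 9 * (star z * z) - (star z * c * T) * (star T * star c * z) := by
            rw [hzu, huz]; noncomm_ring
        _ = _ := by rw [hsw]
    rw [h2, mul_zero, zero_mul] at h1
    exact sub_nonpos.mp h1
  have hcc : star z * (c * star c) * z ≤ star z * z := by
    have := conj_le _ _ z (mul_star_le_of_norm c hc)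
    simpa using this
  have hwhw : star w * h * w ≤ star w * w := by
    have := conj_le _ _ w hle
    simpa using this
  have hA : star (9 * (star c * z) - T * w) * (9 * (star c * z) - T * w)
      = 81 * (star z * (c * star c) * z) - 18 * (star w * w) + 9 * (star w * h * w) := by
    have e1 : star z * c * T * w = star w * w := by rw [hsw]
    have e2 : star w * (star T * star c * z) = star w * w := by rw [← hw]
    calc star (9 * (star c * z) - T * w) * (9 * (star c * z) - T * w)
        = 81 * (star z * (c * star c) * z) - 9 * (star z * c * T * w)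
          - 9 * (star w * (star T * star c * z)) + star w * (star T * T) * w := by
          simp only [star_sub, star_mul, star_star, star_ofNat]
          noncomm_ring
      _ = _ := by rw [e1, e2, hTT]; noncomm_ring
  have hA2 : star (9 * (star c * z) - T * w) * (9 * (star c * z) - T * w)
      ≤ 9 * (9 * (star z * z) - star w * w) := by
    rw [hA]
    have g1 := nat_mul_le 81 _ _ hcc
    have g2 := nat_mul_le 9 _ _ hwhw
    push_cast at g1 g2
    calc 81 * (star z * (c * star c) * z) - 18 * (star w * w) + 9 * (star w * h * w)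
        ≤ 81 * (star z * z) - 18 * (star w * w) + 9 * (star w * w) := by gcongr
      _ = _ := by noncomm_ring
  have hle0 : 9 * (9 * (star z * z) - star w * w) ≤ 0 := by
    have := nat_mul_le 9 _ _ (sub_nonpos.mpr hww1)
    push_cast at this
    simpa using this
  have hA0 : 9 * (star c * z) - T * w = 0 := eq_zero_of_star_mul _ (hA2.trans hle0)
  have r1 : 9 * (star c * z) = T * w := sub_eq_zero.mp hA0
  have r2 : star w * w = 9 * (star z * z) := by
    have g : (0 : B) ≤ 9 * (9 * (star z * z) - star w * w) :=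
      (star_mul_self_nonneg _).trans hA2
    have g2 : (9 : B) * (9 * (star z * z) - star w * w) = 9 * 0 := by
      rw [mul_zero]; exact le_antisymm hle0 g
    have g3 := cancel_nat 9 (by norm_num) (9 * (star z * z) - star w * w) 0
      (by push_cast; exact g2)
    exact (sub_eq_zero.mp g3).symm
  have r3 : h * w = w := by
    apply cancel_nat 9 (by norm_num)
    push_cast
    calc 9 * (h * w) = (star T * T) * w := by rw [hTT]; noncomm_ring
      _ = star T * (T * w) := by noncomm_ring
      _ = 9 * (star T * star c * z) := by rw [← r1]; noncomm_ring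
      _ = 9 * w := by rw [← hw]
  refine ⟨r1, r2, r3, ?_⟩
  calc w = h * w := r3.symm
    _ = h1 * (h1 * w) := by rw [← hh]; noncomm_ring
    _ = h1 * (star R * (T * w)) := by rw [← hRT]; noncomm_ring
    _ = 9 * (h1 * (star R * (star c * z))) := by rw [← r1]; noncomm_ring

end Crest.Agent.SPI
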