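import Crest.Agent.SPI.AlgBlock

/-! Row 110: the claim (U*). -/

set_option autoImplicit false
set_option linter.unusedSectionVars false
set_option linter.unusedVariables false

namespace Crest.Agent.SPI

universe u

variable {B : Type u} [CStarAlgebra B] [PartialOrder B] [StarOrderedRing B]

variable {c T u h h1 R L k k' r y d e v p m : B}

/-- final estimate: `4 e Θ e ≤ 9`, `Θ ≥ 9 r²`, `D e r = D r` ⇒ `D r = 0`. -/
theorem kill (X : Ctx c T u h h1 R L k k' r y d e v p m) (D : B) (hD : star D = D)
    (Dr : D * r = r * D) (z : B) (hz : star z = z)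
    (hez : e * z = z) (hrz : r * z = z) : z = 0 := by
  have R2 := (relR23 X).1
  obtain ⟨hΘ0, huΘ, heΘ⟩ := ThC X
  have hge := Th_ge c L k r X.hr
  have a1 : 4 * (e * (9 * (r * r)) * e) ≤ 9 := by
    have b1 := conj_le _ _ e hge
    rw [X.he] at b1
    have b2 := nat_mul_le 4 _ _ b1
    push_cast at b2
    refine b2.trans (le_trans (le_of_eq ?_) R2)
    calc 4 * (e * Th c L k r * e) = 4 * (e * (Th c L k r * e)) := by noncomm_ring
      _ = 4 * (e * e * Th c L k r) := by rw [← heΘ]; noncomm_ring
  have hze : z * e = z := by
    have := congrArg star hez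
    rwa [star_mul, X.he, hz] at this
  have hzr : z * r = z := by
    have := congrArg star hrz
    rwa [star_mul, X.hr, hz] at this
  have a2 := conj_le _ _ z a1
  rw [hz] at a2
  have a3 : z * (4 * (e * (9 * (r * r)) * e)) * z = 9 * (4 * (z * z)) := by
    calc z * (4 * (e * (9 * (r * r)) * e)) * z
        = 9 * (4 * ((z * e) * (r * r) * (e * z))) := by noncomm_ring
      _ = 9 * (4 * ((z * r) * (r * z))) := by rw [hze, hez]; noncomm_ring
      _ = _ := by rw [hzr, hrz]
  have a4 : z * 9 * z = 9 * (z * z) := by noncomm_ring
  rw [a3, a4] at a2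
  have a5 : 4 * (z * z) ≤ z * z := by
    apply le_of_nat 9 (by norm_num)
    push_cast
    exact a2
  have a6 : 3 * (z * z) ≤ 0 := by
    have : 3 * (z * z) = 4 * (z * z) - z * z := by noncomm_ring
    rw [this]
    exact sub_nonpos.mpr a5
  have a7 : z * z ≤ 0 := nonpos_of_nat 3 (by norm_num) _ (by push_cast; exact a6)
  apply eq_zero_of_star_mul
  rw [hz]
  exact a7

/-- (U*), first part: `E = D (1 - e)` kills `d`. -/
theorem ustar_d (X : Ctx c T u h h1 R L k k' r y d e v p m) (E : B) (hE : star E = E)
    (Ec : E * c = c * E) (EL : E * L = L * E) (Ek : E * k = k * E)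
    (Ek' : E * k' = k' * E) (Ed : E * d = d * E) (Er : E * r = r * E) (Ee : E * e = e * E)
    (hE3 : ∀ z : B, y * z = z → E * z = E * ((star L * Kf c L k r * L) * z))
    (hEr : E * (r * r) = E * r) : E * d = 0 := by
  have hc' := comm_star X.he X.ec
  have hL' := comm_star X.he X.eL
  have hk' := comm_star X.he X.ek
  have hk2' := comm_star X.he X.ek'
  have Ec' := comm_star hE Ec
  have EL' := comm_star hE EL
  have Ek1' := comm_star hE Ek
  have Ek2' := comm_star hE Ek'
  set a := star L * star c * r * c * L with ha
  -- commutation of a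
  have ea : e * a = a * e := by
    rw [ha]
    simp only [mul_assoc]
    simp only [← X.eL, mv X.eL, mv X.ec, mv X.er, mv hc', mv hL']
  have Ea : E * a = a * E := by
    rw [ha]
    simp only [mul_assoc]
    simp only [← EL, mv EL, mv Ec, mv Er, mv Ec', mv EL']
  -- 9 E a² = 4 e² E a
  have i1 : E * (9 * (a * a)) = 4 * (e * e * (E * a)) := by
    have R1 := relR1 X
    calc E * (9 * (a * a))
        = E * (star L * star c * (9 * (r * c * L * star L * star c * r)) * c * L) := by
          rw [ha]; noncomm_ring
      _ = E * (star L * star c * (4 * (e * e * (r * r))) * c * L) := by rw [R1]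
      _ = 4 * (E * (star L * (star c * (e * (e * (r * (r * (c * L)))))))) := by noncomm_ring
      _ = 4 * (e * (e * (E * (star L * (star c * (r * (r * (c * L)))))))) := by
          rw [mv hc', mv hL', mv hc', mv hL', mv Ee.symm, mv Ee.symm]
      _ = 4 * (e * (e * (star L * (star c * ((E * (r * r)) * (c * L)))))) := by
          rw [← mv EL', ← mv Ec']
          noncomm_ring
      _ = 4 * (e * (e * (star L * (star c * (E * (r * (c * L))))))) := by
          rw [hEr]; noncomm_ring
      _ = _ := by
          rw [mv Ec', mv EL', ha]; noncomm_ring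
  -- E L⋆KL = E (9 a + a k k⋆ a)
  have i2 : E * (star L * Kf c L k r * L) = E * (9 * a + a * (k * star k) * a) := by
    calc E * (star L * Kf c L k r * L)
        = 9 * (E * (star L * (star c * (r * (r * (c * L)))))) + E * (a * (k * star k) * a) := by
          rw [ha]; unfold Kf Th; noncomm_ring
      _ = 9 * (star L * (star c * ((E * (r * r)) * (c * L)))) + E * (a * (k * star k) * a) := by
          rw [← mv EL', ← mv Ec']
          noncomm_ring
      _ = 9 * (star L * (star c * (E * (r * (c * L))))) + E * (a * (k * star k) * a) := by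
          rw [hEr]; noncomm_ring
      _ = _ := by
          rw [mv Ec', mv EL', ha]; noncomm_ring
  -- for z with y z = z
  have i3 : ∀ z : B, y * z = z → E * z = E * ((9 * a + a * (k * star k) * a) * z) := by
    intro z hz
    rw [hE3 z hz, ← mul_assoc, i2, mul_assoc]
  have i4 : ∀ z : B, y * z = z → 9 * (a * (E * z)) = 4 * (e * e * (E * z)) := by
    intro z hz
    have j := i3 z hz
    calc 9 * (a * (E * z)) = 9 * (a * (E * ((9 * a + a * (k * star k) * a) * z))) := by rw [← j]
      _ = 9 * (E * (a * ((9 * a + a * (k * star k) * a) * z))) := by rw [mv Ea]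
      _ = 9 * ((E * (9 * (a * a))) * z) + (E * (9 * (a * a))) * (k * star k * a * z) := by
          noncomm_ring
      _ = 9 * ((4 * (e * e * (E * a))) * z) + (4 * (e * e * (E * a))) * (k * star k * a * z) := by
          rw [i1]
      _ = 4 * (e * e * (E * ((9 * a + a * (k * star k) * a) * z))) := by noncomm_ring
      _ = _ := by rw [← j]
  -- a k k⋆ a
  have i5 : ∀ z : B, y * z = z →
      81 * (E * (a * (k * star k) * a * z)) = 16 * (e * e * (e * e * (E * (k * (star k * z))))) := by
    intro z hz
    calc 81 * (E * (a * (k * star k) * a * z))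
        = 9 * (E * (a * (k * (star k * (9 * (a * z)))))) := by noncomm_ring
      _ = 9 * (a * (k * (star k * (9 * (a * (E * z)))))) := by
          rw [← mv Ea, ← mv Ek, ← mv Ek1']
          have : E * (9 * (a * z)) = 9 * (a * (E * z)) := by
            rw [mv Ea]; noncomm_ring
          rw [this]
      _ = 9 * (a * (k * (star k * (4 * (e * (e * (E * z))))))) := by
          rw [i4 z hz]; noncomm_ring
      _ = 4 * (9 * (a * (k * (star k * (e * (e * (E * z))))))) := by noncomm_ring
      _ = 4 * (9 * (a * (e * (e * (E * (k * (star k * z))))))) := by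
          rw [mv hk', mv hk', mv Ek1', mv X.ek, mv X.ek, mv Ek]
      _ = 4 * (e * (e * (9 * (a * (E * (k * (star k * z))))))) := by
          rw [mv ea, mv ea]; noncomm_ring
      _ = 4 * (e * (e * (4 * (e * e * (E * (k * (star k * z))))))) := by
          rw [i4 (k * (star k * z)) (by rw [← mul_assoc, X.yk])]
      _ = _ := by noncomm_ring
  have i6 : ∀ z : B, y * z = z →
      81 * (E * z) = 324 * (e * e * (E * z)) + 16 * (e * e * (e * e * (E * (k * (star k * z))))) := by
    intro z hz
    calc 81 * (E * z) = 81 * (E * ((9 * a + a * (k * star k) * a) * z)) := by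
          rw [← i3 z hz]
      _ = 81 * (9 * (E * (a * z))) + 81 * (E * (a * (k * star k) * a * z)) := by noncomm_ring
      _ = 81 * (9 * (a * (E * z))) + 81 * (E * (a * (k * star k) * a * z)) := by rw [mv Ea]
      _ = _ := by rw [i4 z hz, i5 z hz]; noncomm_ring
  -- i = 2
  have i7 : E * d = 4 * (e * e * (E * d)) := by
    have j := i6 k' X.yk'
    simp only [X.kk', mul_zero, add_zero] at j
    have j2 : 81 * (E * d) = 324 * (e * e * (E * d)) := by
      calc 81 * (E * d) = star k' * (81 * (E * k')) := by
            rw [← X.k'k']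
            have := mv Ek2' k'
            calc 81 * (E * (star k' * k')) = 81 * (star k' * (E * k')) := by rw [this]
              _ = _ := by noncomm_ring
        _ = star k' * (324 * (e * e * (E * k'))) := by rw [j]
        _ = 324 * (star k' * (e * (e * (E * k')))) := by noncomm_ring
        _ = 324 * (e * (e * (E * (star k' * k')))) := by
            rw [mv hk2', mv hk2', mv Ek2']
        _ = _ := by rw [X.k'k']; noncomm_ring
    apply cancel_nat 81 (by norm_num)
    push_cast
    rw [j2]; noncomm_ring
  -- i = 1
  have i8 : 81 * (E * d) = 324 * (e * e * (E * d)) + 16 * (e * e * (e * e * (E * (d * d)))) := by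
    have j := i6 k X.yk
    calc 81 * (E * d) = star k * (81 * (E * k)) := by
            rw [← X.kk]
            have := mv Ek1' k
            calc 81 * (E * (star k * k)) = 81 * (star k * (E * k)) := by rw [this]
              _ = _ := by noncomm_ring
      _ = star k * (324 * (e * e * (E * k)) + 16 * (e * e * (e * e * (E * (k * (star k * k)))))) := by
          rw [j]
      _ = 324 * (star k * (e * (e * (E * k))))
          + 16 * (star k * (e * (e * (e * (e * (E * (k * (star k * k)))))))) := by noncomm_ring
      _ = 324 * (e * (e * (E * (star k * k))))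
          + 16 * (e * (e * (e * (e * (E * ((star k * k) * (star k * k))))))) := by
          rw [mv hk', mv hk', mv Ek1', mv hk', mv hk', mv hk', mv hk', mv Ek1']
          noncomm_ring
      _ = _ := by rw [X.kk]; noncomm_ring
  have i9 : e * e * (e * e * (E * (d * d))) = 0 := by
    apply cancel_nat 16 (by norm_num)
    push_cast
    have j : 81 * (E * d) = 324 * (e * e * (E * d)) := by
      calc 81 * (E * d) = 81 * (4 * (e * e * (E * d))) := by rw [← i7]
        _ = _ := by noncomm_ring
    rw [mul_zero]
    have j2 := i8
    rw [← j] at j2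
    exact (left_eq_add.mp j2)
  have i10 : E * (d * d) = 0 := by
    calc E * (d * d) = (E * d) * d := by noncomm_ring
      _ = 4 * (e * e * (E * d)) * d := by conv_lhs => rw [i7]
      _ = 4 * (e * e * (4 * (e * e * (E * d)))) * d := by conv_lhs => rw [i7]
      _ = 16 * (e * e * (e * e * (E * (d * d)))) := by noncomm_ring
      _ = 0 := by rw [i9, mul_zero]
  apply eq_zero_of_mul_star
  rw [star_mul, hE, X.hd]
  calc E * d * (d * E) = E * (d * d) * E := by noncomm_ring
    _ = 0 := by rw [i10, zero_mul]

/-- (U*) -/
theorem ustar (X : Ctx c T u h h1 R L k k' r y d e v p m) (D : B) (hD : star D = D)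
    (Dc : D * c = c * D) (DR : D * R = R * D) (DL : D * L = L * D) (Dk : D * k = k * D)
    (Dk' : D * k' = k' * D) (Dh1 : D * h1 = h1 * D) (Dd : D * d = d * D)
    (Dr : D * r = r * D) (De : D * e = e * D) (hDr : D * (r * r) = D * r) : D * r = 0 := by
  have comb : ∀ z : B, D * z = z * D → e * z = z * e → D * (1 - e) * z = z * (D * (1 - e)) := by
    intro z h1 h2
    calc D * (1 - e) * z = D * z - D * (e * z) := by noncomm_ring
      _ = D * z - (D * z) * e := by rw [h2]; noncomm_ring
      _ = z * D - (z * D) * e := by rw [h1]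
      _ = _ := by noncomm_ring
  set E := D * (1 - e) with hEdef
  have hE : star E = E := by
    rw [hEdef, star_mul, star_sub, star_one, X.he, hD]
    calc (1 - e) * D = D - e * D := by noncomm_ring
      _ = _ := by rw [← De]; noncomm_ring
  have R3 := relR3 X
  have hEd : E * d = 0 := by
    apply ustar_d X E hE (comb c Dc X.ec) (comb L DL X.eL) (comb k Dk X.ek) (comb k' Dk' X.ek')
      (comb d Dd X.ed) (comb r Dr X.er) (comb e De rfl)
    · intro z hz
      calc E * z = D * (((1 - e) * y) * z) := by
            conv_lhs => rw [← hz]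
            rw [hEdef]; noncomm_ring
        _ = D * ((1 - e) * ((star L * Kf c L k r * L) * (y * z))) := by rw [R3]; noncomm_ring
        _ = _ := by rw [hz, hEdef]; noncomm_ring
    · rw [hEdef]
      have err : e * (r * r) = (r * r) * e := by
        rw [← mul_assoc, X.er, mul_assoc, X.er, mul_assoc]
      calc D * (1 - e) * (r * r) = D * (r * r) - D * (e * (r * r)) := by noncomm_ring
        _ = D * (r * r) - (D * (r * r)) * e := by rw [err]; noncomm_ring
        _ = D * r - D * (r * e) := by rw [hDr]; noncomm_ring
        _ = _ := by rw [← X.er]; noncomm_ring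
  -- E w = 0
  obtain ⟨-, r2, r3, -⟩ := zrel c T u h h1 R r X.hc X.hTT X.h_le X.h1h1 X.hRT X.h0 X.hu X.ur
  have ew := w_comm X.he X X.ur X.ec X.eR X.eh1 X.er
  have Dw := w_comm hD X X.ur Dc DR Dh1 Dr
  set w := star T * star c * r with hw
  have Ew := comb w Dw ew
  have a1 : E * w = 0 := by
    calc E * w = E * (d * h * w) := by rw [X.dh, r3]
      _ = (E * d) * (h * w) := by noncomm_ring
      _ = 0 := by rw [hEd, zero_mul]
  have a2 : r * E = 0 := by
    apply eq_zero_of_star_mul'
    apply cancel_nat 9 (by norm_num)
    push_cast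
    calc 9 * (star (r * E) * (r * E)) = E * (9 * (star r * r)) * E := by
          rw [star_mul, hE]; noncomm_ring
      _ = E * star w * (w * E) := by rw [← r2]; noncomm_ring
      _ = 9 * 0 := by rw [← Ew, a1]; simp
  have a3 : E * r = 0 := by rw [comb r Dr X.er, a2]
  -- D e r = D r
  have a4 : D * (e * r) = D * r := by
    have : D * r - D * (e * r) = E * r := by rw [hEdef]; noncomm_ring
    rw [a3] at this
    exact (sub_eq_zero.mp this).symm
  apply kill X D hD Dr (D * r)
  · rw [star_mul, X.hr, hD, Dr]
  · calc e * (D * r) = (e * D) * r := by noncomm_ring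
      _ = D * (e * r) := by rw [← De]; noncomm_ring
      _ = _ := a4
  · calc r * (D * r) = (r * D) * r := by noncomm_ring
      _ = D * (r * r) := by rw [← Dr]; noncomm_ring
      _ = _ := hDr

end Crest.Agent.SPI
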