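import Crest.Agent.SPI.QCU

/-! Row 110: quasi-central elements. Chunk R110-QC. -/

set_option autoImplicit false

namespace Crest.Agent.SPI

universe u

variable {M : Type u} [CStarAlgebra M] [PartialOrder M] [StarOrderedRing M]

/-- (QC). From `QCunitary`: scale `x` to norm `≤ 1`; every `m` is a linear combination of at most
4 unitaries (`CStarAlgebra.exists_sum_four_unitary`). -/
theorem QC {J : Submodule ℂ M} (hJ : CIdeal J) (x : M) (hx : x ∈ J) (hx0 : 0 ≤ x)
    (S : Finset M) (η : ℝ) (hη : 0 < η) :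
    ∃ e ∈ J, 0 ≤ e ∧ e ≤ 1 ∧ ‖(1 - e) * x‖ < η ∧ ∀ m ∈ S, ‖e * m - m * e‖ < η := by
  classical
  choose u c huc hc using fun m : M => CStarAlgebra.exists_sum_four_unitary m
  set c₀ : ℝ := ‖x‖ + 1 with hc₀
  have hc₀p : 0 < c₀ := by positivity
  set K : ℝ := 2 * ∑ m ∈ S, ‖m‖ + 1 with hK
  have hKs : 0 ≤ ∑ m ∈ S, ‖m‖ := Finset.sum_nonneg fun _ _ => norm_nonneg _
  have hKp : 0 < K := by positivity
  have hη' : 0 < min (η / c₀) (η / K) := lt_min (by positivity) (by positivity)
  have hx' : (c₀⁻¹ : ℝ) • x ∈ J := by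
    rw [← Complex.coe_smul]
    exact J.smul_mem _ hx
  have hx0' : 0 ≤ (c₀⁻¹ : ℝ) • x := smul_nonneg (by positivity) hx0
  have hx1' : (c₀⁻¹ : ℝ) • x ≤ 1 := by
    rw [← CStarAlgebra.norm_le_one_iff_of_nonneg _ hx0', norm_smul, Real.norm_eq_abs,
      abs_of_pos (by positivity), inv_mul_le_one₀ hc₀p]
    linarith
  obtain ⟨e, heJ, he0, he1, hex, heU⟩ := QCunitary hJ ((c₀⁻¹ : ℝ) • x) hx' hx0' hx1'
    (S.biUnion fun m => Finset.univ.image fun i => ((u m i : unitary M) : M))
    (by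
      intro w hw
      simp only [Finset.mem_biUnion, Finset.mem_image, Finset.mem_univ, true_and] at hw
      obtain ⟨m, _, i, rfl⟩ := hw
      exact (u m i).2)
    (min (η / c₀) (η / K)) hη'
  refine ⟨e, heJ, he0, he1, ?_, fun m hm => ?_⟩
  · rw [mul_smul_comm, norm_smul, Real.norm_eq_abs, abs_of_pos (by positivity)] at hex
    have h1 := hex.trans_le (min_le_left _ _)
    rw [inv_mul_eq_div, div_lt_div_iff_of_pos_right hc₀p] at h1
    exact h1
  · have hsum : e * m - m * e = ∑ i, c m i • (e * (u m i : M) - (u m i : M) * e) := by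
      conv_lhs => rw [huc m]
      rw [Finset.mul_sum, Finset.sum_mul, ← Finset.sum_sub_distrib]
      refine Finset.sum_congr rfl fun i _ => ?_
      rw [mul_smul_comm, smul_mul_assoc, smul_sub]
    have hterm : ∀ i, ‖c m i • (e * (u m i : M) - (u m i : M) * e)‖ ≤
        ‖m‖ / 2 * min (η / c₀) (η / K) := by
      intro i
      rw [norm_smul]
      refine mul_le_mul (hc m i) (heU _ ?_).le (norm_nonneg _) (by positivity)
      simp only [Finset.mem_biUnion, Finset.mem_image, Finset.mem_univ, true_and]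
      exact ⟨m, hm, i, rfl⟩
    have h2 : ‖e * m - m * e‖ ≤ 2 * ‖m‖ * min (η / c₀) (η / K) := by
      rw [hsum]
      refine (norm_sum_le _ _).trans ((Finset.sum_le_sum fun i _ => hterm i).trans ?_)
      rw [Finset.sum_const, Finset.card_univ, Fintype.card_fin, nsmul_eq_mul]
      push_cast
      linarith
    have h3 : ‖m‖ ≤ ∑ m ∈ S, ‖m‖ :=
      Finset.single_le_sum (f := fun m : M => ‖m‖) (fun _ _ => norm_nonneg _) hm
    refine h2.trans_lt ?_
    have h4 : 2 * ‖m‖ * min (η / c₀) (η / K) ≤ 2 * ‖m‖ * (η / K) :=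
      mul_le_mul_of_nonneg_left (min_le_right _ _) (by positivity)
    refine h4.trans_lt ?_
    rw [mul_div_assoc', div_lt_iff₀ hKp]
    nlinarith

end Crest.Agent.SPI
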