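import Crest.Agent.SPI.CL
import Crest.Agent.SPI.QC

/-! Row 110: one witness block. Chunk R110-BLOCK. -/

set_option autoImplicit false

namespace Crest.Agent.SPI

universe u

variable {M : Type u} [CStarAlgebra M] [PartialOrder M] [StarOrderedRing M]

omit [PartialOrder M] [StarOrderedRing M] in
private theorem norm_mul3_le (a b c : M) : ‖a * b * c‖ ≤ ‖a‖ * ‖b‖ * ‖c‖ :=
  (norm_mul_le _ _).trans (mul_le_mul_of_nonneg_right (norm_mul_le _ _) (norm_nonneg _))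

private theorem Th_nonneg (c L k r : M) (hr : star r = r) : 0 ≤ Th c L k r := by
  have h1 : (0 : M) ≤ 9 + c * L * (k * star k) * star L * star c := by
    have h2 : c * L * (k * star k) * star L * star c = (c * L * k) * star (c * L * k) := by
      simp only [star_mul, mul_assoc]
    rw [h2]
    have h9 : (0 : M) ≤ 9 := by
      have h3 : (9 : M) = star (3 : M) * 3 := by
        rw [star_ofNat]
        norm_num
      rw [h3]
      exact star_mul_self_nonneg _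
    exact add_nonneg h9 (mul_star_self_nonneg _)
  have h3 := star_left_conjugate_nonneg h1 r
  rw [hr] at h3
  exact h3

private theorem Kf_nonneg (c L k r : M) (hr : star r = r) : 0 ≤ Kf c L k r :=
  star_left_conjugate_nonneg (Th_nonneg c L k r hr) c

private theorem Th_norm (c L k r : M) (hc : ‖c‖ ≤ 1) (hL1 : ‖L‖ ≤ 2) (hk : ‖k‖ ≤ 2)
    (hr1 : ‖r‖ ≤ 10) : ‖Th c L k r‖ ≤ 2500 := by
  have h9 : ‖(9 : M)‖ ≤ 9 := by
    have h := Nat.norm_cast_le (α := M) 9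
    have h1 : ‖(1 : M)‖ ≤ 1 := by
      have h2 : (0 : M) ≤ 1 := by
        have h3 : (1 : M) = star (1 : M) * 1 := by simp
        rw [h3]
        exact star_mul_self_nonneg _
      exact norm_le_one_of 1 h2 le_rfl
    calc ‖(9 : M)‖ = ‖((9 : ℕ) : M)‖ := by norm_num
      _ ≤ (9 : ℕ) * ‖(1 : M)‖ := h
      _ ≤ (9 : ℕ) * 1 := by gcongr
      _ = 9 := by norm_num
  have hcLk : ‖c * L * k‖ ≤ 4 := by
    calc ‖c * L * k‖ ≤ ‖c‖ * ‖L‖ * ‖k‖ := norm_mul3_le _ _ _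
      _ ≤ 1 * 2 * 2 := by gcongr
      _ = 4 := by norm_num
  have h2 : c * L * (k * star k) * star L * star c = (c * L * k) * star (c * L * k) := by
    simp only [star_mul, mul_assoc]
  have h3 : ‖(9 : M) + c * L * (k * star k) * star L * star c‖ ≤ 25 := by
    rw [h2]
    calc ‖(9 : M) + (c * L * k) * star (c * L * k)‖ ≤ ‖(9 : M)‖ + ‖(c * L * k) * star (c * L * k)‖ :=
          norm_add_le _ _
      _ ≤ 9 + ‖c * L * k‖ * ‖star (c * L * k)‖ := by gcongr; exact norm_mul_le _ _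
      _ = 9 + ‖c * L * k‖ * ‖c * L * k‖ := by rw [norm_star]
      _ ≤ 9 + 4 * 4 := by gcongr
      _ = 25 := by norm_num
  calc ‖Th c L k r‖ ≤ ‖r‖ * ‖(9 : M) + c * L * (k * star k) * star L * star c‖ * ‖r‖ :=
        norm_mul3_le _ _ _
    _ ≤ 10 * 25 * 10 := by gcongr
    _ = 2500 := by norm_num

private theorem Kf_norm (c L k r : M) (hc : ‖c‖ ≤ 1) (hL1 : ‖L‖ ≤ 2) (hk : ‖k‖ ≤ 2)
    (hr1 : ‖r‖ ≤ 10) : ‖Kf c L k r‖ ≤ 2500 := by
  calc ‖Kf c L k r‖ ≤ ‖star c‖ * ‖Th c L k r‖ * ‖c‖ := norm_mul3_le _ _ _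
    _ ≤ 1 * 2500 * 1 := by
        rw [norm_star]
        gcongr
        exact Th_norm c L k r hc hL1 hk hr1
    _ = 2500 := by norm_num

private theorem Nf_norm (c L k r y : M) (hc : ‖c‖ ≤ 1) (hL1 : ‖L‖ ≤ 2) (hk : ‖k‖ ≤ 2)
    (hr1 : ‖r‖ ≤ 10) (hy : ‖y‖ ≤ 1) : ‖Nf c L k r y‖ ≤ 100000 := by
  have h1 : ‖star L * L - star L * Kf c L k r * L‖ ≤ 10004 := by
    calc ‖star L * L - star L * Kf c L k r * L‖ ≤ ‖star L * L‖ + ‖star L * Kf c L k r * L‖ :=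
          norm_sub_le _ _
      _ ≤ ‖star L‖ * ‖L‖ + ‖star L‖ * ‖Kf c L k r‖ * ‖L‖ := by
          gcongr
          · exact norm_mul_le _ _
          · exact norm_mul3_le _ _ _
      _ ≤ 2 * 2 + 2 * 2500 * 2 := by
          rw [norm_star]
          gcongr
          exact Kf_norm c L k r hc hL1 hk hr1
      _ = 10004 := by norm_num
  calc ‖Nf c L k r y‖ ≤ ‖y‖ * ‖star L * L - star L * Kf c L k r * L‖ * ‖y‖ := norm_mul3_le _ _ _
    _ ≤ 1 * 10004 * 1 := by gcongr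
    _ ≤ 100000 := by norm_num

/-- One witness block (step 5 of the construction, ideas id=524).
PROOF. `N = Nf c L k r y` is self-adjoint, in `A` (as `y ∈ A`), `‖N‖ ≤ 10004`; `p = N⁺`, `m = N⁻`
(`CFC.posPart`); `p ∈ A` (`CIdeal.cfc_mem`). `Kf ≥ 0` (as `Th = r (9 + (cLk)(cLk)⋆) r ≥ 0`), so
`N ≤ Y := y (L⋆ L) y`. (QC) with `J = idl p` gives `e ∈ idl p`; `e h e ∈ idl p`; (CL) with tolerance
`η/4` gives `z ∈ A` with `z⋆ Y z ≈ e h e`, `z⋆ N z ≥ 0`; `v = y z`.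
`v⋆ v - z⋆ Y z = v⋆ (v - L⋆ L v)`, `L⋆ L v - v = (L⋆ L - g) v` (as `g y = y`), so
`‖v‖² (1 - 1/16) ≤ 1 + 1/4`, `‖v‖ ≤ 2`, `‖v⋆ v - e h e‖ ≤ 4 η/16 + η/4`. -/
theorem block {A : Submodule ℂ M} (hA : PIIdeal A) (c L k r y h : M)
    (hc : ‖c‖ ≤ 1) (hL : L ∈ A) (hL1 : ‖L‖ ≤ 2) (hk : ‖k‖ ≤ 2) (hr : star r = r) (hr1 : ‖r‖ ≤ 10)
    (hy : y ∈ A) (hy0 : 0 ≤ y) (hy1 : y ≤ 1) (hh0 : 0 ≤ h) (hh1 : h ≤ 1) (hyh : y * h = h)
    (S : Finset M) (η : ℝ) (hη : 0 < η) (hη1 : η ≤ 1)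
    (g : M) (hgy : g * y = y) (hLg : ‖star L * L - g‖ ≤ η / 16) :
    ∃ e v p m z : M, v = y * z ∧ z ∈ A ∧ Blk η c L k r y h e v p m ∧
      (∀ a ∈ S, ‖e * a - a * e‖ ≤ η) ∧ ‖v‖ ≤ 2 ∧ ‖p‖ ≤ 100000 ∧ ‖m‖ ≤ 100000 := by
  have hysa : IsSelfAdjoint y := IsSelfAdjoint.of_nonneg hy0
  have hys : star y = y := hysa
  have hyn : ‖y‖ ≤ 1 := norm_le_one_of y hy0 hy1
  set K := Kf c L k r with hK
  have hK0 : 0 ≤ K := Kf_nonneg c L k r hr
  have hKs : star K = K := IsSelfAdjoint.of_nonneg hK0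
  set N := Nf c L k r y with hNdef
  have hNe : N = y * (star L * L - star L * K * L) * y := rfl
  have hNsa : IsSelfAdjoint N := by
    rw [hNe, IsSelfAdjoint]
    simp only [star_mul, star_sub, star_star, hys, hKs, mul_assoc]
  have hNn : ‖N‖ ≤ 100000 := Nf_norm c L k r y hc hL1 hk hr1 hyn
  have hNA : N ∈ A := by
    rw [hNe]
    exact hA.mul_left _ _ hy
  set Y := y * (star L * L) * y with hYdef
  have hYA : Y ∈ A := hA.mul_left _ _ hy
  have hY0 : 0 ≤ Y := by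
    have h1 := star_left_conjugate_nonneg (star_mul_self_nonneg L) y
    rw [hys] at h1
    exact h1
  have hNY : N ≤ Y := by
    rw [← sub_nonneg]
    have h1 : Y - N = star (L * y) * K * (L * y) := by
      rw [hNe, hYdef, star_mul, hys]
      noncomm_ring
    rw [h1]
    exact star_left_conjugate_nonneg hK0 _
  have hp0 : 0 ≤ N⁺ := CFC.posPart_nonneg N
  have hm0 : 0 ≤ N⁻ := CFC.negPart_nonneg N
  have hpm : N⁺ * N⁻ = 0 := CFC.posPart_mul_negPart N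
  have hN : N = N⁺ - N⁻ := (CFC.posPart_sub_negPart N hNsa).symm
  have hpA : N⁺ ∈ A := by
    rw [CFC.posPart_def, cfcₙ_eq_cfc]
    refine hA.toCIdeal.cfc_mem N hNA hNsa _ ?_ (by simp)
    fun_prop
  have hJ : CIdeal (idl N⁺) := idl_cideal _ (IsSelfAdjoint.of_nonneg hp0)
  obtain ⟨e, heJ, he0, he1, hep, hec⟩ := QC hJ N⁺ (self_mem_idl _) hp0 S η hη
  have hes : star e = e := IsSelfAdjoint.of_nonneg he0
  have hen : ‖e‖ ≤ 1 := norm_le_one_of e he0 he1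
  have hhn : ‖h‖ ≤ 1 := norm_le_one_of h hh0 hh1
  have hehe : e * h * e ∈ idl N⁺ := hJ.mul_left _ _ heJ
  have hehe0 : 0 ≤ e * h * e := by
    have h1 := star_left_conjugate_nonneg hh0 e
    rw [hes] at h1
    exact h1
  have hehen : ‖e * h * e‖ ≤ 1 := by
    calc ‖e * h * e‖ ≤ ‖e‖ * ‖h‖ * ‖e‖ := norm_mul3_le _ _ _
      _ ≤ 1 * 1 * 1 := by gcongr
      _ = 1 := by norm_num
  obtain ⟨z, hzA, hz1, hz2⟩ := CL hA Y N N⁺ N⁻ (e * h * e) hYA hpA hY0 hNY hN hp0 hm0 hpm hehe0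
    hehe (η / 4) (by positivity)
  set v := y * z with hv
  have hgv : g * v = v := by rw [hv, ← mul_assoc, hgy]
  have hLv : star L * L * v - v = (star L * L - g) * v := by
    rw [sub_mul, hgv]
  have hLvn : ‖star L * L * v - v‖ ≤ η / 16 * ‖v‖ := by
    rw [hLv]
    exact (norm_mul_le _ _).trans (by gcongr)
  have hvv : star v * v - star z * Y * z = -(star v * (star L * L * v - v)) := by
    rw [hYdef, hv, star_mul, hys]
    noncomm_ring
  have hvv1 : ‖star v * v - star z * Y * z‖ ≤ η / 16 * ‖v‖ ^ 2 := by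
    rw [hvv, norm_neg]
    calc ‖star v * (star L * L * v - v)‖ ≤ ‖star v‖ * ‖star L * L * v - v‖ := norm_mul_le _ _
      _ ≤ ‖v‖ * (η / 16 * ‖v‖) := by rw [norm_star]; gcongr
      _ = η / 16 * ‖v‖ ^ 2 := by ring
  have hvv2 : ‖star v * v - e * h * e‖ ≤ η / 16 * ‖v‖ ^ 2 + η / 4 := by
    have h1 : star v * v - e * h * e = (star v * v - star z * Y * z) + (star z * Y * z - e * h * e) := by
      abel
    rw [h1]
    exact (norm_add_le _ _).trans (add_le_add hvv1 hz1.le)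
  have hv2 : ‖v‖ ^ 2 ≤ 4 := by
    have h1 : ‖v‖ ^ 2 = ‖star v * v‖ := by rw [CStarRing.norm_star_mul_self, sq]
    have h2 : ‖star v * v‖ ≤ ‖star v * v - e * h * e‖ + ‖e * h * e‖ := by
      have h3 : star v * v = (star v * v - e * h * e) + e * h * e := by abel
      calc ‖star v * v‖ = ‖(star v * v - e * h * e) + e * h * e‖ := by rw [← h3]
        _ ≤ _ := norm_add_le _ _
    have h4 : η / 16 * ‖v‖ ^ 2 ≤ 1 / 16 * ‖v‖ ^ 2 := by gcongr
    nlinarith [sq_nonneg ‖v‖]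
  have hvn : ‖v‖ ≤ 2 := by
    by_contra hcon
    push Not at hcon
    nlinarith [norm_nonneg v]
  refine ⟨e, v, N⁺, N⁻, z, rfl, hzA, ?_, fun a ha => (hec a ha).le, hvn,
    (CStarAlgebra.norm_posPart_le N).trans hNn, (CStarAlgebra.norm_negPart_le N).trans hNn⟩
  refine ⟨he0, he1, hp0, hm0, hpm, hN, hep.le, ?_, ?_, ?_⟩
  · calc ‖star v * v - e * h * e‖ ≤ η / 16 * ‖v‖ ^ 2 + η / 4 := hvv2
      _ ≤ η / 16 * 4 + η / 4 := by gcongr
      _ ≤ η := by linarith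
  · calc ‖star L * L * v - v‖ ≤ η / 16 * ‖v‖ := hLvn
      _ ≤ η / 16 * 2 := by gcongr
      _ ≤ η := by linarith
  · rw [← sub_nonneg]
    have h1 : star v * (star L * L) * v - star v * (star L * Kf c L k r * L) * v = star z * N * z := by
      rw [hNe, hv, star_mul, hys, hK]
      noncomm_ring
    rw [h1]
    exact hz2

end Crest.Agent.SPI
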