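import Crest.Agent.SPI.F1

/-! Row 110: (CL). Chunk R110-CL. -/

set_option autoImplicit false

namespace Crest.Agent.SPI

universe u

variable {M : Type u} [CStarAlgebra M] [PartialOrder M] [StarOrderedRing M]

/-- (CL) with `κ = 0`. PROOF. `Q = P^{1/2}` (`CFC.sqrt P`, in `A`: `P ∈ A` is a hypothesis).
`G = Q Y Q ≥ Q N Q = P²` (`N = P - Q'`, `P Q' = 0` so `Q' P^{1/2} = 0`), so
`P² ∈ idl G` (hereditary), so `P ∈ idl G`, `idl P ≤ idl G`, `x ∈ idl G`; (F1) with `y := G` gives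
`r`; `z = Q r`: `z⋆ Y z = r⋆ G r`, `z⋆ N z = r⋆ P² r ≥ 0`. -/
theorem CL {A : Submodule ℂ M} (hA : PIIdeal A) (Y N P Q x : M) (hY : Y ∈ A) (hP : P ∈ A)
    (hY0 : 0 ≤ Y) (hNY : N ≤ Y) (hN : N = P - Q) (hP0 : 0 ≤ P) (hQ0 : 0 ≤ Q) (hPQ : P * Q = 0)
    (hx0 : 0 ≤ x) (hx : x ∈ idl P) (η : ℝ) (hη : 0 < η) :
    ∃ z ∈ A, ‖star z * Y * z - x‖ < η ∧ 0 ≤ star z * N * z := by
  classical
  have hPsa : IsSelfAdjoint P := hP0.isSelfAdjoint
  obtain ⟨S, hSA, hS0, hSS⟩ : ∃ S ∈ A, 0 ≤ S ∧ S * S = P := by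
    refine ⟨cfc Real.sqrt P, ?_, ?_, ?_⟩
    · exact hA.toCIdeal.cfc_mem P hP hPsa Real.sqrt Real.continuous_sqrt.continuousOn (by simp)
    · exact cfc_nonneg (fun t _ => Real.sqrt_nonneg t)
    · rw [← cfc_mul Real.sqrt Real.sqrt P Real.continuous_sqrt.continuousOn
        Real.continuous_sqrt.continuousOn]
      conv_rhs => rw [← cfc_id ℝ P hPsa]
      refine cfc_congr ?_
      intro t ht
      have ht0 : 0 ≤ t := spectrum_nonneg_of_nonneg hP0 ht
      simpa using Real.mul_self_sqrt ht0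
  have hSsa : star S = S := hS0.isSelfAdjoint.star_eq
  have hQsa : star Q = Q := hQ0.isSelfAdjoint.star_eq
  have hSQ : S * Q = 0 := by
    have h1 : star (S * Q) * (S * Q) = 0 := by
      rw [star_mul, hSsa, hQsa]
      calc Q * S * (S * Q) = Q * ((S * S) * Q) := by noncomm_ring
        _ = 0 := by rw [hSS, hPQ, mul_zero]
    exact (CStarRing.star_mul_self_eq_zero_iff _).mp h1
  have hSNS : S * N * S = P * P := by
    rw [hN, mul_sub, hSQ, sub_zero, ← hSS]
    noncomm_ring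
  set G : M := S * Y * S with hG
  have hG0 : 0 ≤ G := by
    have := star_left_conjugate_nonneg hY0 S
    rwa [hSsa] at this
  have hPP0 : 0 ≤ P * P := by
    have := star_mul_self_nonneg P
    rwa [hPsa.star_eq] at this
  have hPPG : P * P ≤ G := by
    have := star_left_conjugate_le_conjugate hNY S
    rw [hSsa, hSNS] at this
    exact this
  have hJ : CIdeal (idl G) := idl_cideal G hG0.isSelfAdjoint
  have hPJ : P ∈ idl G :=
    hJ.of_sq P hP0 (hJ.hereditary (P * P) G hPP0 hPPG (self_mem_idl G))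
  have hxJ : x ∈ idl G := idl_le hJ P hPJ hx
  have hGA : G ∈ A := hA.mul_right S _ (hA.mul_left S Y hY)
  obtain ⟨r, hrA, hr⟩ := F1 hA x G hx0 hGA hG0 hxJ η hη
  refine ⟨S * r, hA.mul_left S r hrA, ?_, ?_⟩
  · have : star (S * r) * Y * (S * r) = star r * G * r := by
      rw [star_mul, hSsa, hG]
      noncomm_ring
    rw [this]
    exact hr
  · have : star (S * r) * N * (S * r) = star r * (P * P) * r := by
      rw [star_mul, hSsa, ← hSNS]
      noncomm_ring
    rw [this]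
    exact star_left_conjugate_nonneg hPP0 r

end Crest.Agent.SPI
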