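import Mathlib

/-! Row 110 (S0145): purely infinite ⇒ strongly purely infinite. Definitions (see ideas id=524). -/

set_option autoImplicit false

namespace Crest.Agent.SPI

universe u v

/-- piecewise linear ramp: `0` on `(-∞,a]`, `1` on `[b,∞)` (used with `a < b`). -/
noncomputable def ramp (a b : ℝ) (t : ℝ) : ℝ := max 0 (min 1 ((t - a) / (b - a)))

/-- closed two-sided ideal generated by `y` (as a submodule). -/
noncomputable def idl {M : Type u} [CStarAlgebra M] (y : M) : Submodule ℂ M :=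
  (Submodule.span ℂ (Set.range fun ab : M × M => ab.1 * y * ab.2)).topologicalClosure

/-- closed two-sided star ideal -/
structure CIdeal {M : Type u} [CStarAlgebra M] (J : Submodule ℂ M) : Prop where
  closed : IsClosed (J : Set M)
  mul_left : ∀ m a : M, a ∈ J → m * a ∈ J
  mul_right : ∀ m a : M, a ∈ J → a * m ∈ J
  star_mem : ∀ a ∈ J, star a ∈ J

/-- standing hypothesis: `A` is a closed ideal of the unital C⋆-algebra `M` all of whose positive
elements are properly infinite. -/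
structure PIIdeal {M : Type u} [CStarAlgebra M] [PartialOrder M] [StarOrderedRing M]
    (A : Submodule ℂ M) : Prop extends CIdeal A where
  pi : ∀ x ∈ A, 0 ≤ x → ∀ ε : ℝ, 0 < ε → ∃ r ∈ A, ∃ s ∈ A,
    ‖star r * x * r - x‖ < ε ∧ ‖star s * x * s - x‖ < ε ∧ ‖star r * x * s‖ < ε

section

variable {M : Type u} [Ring M] [StarRing M]

/-- `Θ = r (9 + c L k k⋆ L⋆ c⋆) r` -/
def Th (c L k r : M) : M := r * (9 + c * L * (k * star k) * star L * star c) * r

/-- `K = c⋆ Θ c` -/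
def Kf (c L k r : M) : M := star c * Th c L k r * c

/-- `N = y (L⋆L - L⋆KL) y` -/
def Nf (c L k r y : M) : M := y * (star L * L - star L * Kf c L k r * L) * y

/-- `r₂ = f₀ - s s⋆ - s b - b s⋆` -/
def R2 (f0 s b : M) : M := f0 - s * star s - s * b - b * star s

end

/-- names of the elements of the construction -/
inductive Nm
  | c | u | f0 | chi | fi | b | s | ew | y | d | h | h1 | R | L1 | L2 | k1 | k2
  | e1 | e2 | v1 | v2 | p1 | m1 | p2 | m2 | T
  deriving DecidableEq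

open Nm in
/-- the elements fixed before `ew` is chosen -/
def base : List Nm := [c, u, f0, chi, fi, b, y, d, h, h1, R, L1, L2, k1, k2]

/-- one witness block (`j = 1, 2`) : elements `e v p m` relative to `L`, `r`. -/
structure Blk {M : Type u} [CStarAlgebra M] [PartialOrder M] [StarOrderedRing M]
    (η : ℝ) (c L k r y h e v p m : M) : Prop where
  e_nonneg : 0 ≤ e
  e_le : e ≤ 1
  p_nonneg : 0 ≤ p
  m_nonneg : 0 ≤ m
  pm : p * m = 0
  N_eq : Nf c L k r y = p - m
  ep : ‖(1 - e) * p‖ ≤ η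
  vv : ‖star v * v - e * h * e‖ ≤ η
  Lv : ‖star L * L * v - v‖ ≤ η
  Kv : star v * (star L * Kf c L k r * L) * v ≤ star v * (star L * L) * v

/-- all relations of the construction, up to `η` (exact for `η = 0`). -/
structure Data {M : Type u} [CStarAlgebra M] [PartialOrder M] [StarOrderedRing M]
    (η : ℝ) (x : Nm → M) : Prop where
  c_norm : ‖x .c‖ ≤ 1
  sa : ∀ i ∈ [Nm.u, .f0, .chi, .fi, .b, .ew, .y, .d, .h, .h1, .e1, .e2], star (x i) = x i
  h_nonneg : 0 ≤ x .h
  h_le : x .h ≤ 1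
  -- functions of p
  u_f0 : x .u * x .f0 = x .f0
  u_chi : x .u * x .chi = x .chi
  u_s : x .u * x .s = x .s
  s_u : x .s * x .u = x .s
  u_b : x .u * x .b = x .b * x .u
  b_b : x .b * x .b = 1 - x .f0
  b_s : x .b * x .s = 0
  fi_s : x .fi * x .s = 0
  fi_b : x .fi * x .b = 0
  fi_f0 : x .fi * x .f0 = x .fi
  chi_fi : x .chi * x .fi = x .fi
  chi_f0 : x .chi * x .f0 = x .f0 * x .chi
  s_s : ‖star (x .s) * x .s - x .ew * x .f0 * x .ew‖ ≤ η
  ew_w : ‖(1 - x .ew) * (x .chi - x .chi * x .chi)‖ ≤ η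
  -- functions of q
  y_h : x .y * x .h = x .h
  d_h : x .d * x .h = x .h
  h1_h1 : x .h1 * x .h1 = x .h
  y_k1 : x .y * x .k1 = x .k1
  y_k2 : x .y * x .k2 = x .k2
  k11 : ‖star (x .k1) * x .k1 - x .d‖ ≤ η
  k12 : ‖star (x .k1) * x .k2‖ ≤ η
  k22 : ‖star (x .k2) * x .k2 - x .d‖ ≤ η
  L1y : ‖star (x .L1) * x .L1 * x .y - x .y‖ ≤ η
  L2y : ‖star (x .L2) * x .L2 * x .y - x .y‖ ≤ η
  -- the operator T (three times the contraction)
  T_T : ‖star (x .T) * x .T - 9 * x .h‖ ≤ η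
  R_T : ‖star (x .R) * x .T - x .h1‖ ≤ η
  L1_T : ‖star (x .L1) * x .T - 2 * x .v1‖ ≤ η
  L2_T : ‖star (x .L2) * x .T - 2 * x .v2‖ ≤ η
  -- blocks
  blk1 : Blk η (x .c) (x .L1) (x .k1) (x .chi) (x .y) (x .h) (x .e1) (x .v1) (x .p1) (x .m1)
  blk2 : Blk η (x .c) (x .L2) (x .k1) (R2 (x .f0) (x .s) (x .b)) (x .y) (x .h) (x .e2) (x .v2)
    (x .p2) (x .m2)
  -- commutations
  comm_w : ∀ i ∈ base, ‖x .ew * x i - x i * x .ew‖ ≤ η
  comm_1 : ∀ i ∈ Nm.ew :: Nm.s :: base, ‖x .e1 * x i - x i * x .e1‖ ≤ η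
  comm_2 : ∀ i ∈ Nm.e1 :: Nm.ew :: Nm.s :: base, ‖x .e2 * x i - x i * x .e2‖ ≤ η

/-- target function of the improvement lemma -/
noncomputable def Ft : ℝ → ℝ := ramp (1/2) (3/4)

/-- outer function -/
noncomputable def ut : ℝ → ℝ := ramp 0 (1/4)

/-- inner function (`= 1` on the support of `Ft`) -/
noncomputable def fit : ℝ → ℝ := ramp (7/16) (1/2)

end Crest.Agent.SPI
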