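import Crest.Agent.SPI.Ramp

/-! Row 110: (F0). Chunk R110-F0. -/

set_option autoImplicit false

namespace Crest.Agent.SPI

universe u

variable {M : Type u} [CStarAlgebra M] [PartialOrder M] [StarOrderedRing M]

/-- (F0). Induction on `m`: given `t₁..t_m` (tolerance `η/2`), take `(r,s)` from `hA.pi` for `x`
with a tolerance small relative to `‖tᵢ‖`; new family `r tᵢ`, `s`. -/
theorem F0 {A : Submodule ℂ M} (hA : PIIdeal A) (x : M) (hx : x ∈ A) (hx0 : 0 ≤ x) (m : ℕ) :
    ∀ η : ℝ, 0 < η → ∃ t : Fin m → M, (∀ i, t i ∈ A) ∧
      ∀ i j, ‖star (t i) * x * t j - (if i = j then x else 0)‖ < η := by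
  induction m with
  | zero =>
    intro η _
    exact ⟨fun i => i.elim0, fun i => i.elim0, fun i => i.elim0⟩
  | succ m ih =>
    intro η hη
    obtain ⟨t, htA, ht⟩ := ih (η / 2) (by positivity)
    have hsx : star x = x := (IsSelfAdjoint.of_nonneg hx0).star_eq
    set K : ℝ := 1 + ∑ i, ‖t i‖ with hK
    have hS : 0 ≤ ∑ i, ‖t i‖ := Finset.sum_nonneg fun i _ => norm_nonneg _
    have hK1 : 1 ≤ K := by linarith
    have hKt : ∀ i, ‖t i‖ ≤ K := by
      intro i
      have := Finset.single_le_sum (f := fun i => ‖t i‖) (fun i _ => norm_nonneg _)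
        (Finset.mem_univ i)
      linarith
    have hε : 0 < η / (2 * K ^ 2) := by positivity
    obtain ⟨r, hr, s, hs, h1, h2, h3⟩ := hA.pi x hx hx0 _ hε
    have e1 : η / (2 * K ^ 2) * K ^ 2 = η / 2 := by
      field_simp
    have e2 : η / (2 * K ^ 2) * K ≤ η / 2 := by
      rw [← e1]
      refine mul_le_mul_of_nonneg_left ?_ hε.le
      nlinarith
    have e3 : η / (2 * K ^ 2) ≤ η / 2 := by
      refine le_trans ?_ e2
      exact le_mul_of_one_le_right hε.le hK1
    have h4 : ‖star s * x * r‖ < η / (2 * K ^ 2) := by
      have : star s * x * r = star (star r * x * s) := by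
        rw [star_mul, star_mul, star_star, hsx, mul_assoc]
      rw [this, norm_star]
      exact h3
    refine ⟨Fin.cons s (fun i => r * t i), ?_, ?_⟩
    · intro i
      refine Fin.cases ?_ (fun i => ?_) i
      · simpa using hs
      · simpa using hA.mul_right _ _ hr
    · intro i j
      refine Fin.cases ?_ (fun i => ?_) i <;> refine Fin.cases ?_ (fun j => ?_) j
      · simp only [Fin.cons_zero, if_true]
        linarith
      · have hne : (0 : Fin (m + 1)) ≠ j.succ := (Fin.succ_ne_zero j).symm
        simp only [Fin.cons_zero, Fin.cons_succ, hne, if_false, sub_zero]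
        rw [← mul_assoc]
        calc ‖star s * x * r * t j‖ ≤ ‖star s * x * r‖ * ‖t j‖ := norm_mul_le _ _
          _ ≤ η / (2 * K ^ 2) * K := mul_le_mul h4.le (hKt j) (norm_nonneg _) hε.le
          _ < η := by linarith
      · have hne : i.succ ≠ (0 : Fin (m + 1)) := Fin.succ_ne_zero i
        simp only [Fin.cons_zero, Fin.cons_succ, hne, if_false, sub_zero, star_mul]
        have e : star (t i) * star r * x * s = star (t i) * (star r * x * s) := by
          noncomm_ring
        rw [e]
        calc ‖star (t i) * (star r * x * s)‖ ≤ ‖star (t i)‖ * ‖star r * x * s‖ := norm_mul_le _ _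
          _ ≤ K * (η / (2 * K ^ 2)) := by
            rw [norm_star]
            exact mul_le_mul (hKt i) h3.le (norm_nonneg _) (by linarith)
          _ < η := by rw [mul_comm]; linarith
      · simp only [Fin.cons_succ, star_mul, Fin.succ_inj]
        have e : star (t i) * star r * x * (r * t j) - (if i = j then x else 0) =
            star (t i) * (star r * x * r - x) * t j +
              (star (t i) * x * t j - (if i = j then x else 0)) := by
          noncomm_ring
        rw [e]
        have h5 : ‖star (t i) * (star r * x * r - x) * t j‖ ≤ η / 2 := by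
          calc ‖star (t i) * (star r * x * r - x) * t j‖
              ≤ ‖star (t i)‖ * ‖star r * x * r - x‖ * ‖t j‖ :=
                (norm_mul_le _ _).trans
                  (mul_le_mul_of_nonneg_right (norm_mul_le _ _) (norm_nonneg _))
            _ ≤ K * (η / (2 * K ^ 2)) * K := by
                rw [norm_star]
                exact mul_le_mul (mul_le_mul (hKt i) h1.le (norm_nonneg _) (by linarith))
                  (hKt j) (norm_nonneg _) (by positivity)
            _ = η / 2 := by rw [← e1]; ring
        have h6 := ht i j
        exact (norm_add_le _ _).trans_lt (by linarith)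

end Crest.Agent.SPI
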