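import Crest.Agent.SPI.Ramp

/-! Row 110: (F1a). Chunk R110-F1a. -/

set_option autoImplicit false

namespace Crest.Agent.SPI

universe u

variable {M : Type u} [CStarAlgebra M] [PartialOrder M] [StarOrderedRing M]

/-- Step 1 of (F1): `x ≥ 0`, `x ∈ idl y`, `y ≥ 0` ⇒ `x ≈ ∑ rⱼ⋆ y rⱼ`.
PROOF. `x ≈ ∑ aᵢ y bᵢ` within `ε`; `x = x⋆`, and `a y b + b⋆ y a⋆ ≤ a y a⋆ + b⋆ y b` (from
`(a-b⋆) y (a-b⋆)⋆ ≥ 0`), so `x ≤ Z + ε`, `Z = ½ ∑ (aᵢ y aᵢ⋆ + bᵢ⋆ y bᵢ) ≥ 0`. Let
`E = Z + ε`, `D = E^{-1/2} x^{1/2}`. `D⋆ Z D = x - ε x^{1/2}E⁻¹x^{1/2}` and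
`‖x^{1/2}E⁻¹x^{1/2}‖ = ‖E^{-1/2}xE^{-1/2}‖ ≤ 1` as `x ≤ E`
(cf. `CFC.conjugate_rpow_neg_one_half`, `le_iff_norm_sqrt_mul_rpow`). -/
theorem F1a (x y : M) (hx0 : 0 ≤ x) (hy0 : 0 ≤ y)
    (hxy : x ∈ idl y) (η : ℝ) (hη : 0 < η) :
    ∃ (n : ℕ) (r : Fin n → M), ‖∑ i, star (r i) * y * r i - x‖ < η := by
  obtain ⟨n, a, b, hab⟩ := idl_approx y x hxy (η / 4) (by positivity)
  have hysa : star y = y := (IsSelfAdjoint.of_nonneg hy0).star_eq
  have hxsa : star x = x := (IsSelfAdjoint.of_nonneg hx0).star_eq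
  set S : M := ∑ i, a i * y * b i with hS
  set Z : M := ∑ i, (a i * y * star (a i) + star (b i) * y * b i) with hZ
  set E : M := Z + algebraMap ℝ M (η / 2) with hE
  have hZ0 : 0 ≤ Z := by
    refine Finset.sum_nonneg fun i _ => add_nonneg ?_ ?_
    · exact star_right_conjugate_nonneg hy0 (a i)
    · exact star_left_conjugate_nonneg hy0 (b i)
  -- `S + S⋆ ≤ Z`
  have hSZ : S + star S ≤ Z := by
    rw [hS, hZ, star_sum, ← Finset.sum_add_distrib]
    refine Finset.sum_le_sum fun i _ => ?_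
    have h := star_right_conjugate_nonneg hy0 (a i - star (b i))
    rw [← sub_nonneg]
    refine h.trans_eq ?_
    simp only [star_sub, star_star, star_mul, hysa]
    noncomm_ring
  have hw : (x - S) + star (x - S) ≤ algebraMap ℝ M (η / 2) := by
    have hsa : IsSelfAdjoint ((x - S) + star (x - S)) := IsSelfAdjoint.add_star_self _
    have h1 := hsa.le_algebraMap_norm_self
    have h2 : ‖(x - S) + star (x - S)‖ ≤ η / 2 := by
      calc ‖(x - S) + star (x - S)‖ ≤ ‖x - S‖ + ‖star (x - S)‖ := norm_add_le _ _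
        _ = ‖x - S‖ + ‖x - S‖ := by rw [norm_star]
        _ ≤ η / 2 := by linarith
    refine h1.trans ?_
    rw [← sub_nonneg, ← map_sub]
    exact algebraMap_nonneg M (sub_nonneg.2 h2)
  have hxE : x ≤ E := by
    have h2 : x + x ≤ E := by
      have : x + x = ((x - S) + star (x - S)) + (S + star S) := by
        rw [star_sub, hxsa]; abel
      rw [this, hE, add_comm Z]
      exact add_le_add hw hSZ
    exact (le_add_of_nonneg_left hx0).trans h2
  have hη2 : (0 : ℝ) < η / 2 := by positivity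
  have hεp : IsStrictlyPositive (algebraMap ℝ M (η / 2)) :=
    ⟨algebraMap_nonneg M hη2.le, (isUnit_iff_ne_zero.2 hη2.ne').map (algebraMap ℝ M)⟩
  have hEp : IsStrictlyPositive E := hεp.nonneg_add hZ0
  set s : M := CFC.sqrt x with hs
  set q : M := E ^ (-(1 / 2) : ℝ) with hq
  have hqE : q * E * q = 1 := CFC.conjugate_rpow_neg_one_half E
  have hsq : ‖s * q‖ ≤ 1 := (le_iff_norm_sqrt_mul_rpow x E).1 hxE
  have hss : s * s = x := CFC.sqrt_mul_sqrt_self x hx0
  have hssa : star s = s := (IsSelfAdjoint.of_nonneg (CFC.sqrt_nonneg x)).star_eq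
  have hqsa : star q = q := (IsSelfAdjoint.of_nonneg CFC.rpow_nonneg).star_eq
  refine ⟨n + n, Fin.append (fun i => star (a i) * (q * s)) (fun i => b i * (q * s)), ?_⟩
  have hsum : ∑ i, star (Fin.append (fun i => star (a i) * (q * s))
      (fun i => b i * (q * s)) i) * y * (Fin.append (fun i => star (a i) * (q * s))
      (fun i => b i * (q * s)) i) = (s * q) * Z * (q * s) := by
    rw [Fin.sum_univ_add, hZ, Finset.mul_sum, Finset.sum_mul, ← Finset.sum_add_distrib]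
    refine Finset.sum_congr rfl fun i _ => ?_
    simp only [Fin.append_left, Fin.append_right, star_mul, star_star, hssa, hqsa]
    noncomm_ring
  rw [hsum]
  have hZE : Z = E - algebraMap ℝ M (η / 2) := by rw [hE]; abel
  have hkey : (s * q) * Z * (q * s) - x = - ((η / 2) • ((s * q) * (q * s))) := by
    rw [hZE, Algebra.algebraMap_eq_smul_one]
    have h1 : (s * q) * (E - (η / 2) • (1 : M)) * (q * s)
        = s * (q * E * q) * s - (η / 2) • ((s * q) * (q * s)) := by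
      rw [mul_sub, sub_mul, mul_smul_comm, smul_mul_assoc, mul_one]
      congr 1
      noncomm_ring
    rw [h1, hqE, mul_one, hss]
    abel
  rw [hkey, norm_neg, norm_smul]
  have hqs : q * s = star (s * q) := by rw [star_mul, hssa, hqsa]
  have h3 : ‖(s * q) * (q * s)‖ ≤ 1 := by
    rw [hqs, CStarRing.norm_self_mul_star]
    nlinarith [norm_nonneg (s * q)]
  rw [Real.norm_of_nonneg hη2.le]
  nlinarith

end Crest.Agent.SPI
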