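import Crest.Agent.SPI.F0
import Crest.Agent.SPI.F1a

/-! Row 110: (F1). Chunk R110-F1. -/

set_option autoImplicit false

namespace Crest.Agent.SPI

universe u

variable {M : Type u} [CStarAlgebra M] [PartialOrder M] [StarOrderedRing M]

/-- (F1). `r = ∑ tⱼ rⱼ` with (F0) for `y`. -/
theorem F1 {A : Submodule ℂ M} (hA : PIIdeal A) (x y : M) (hx0 : 0 ≤ x) (hy : y ∈ A)
    (hy0 : 0 ≤ y) (hxy : x ∈ idl y) (η : ℝ) (hη : 0 < η) :
    ∃ r ∈ A, ‖star r * y * r - x‖ < η := by
  obtain ⟨n, r, hr⟩ := F1a x y hx0 hy0 hxy (η / 2) (half_pos hη)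
  set S : ℝ := ∑ i, ‖r i‖ with hS
  have hS0 : 0 ≤ S := Finset.sum_nonneg fun i _ => norm_nonneg _
  have hd : 0 < η / 2 / (S ^ 2 + 1) := by positivity
  obtain ⟨t, htA, ht⟩ := F0 hA y hy hy0 n (η / 2 / (S ^ 2 + 1)) hd
  refine ⟨∑ j, t j * r j, A.sum_mem fun j _ => hA.mul_right _ _ (htA j), ?_⟩
  have e : star (∑ j, t j * r j) * y * (∑ j, t j * r j) - ∑ i, star (r i) * y * r i =
      ∑ i, ∑ j, star (r i) * (star (t i) * y * t j - (if i = j then y else 0)) * r j := by
    rw [star_sum, Finset.sum_mul, Finset.sum_mul, ← Finset.sum_sub_distrib]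
    refine Finset.sum_congr rfl fun i _ => ?_
    have e2 : star (r i) * y * r i =
        ∑ j, star (r i) * (if i = j then y else 0) * r j := by
      rw [Finset.sum_eq_single i]
      · rw [if_pos rfl]
      · intro j _ hj
        rw [if_neg (Ne.symm hj), mul_zero, zero_mul]
      · intro h
        exact absurd (Finset.mem_univ i) h
    rw [e2, Finset.mul_sum, ← Finset.sum_sub_distrib]
    refine Finset.sum_congr rfl fun j _ => ?_
    rw [star_mul, mul_sub, sub_mul]
    simp only [mul_assoc]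
  have hb : ‖∑ i, ∑ j, star (r i) * (star (t i) * y * t j - (if i = j then y else 0)) * r j‖ ≤
      η / 2 / (S ^ 2 + 1) * S ^ 2 := by
    calc ‖∑ i, ∑ j, star (r i) * (star (t i) * y * t j - (if i = j then y else 0)) * r j‖
        ≤ ∑ i, ∑ j, ‖r i‖ * (η / 2 / (S ^ 2 + 1)) * ‖r j‖ := by
          refine (norm_sum_le _ _).trans (Finset.sum_le_sum fun i _ => ?_)
          refine (norm_sum_le _ _).trans (Finset.sum_le_sum fun j _ => ?_)
          refine (norm_mul_le _ _).trans (mul_le_mul_of_nonneg_right ?_ (norm_nonneg _))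
          refine (norm_mul_le _ _).trans ?_
          rw [norm_star]
          exact mul_le_mul_of_nonneg_left (ht i j).le (norm_nonneg _)
      _ = η / 2 / (S ^ 2 + 1) * S ^ 2 := by
          simp only [← Finset.mul_sum, ← hS]
          rw [← Finset.sum_mul, ← Finset.sum_mul, ← hS]
          ring
  have hlt : η / 2 / (S ^ 2 + 1) * S ^ 2 ≤ η / 2 := by
    rw [div_mul_eq_mul_div, div_le_iff₀ (by positivity)]
    nlinarith [sq_nonneg S]
  have e3 : star (∑ j, t j * r j) * y * (∑ j, t j * r j) - x =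
      (star (∑ j, t j * r j) * y * (∑ j, t j * r j) - ∑ i, star (r i) * y * r i) +
      (∑ i, star (r i) * y * r i - x) := by abel
  rw [e3]
  refine (norm_add_le _ _).trans_lt ?_
  rw [e]
  linarith

end Crest.Agent.SPI
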