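import Crest.Agent.SPI.CL

/-! Row 110: the witness S. Chunk R110-FAIL. -/

set_option autoImplicit false

namespace Crest.Agent.SPI

universe u

variable {M : Type u} [CStarAlgebra M] [PartialOrder M] [StarOrderedRing M]

/-- if `x f = f`, `‖x - z‖ < 1/2`, `z ∈ I` then `f ∈ I`.
PROOF. By induction `f = (x - z)^k f + (element of I)`, `‖(x-z)^k f‖ ≤ 2^{-k} ‖f‖ → 0`, `I` closed. -/
theorem mem_of_near (I : Submodule ℂ M) (hI : CIdeal I) (x f z : M) (hxf : x * f = f)
    (hz : z ∈ I) (h : ‖x - z‖ < 1 / 2) : f ∈ I := by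
  have key : ∀ k : ℕ, f - (x - z) ^ k * f ∈ I := by
    intro k
    induction k with
    | zero => simp
    | succ k ih =>
      have e : f - (x - z) ^ (k + 1) * f = z * f + (x - z) * (f - (x - z) ^ k * f) := by
        rw [pow_succ', mul_sub, sub_mul x z f, hxf, mul_assoc]
        abel
      rw [e]
      exact I.add_mem (hI.mul_right f z hz) (hI.mul_left _ _ ih)
  have hb : ∀ k : ℕ, ‖(x - z) ^ k * f‖ ≤ (1 / 2 : ℝ) ^ k * ‖f‖ := by
    intro k
    induction k with
    | zero => simp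
    | succ k ih =>
      rw [pow_succ', mul_assoc]
      calc ‖(x - z) * ((x - z) ^ k * f)‖ ≤ ‖x - z‖ * ‖(x - z) ^ k * f‖ := norm_mul_le _ _
        _ ≤ (1 / 2) * ((1 / 2 : ℝ) ^ k * ‖f‖) :=
            mul_le_mul h.le ih (norm_nonneg _) (by norm_num)
        _ = (1 / 2 : ℝ) ^ (k + 1) * ‖f‖ := by rw [pow_succ']; ring
  have ht : Filter.Tendsto (fun k : ℕ => (x - z) ^ k * f) Filter.atTop (nhds 0) := by
    apply squeeze_zero_norm hb
    have := (tendsto_pow_atTop_nhds_zero_of_lt_one (r := (1 / 2 : ℝ)) (by norm_num)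
      (by norm_num)).mul_const ‖f‖
    simpa using this
  have ht2 : Filter.Tendsto (fun k : ℕ => f - (x - z) ^ k * f) Filter.atTop (nhds f) := by
    have := ht.const_sub f
    simpa using this
  exact hI.closed.mem_of_tendsto ht2 (Filter.Eventually.of_forall key)

/-- the witness `S` from membership in the ideal.
PROOF. `u = cfc ut p ∈ A`, (CL) with `Y = u * u`, `N = P - Q ≤ θ u² ≤ u²`, `x = cfc Ft p` gives
`z ∈ A`; `S' = z`, `S = u z`: `z⋆ N z ≥ 0` says `S⋆ c T T⋆ c⋆ S ≤ θ S⋆ S`, so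
`‖S⋆ c T‖² ≤ θ ‖S⋆ S‖ ≤ θ (1 + η') ≤ δ²` for `η'` small. (`P ∈ A` by `CIdeal.cfc_mem`:
`P = N⁺` by uniqueness, or `P * P = P * N ∈ A` and `CIdeal.of_sq`.) -/
theorem exists_S {A : Submodule ℂ M} (hA : PIIdeal A) (p c T : M) (hp : p ∈ A) (hp0 : 0 ≤ p)
    (hp1 : p ≤ 1) (θ δ : ℝ) (hθ : 0 < θ) (hδ : 0 < δ) (hδ1 : δ ≤ 1) (hθδ : θ < δ ^ 2) (P Q : M)
    (hP0 : 0 ≤ P) (hQ0 : 0 ≤ Q) (hPQ : P * Q = 0)
    (hN : cfc ut p * (algebraMap ℝ M θ - c * T * star T * star c) * cfc ut p = P - Q)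
    (hmem : cfc Ft p ∈ idl P) (η : ℝ) (hη : 0 < η) :
    ∃ S' ∈ A, ‖star (cfc ut p * S') * (cfc ut p * S') - cfc Ft p‖ < η ∧
      ‖star (cfc ut p * S') * c * T‖ ≤ δ := by
  have hpsa : IsSelfAdjoint p := IsSelfAdjoint.of_nonneg hp0
  have hut0 : ut 0 = 0 := ramp_zero 0 (1/4) le_rfl (by norm_num)
  have huA : cfc ut p ∈ A :=
    hA.toCIdeal.cfc_mem p hp hpsa ut (ramp_continuous _ _).continuousOn hut0
  have hu0 : 0 ≤ cfc ut p := cfc_ramp_nonneg _ _ p
  have husa : star (cfc ut p) = cfc ut p := (IsSelfAdjoint.of_nonneg hu0).star_eq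
  set u := cfc ut p with hudef
  set D := u * (c * T) with hD
  -- `N = θ u² - D D⋆`
  have hNeq : u * (algebraMap ℝ M θ - c * T * star T * star c) * u
      = θ • (u * u) - D * star D := by
    rw [hD, star_mul, star_mul, husa, mul_sub, sub_mul, ← Algebra.commutes, mul_assoc,
      ← Algebra.smul_def]
    simp only [mul_assoc]
  have hθ1 : θ ≤ 1 := by nlinarith [hθδ, mul_le_mul hδ1 hδ1 hδ.le zero_le_one]
  have hYA : u * u ∈ A := hA.mul_left _ _ huA
  have hY0 : 0 ≤ u * u := by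
    have := star_mul_self_nonneg u
    rwa [husa] at this
  have hNA : P - Q ∈ A := by
    rw [← hN]
    exact hA.mul_left _ _ huA
  have hPA : P ∈ A := by
    apply hA.toCIdeal.of_sq P hP0
    have : P * P = P * (P - Q) := by rw [mul_sub, hPQ, sub_zero]
    rw [this]
    exact hA.mul_left _ _ hNA
  have hNY : P - Q ≤ u * u := by
    rw [← hN, hNeq]
    have h1 : 0 ≤ (1 - θ) • (u * u) := smul_nonneg (by linarith) hY0
    have h2 : 0 ≤ D * star D := mul_star_self_nonneg D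
    have h3 : u * u - (θ • (u * u) - D * star D) = (1 - θ) • (u * u) + D * star D := by
      rw [sub_smul, one_smul]; abel
    rw [← sub_nonneg, h3]
    exact add_nonneg h1 h2
  have hη' : 0 < min η (δ ^ 2 / θ - 1) := by
    apply lt_min hη
    rw [sub_pos, lt_div_iff₀ hθ]
    linarith
  obtain ⟨z, hzA, hz1, hz2⟩ := CL hA (u * u) (P - Q) P Q (cfc Ft p) hYA hPA hY0 hNY rfl hP0 hQ0
    hPQ (cfc_ramp_nonneg _ _ p) hmem _ hη'
  have hS : star (u * z) * (u * z) = star z * (u * u) * z := by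
    rw [star_mul, husa]; simp only [mul_assoc]
  refine ⟨z, hzA, ?_, ?_⟩
  · rw [hS]
    exact lt_of_lt_of_le hz1 (min_le_left _ _)
  · have hz3 : 0 ≤ θ • (star (u * z) * (u * z)) - (star (u * z) * c * T) *
        star (star (u * z) * c * T) := by
      have e : θ • (star (u * z) * (u * z)) - (star (u * z) * c * T) *
        star (star (u * z) * c * T) = star z * (P - Q) * z := by
        rw [← hN, hNeq, hS, hD]
        simp only [star_mul, husa, star_star, mul_sub, sub_mul, mul_assoc, smul_mul_assoc,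
          mul_smul_comm]
      rw [e]
      exact hz2
    have hle : (star (u * z) * c * T) * star (star (u * z) * c * T)
        ≤ θ • (star (u * z) * (u * z)) := sub_nonneg.1 hz3
    have hn1 : ‖(star (u * z) * c * T) * star (star (u * z) * c * T)‖
        ≤ ‖θ • (star (u * z) * (u * z))‖ :=
      CStarAlgebra.norm_le_norm_of_nonneg_of_le (mul_star_self_nonneg _) hle
    have hFt : ‖cfc Ft p‖ ≤ 1 := norm_le_one_of _ (cfc_ramp_nonneg _ _ p) (cfc_ramp_le_one _ _ p)
    have hSS : ‖star (u * z) * (u * z)‖ ≤ δ ^ 2 / θ := by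
      rw [hS]
      have h1 : ‖star z * (u * u) * z‖ ≤ ‖star z * (u * u) * z - cfc Ft p‖ + ‖cfc Ft p‖ := by
        have := norm_add_le (star z * (u * u) * z - cfc Ft p) (cfc Ft p)
        simpa using this
      have h2 := lt_of_lt_of_le hz1 (min_le_right _ _)
      linarith
    rw [norm_smul, Real.norm_eq_abs, abs_of_pos hθ, CStarRing.norm_self_mul_star] at hn1
    have h3 : θ * ‖star (u * z) * (u * z)‖ ≤ δ ^ 2 := by
      calc θ * ‖star (u * z) * (u * z)‖ ≤ θ * (δ ^ 2 / θ) :=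
            mul_le_mul_of_nonneg_left hSS hθ.le
        _ = δ ^ 2 := by field_simp
    have h4 : ‖star (u * z) * c * T‖ ^ 2 ≤ δ ^ 2 := by
      rw [pow_two]; linarith
    exact le_of_sq_le_sq h4 hδ.le |>.trans le_rfl

end Crest.Agent.SPI
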