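import Crest.Agent.SPI.LevelP
import Crest.Agent.SPI.F1
import Crest.Agent.SPI.AlgTools

/-! Row 110: the operators `T`, `ρ`, `s` at a fixed level. -/

set_option autoImplicit false
set_option linter.unusedSectionVars false
set_option linter.unusedVariables false

namespace Crest.Agent.SPI

universe u

variable {M : Type u} [CStarAlgebra M] [PartialOrder M] [StarOrderedRing M]

theorem norm_mul_le_mul (a b : M) (α β : ℝ) (ha : ‖a‖ ≤ α) (hb : ‖b‖ ≤ β) : ‖a * b‖ ≤ α * β :=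
  (norm_mul_le a b).trans (mul_le_mul ha hb (norm_nonneg _) ((norm_nonneg _).trans ha))

theorem norm_le_of_sq (a : M) (K : ℝ) (hK : 0 ≤ K) (h : ‖star a * a‖ ≤ K ^ 2) : ‖a‖ ≤ K := by
  rw [CStarRing.norm_star_mul_self, ← sq] at h
  exact le_of_sq_le_sq h hK

/-- Gram-matrix estimate. -/
theorem gram (X a : Fin 5 → M) (g : M) (τ K : ℝ) (hτ : 0 ≤ τ)
    (hX : ∀ i j, ‖star (X i) * X j - (if i = j then g else 0)‖ ≤ τ)
    (ha : ∀ i, g * a i = a i) (hK : ∀ i, ‖a i‖ ≤ K) :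
    (∀ i, ‖star (X i) * (∑ j, X j * a j) - a i‖ ≤ 5 * τ * K) ∧
    ‖star (∑ j, X j * a j) * (∑ j, X j * a j) - ∑ i, star (a i) * a i‖ ≤ 25 * τ * K ^ 2 := by
  have hK0 : 0 ≤ K := (norm_nonneg _).trans (hK 0)
  have h1 : ∀ i, ‖star (X i) * (∑ j, X j * a j) - a i‖ ≤ 5 * τ * K := by
    intro i
    have e1 : star (X i) * (∑ j, X j * a j) - a i
        = ∑ j, (star (X i) * X j - (if i = j then g else 0)) * a j := by
      have e2 : a i = ∑ j, (if i = j then g else 0) * a j := by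
        rw [Finset.sum_eq_single i]
        · rw [if_pos rfl, ha]
        · intro j _ hj
          rw [if_neg (Ne.symm hj), zero_mul]
        · intro h; exact absurd (Finset.mem_univ _) h
      conv_lhs => rw [e2]
      rw [Finset.mul_sum, ← Finset.sum_sub_distrib]
      refine Finset.sum_congr rfl fun j _ => ?_
      noncomm_ring
    rw [e1]
    calc ‖∑ j, (star (X i) * X j - (if i = j then g else 0)) * a j‖
        ≤ ∑ j, ‖(star (X i) * X j - (if i = j then g else 0)) * a j‖ := norm_sum_le _ _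
      _ ≤ ∑ j : Fin 5, τ * K := Finset.sum_le_sum fun j _ =>
          norm_mul_le_mul _ _ _ _ (hX i j) (hK j)
      _ = _ := by simp; ring
  refine ⟨h1, ?_⟩
  set T := ∑ j, X j * a j with hT
  have e1 : star T * T - ∑ i, star (a i) * a i = ∑ i, star (a i) * (star (X i) * T - a i) := by
    have e2 : star T * T = ∑ i, star (a i) * (star (X i) * T) := by
      conv_lhs => rw [hT, star_sum, Finset.sum_mul]
      refine Finset.sum_congr rfl fun i _ => ?_
      rw [star_mul]; noncomm_ring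
    rw [e2, ← Finset.sum_sub_distrib]
    refine Finset.sum_congr rfl fun j _ => ?_
    noncomm_ring
  rw [e1]
  calc ‖∑ i, star (a i) * (star (X i) * T - a i)‖
      ≤ ∑ i, ‖star (a i) * (star (X i) * T - a i)‖ := norm_sum_le _ _
    _ ≤ ∑ i : Fin 5, K * (5 * τ * K) := Finset.sum_le_sum fun i _ =>
        norm_mul_le_mul _ _ _ _ (by rw [norm_star]; exact hK i) (h1 i)
    _ = _ := by simp; ring

/-- `ρ = sqrt (h1 (1 - e²) h1)`. -/
theorem exists_rho {A : Submodule ℂ M} (hA : CIdeal A) (g h h1 e : M) (hh1A : h1 ∈ A)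
    (hgs : star g = g)
    (hh1s : star h1 = h1) (hh1 : h1 * h1 = h) (hgh : g * h1 = h1) (hh1n : ‖h1‖ ≤ 1)
    (e0 : 0 ≤ e) (e1 : e ≤ 1) (τ : ℝ) (hτ : 0 ≤ τ) (hcomm : ‖e * h1 - h1 * e‖ ≤ τ) :
    ∃ ρ ∈ A, g * ρ = ρ ∧ star ρ = ρ ∧ ‖ρ‖ ≤ 1 ∧ ‖ρ * ρ - (h - e * h * e)‖ ≤ 2 * τ := by
  have hes : star e = e := (IsSelfAdjoint.of_nonneg e0).star_eq
  have hen : ‖e‖ ≤ 1 := norm_le_one_of e e0 e1
  have hee : e * e ≤ 1 := by
    have := star_mul_le_of_norm e hen
    rwa [hes] at this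
  have hG0 : 0 ≤ h1 * (1 - e * e) * h1 := by
    have := conj_nonneg _ h1 (sub_nonneg.mpr hee)
    rwa [hh1s] at this
  have hG1 : h1 * (1 - e * e) * h1 ≤ 1 := by
    have a1 : 1 - e * e ≤ 1 := by
      rw [sub_le_self_iff]
      have := star_mul_self_nonneg e
      rwa [hes] at this
    have a2 := conj_le _ _ h1 a1
    rw [hh1s, mul_one] at a2
    have a3 := star_mul_le_of_norm h1 hh1n
    rw [hh1s] at a3
    exact a2.trans a3
  have hGA : h1 * (1 - e * e) * h1 ∈ A := hA.mul_left _ _ hh1A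
  have hsq := sqrt_sqrt _ hG0
  refine ⟨CFC.sqrt (h1 * (1 - e * e) * h1), ?_, ?_, star_sqrt _, ?_, ?_⟩
  · apply hA.of_sq _ (CFC.sqrt_nonneg _)
    rw [hsq]; exact hGA
  · apply u_sqrt g _ hgs hG0
    calc g * (h1 * (1 - e * e) * h1) = (g * h1) * (1 - e * e) * h1 := by noncomm_ring
      _ = _ := by rw [hgh]
  · apply norm_le_of_star_mul_le
    rw [star_sqrt, hsq]; exact hG1
  · rw [hsq]
    have e2 : h1 * (1 - e * e) * h1 - (h - e * h * e)
        = (e * h1 - h1 * e) * (h1 * e) + (h1 * e) * (h1 * e - e * h1) := by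
      rw [← hh1]; noncomm_ring
    rw [e2]
    have n1 : ‖h1 * e‖ ≤ 1 := by
      have := norm_mul_le_mul h1 e 1 1 hh1n hen
      simpa using this
    have n2 : ‖h1 * e - e * h1‖ ≤ τ := by rw [norm_sub_rev]; exact hcomm
    calc ‖(e * h1 - h1 * e) * (h1 * e) + (h1 * e) * (h1 * e - e * h1)‖
        ≤ ‖(e * h1 - h1 * e) * (h1 * e)‖ + ‖(h1 * e) * (h1 * e - e * h1)‖ := norm_add_le _ _
      _ ≤ τ * 1 + 1 * τ := add_le_add (norm_mul_le_mul _ _ _ _ hcomm n1)
          (norm_mul_le_mul _ _ _ _ n1 n2)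
      _ = _ := by ring

/-- the element `s`. -/
theorem exists_s {A : Submodule ℂ M} (hA : PIIdeal A) (w wh f00 f0 ew : M) (hw : w ∈ A)
    (hw0 : 0 ≤ w) (hwh : wh * wh = w) (hwhs : star wh = wh) (hf00s : star f00 = f00)
    (hf00n : ‖f00‖ ≤ 1) (hf0n : ‖f0‖ ≤ 1) (hf00 : 0 ≤ f0) (h1 : f00 * f0 = f0)
    (h2 : f0 * f00 = f0) (ew0 : 0 ≤ ew) (ew1 : ew ≤ 1) (hew : ew ∈ idl w) (τ : ℝ) (hτ : 0 < τ)
    (hτ1 : τ ≤ 1) (hcomm : ‖ew * f00 - f00 * ew‖ ≤ τ) :
    ∃ r' ∈ A, ‖star (wh * r' * f00) * (wh * r' * f00) - ew * f0 * ew‖ ≤ 3 * τ ∧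
      ‖wh * r' * f00‖ ≤ 2 := by
  have hes : star ew = ew := (IsSelfAdjoint.of_nonneg ew0).star_eq
  have hen : ‖ew‖ ≤ 1 := norm_le_one_of ew ew0 ew1
  have hx0 : 0 ≤ ew * f0 * ew := by
    have := conj_nonneg f0 ew hf00
    rwa [hes] at this
  have hI := idl_cideal w (IsSelfAdjoint.of_nonneg hw0)
  have hxm : ew * f0 * ew ∈ idl w := hI.mul_left _ _ hew
  obtain ⟨r', hr', hr⟩ := F1 hA (ew * f0 * ew) w hx0 hw hw0 hxm τ hτ
  have e1 : star (wh * r' * f00) * (wh * r' * f00) = f00 * (star r' * w * r') * f00 := by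
    simp only [star_mul, hwhs, hf00s]
    rw [← hwh]; noncomm_ring
  have e2 : star (wh * r' * f00) * (wh * r' * f00) - ew * f0 * ew
      = f00 * (star r' * w * r' - ew * f0 * ew) * f00
        + (f00 * ew - ew * f00) * (f0 * (ew * f00))
        + (ew * f0) * (ew * f00 - f00 * ew) := by
    rw [e1]
    have e3 : ew * (f00 * f0) * (ew * f00) = ew * f0 * (ew * f00) := by rw [h1]
    have e4 : ew * (f0 * f00) * ew = ew * f0 * ew := by rw [h2]
    calc f00 * (star r' * w * r') * f00 - ew * f0 * ew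
        = f00 * (star r' * w * r' - ew * f0 * ew) * f00
          + (f00 * ew - ew * f00) * (f0 * (ew * f00)) + ew * (f00 * f0) * (ew * f00)
          - ew * f0 * ew := by noncomm_ring
      _ = f00 * (star r' * w * r' - ew * f0 * ew) * f00
          + (f00 * ew - ew * f00) * (f0 * (ew * f00)) + ew * f0 * (ew * f00)
          - ew * (f0 * f00) * ew := by rw [e3, e4]
      _ = _ := by noncomm_ring
  have n0 : ‖f00 * (star r' * w * r' - ew * f0 * ew) * f00‖ ≤ τ := by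
    have a1 := norm_mul_le_mul f00 _ 1 τ hf00n hr.le
    have a2 := norm_mul_le_mul _ f00 (1 * τ) 1 a1 hf00n
    linarith
  have n1 : ‖f0 * (ew * f00)‖ ≤ 1 := by
    have a1 := norm_mul_le_mul ew f00 1 1 hen hf00n
    have a2 := norm_mul_le_mul f0 _ 1 (1 * 1) hf0n a1
    linarith
  have n2 : ‖ew * f0‖ ≤ 1 := by
    have a1 := norm_mul_le_mul ew f0 1 1 hen hf0n
    linarith
  have n3 : ‖f00 * ew - ew * f00‖ ≤ τ := by rw [norm_sub_rev]; exact hcomm
  have key : ‖star (wh * r' * f00) * (wh * r' * f00) - ew * f0 * ew‖ ≤ 3 * τ := by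
    rw [e2]
    calc _ ≤ ‖f00 * (star r' * w * r' - ew * f0 * ew) * f00
            + (f00 * ew - ew * f00) * (f0 * (ew * f00))‖
            + ‖(ew * f0) * (ew * f00 - f00 * ew)‖ := norm_add_le _ _
      _ ≤ (‖f00 * (star r' * w * r' - ew * f0 * ew) * f00‖
            + ‖(f00 * ew - ew * f00) * (f0 * (ew * f00))‖)
            + ‖(ew * f0) * (ew * f00 - f00 * ew)‖ := by
          gcongr; exact norm_add_le _ _
      _ ≤ (τ + τ * 1) + 1 * τ := by
          gcongr
          · exact norm_mul_le_mul _ _ _ _ n3 n1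
          · exact norm_mul_le_mul _ _ _ _ n2 hcomm
      _ = _ := by ring
  refine ⟨r', hr', key, ?_⟩
  apply norm_le_of_sq _ 2 (by norm_num)
  have n4 : ‖ew * f0 * ew‖ ≤ 1 := by
    have := norm_mul_le_mul _ ew 1 1 n2 hen
    linarith
  calc ‖star (wh * r' * f00) * (wh * r' * f00)‖
      ≤ ‖star (wh * r' * f00) * (wh * r' * f00) - ew * f0 * ew‖ + ‖ew * f0 * ew‖ := by
        have := norm_add_le (star (wh * r' * f00) * (wh * r' * f00) - ew * f0 * ew) (ew * f0 * ew)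
        rwa [sub_add_cancel] at this
    _ ≤ 3 * τ + 1 := add_le_add key n4
    _ ≤ 2 ^ 2 := by linarith

end Crest.Agent.SPI
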