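import Crest.Agent.SPI.Block
import Crest.Agent.SPI.LevelT

/-! Row 110: the construction at a fixed level. Chunk R110-LEVEL. -/

set_option autoImplicit false
set_option linter.unusedSectionVars false
set_option linter.unusedVariables false

namespace Crest.Agent.SPI

universe u

variable {M : Type u} [CStarAlgebra M] [PartialOrder M] [StarOrderedRing M]

theorem Blk.weaken {η η' : ℝ} (h : η ≤ η') {c L k r y hh e v p m : M}
    (H : Blk η c L k r y hh e v p m) : Blk η' c L k r y hh e v p m where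
  e_nonneg := H.e_nonneg
  e_le := H.e_le
  p_nonneg := H.p_nonneg
  m_nonneg := H.m_nonneg
  pm := H.pm
  N_eq := H.N_eq
  ep := H.ep.trans h
  vv := H.vv.trans h
  Lv := H.Lv.trans h
  Kv := H.Kv

theorem norm_two_mul_le (v : M) (K : ℝ) (h : ‖v‖ ≤ K) : ‖2 * v‖ ≤ 2 * K := by
  rw [two_mul]
  calc ‖v + v‖ ≤ ‖v‖ + ‖v‖ := norm_add_le _ _
    _ ≤ 2 * K := by linarith

theorem norm_four_mul_le (v : M) (K : ℝ) (h : ‖v‖ ≤ K) : ‖4 * v‖ ≤ 4 * K := by
  have : 4 * v = 2 * (2 * v) := by noncomm_ring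
  rw [this]
  have := norm_two_mul_le _ _ (norm_two_mul_le v K h)
  linarith

/-- steps 1-6 of the construction, ideas id=524 -/
theorem level {A : Submodule ℂ M} (hA : PIIdeal A) (p q c : M) (hp : p ∈ A) (hq : q ∈ A)
    (hp0 : 0 ≤ p) (hp1 : p ≤ 1) (hq0 : 0 ≤ q) (hq1 : q ≤ 1) (hc : ‖c‖ ≤ 1) (η : ℝ) (hη : 0 < η) :
    ∃ x : Nm → M, x .c = c ∧ x .u = cfc ut p ∧ x .fi = cfc fit p ∧ x .h = cfc Ft q ∧
      (∃ T' ∈ A, x .T = cfc ut q * T') ∧ (∀ i, ‖x i‖ ≤ 1000000) ∧ Data η x := by
  classical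
  set ε : ℝ := min η 1 with hε
  have ε0 : 0 < ε := lt_min hη one_pos
  have ε1 : ε ≤ 1 := min_le_right _ _
  have εη : ε ≤ η := min_le_left _ _
  set τ : ℝ := ε / 100000 with hτdef
  have τ0 : 0 < τ := by positivity
  have τ1 : τ ≤ 1 := by rw [hτdef]; linarith
  set ηb : ℝ := ε / 100 with hηbdef
  have ηb0 : 0 < ηb := by positivity
  have ηb1 : ηb ≤ 1 := by rw [hηbdef]; linarith
  have τε : τ ≤ ε := by rw [hτdef]; linarith
  have ηbε : ηb ≤ ε := by rw [hηbdef]; linarith
  have τηb : τ ≤ ηb / 16 := by rw [hτdef, hηbdef]; linarith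
  obtain ⟨f00, f0, chi, b, w, wh, uA, f00A, f0A, chiA, wA, whA, us, f00s, f0s, chis, bs, whs, fis,
    un, f00n, f0n, chin, bn, whn, fin, f0_0, w0, f0_1, u_f0, u_chi, u_f00, f00_u, f00_f0, f0_f00,
    u_b, b_b, fi_b, fi_f0, chi_fi, chi_f0, w_eq, wh_wh, u_wh, b_wh, fi_wh⟩ :=
    levelP hA.toCIdeal p hp hp0
  obtain ⟨g, y, d, dh, h1, vA, gA, yA, dA, dhA, h1A, hhA, vs, ys, ds, dhs, h1s, hs, vn, gn, yn, dn,
    dhn, h1n, hn, g0, y0, y1, d0, h0, h1', vv_g, g_y, y_d, y_dh, dh_dh, y_h, d_h, h1_h1, g_h1,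
    v_h1, y_h1⟩ := levelQ hA.toCIdeal q hq hq0
  set u := cfc ut p with hu
  set fi := cfc fit p with hfi
  set vq := cfc ut q with hvq
  set h := cfc Ft q with hh
  have gs : star g = g := (IsSelfAdjoint.of_nonneg g0).star_eq
  obtain ⟨t, htA, ht⟩ := F0 hA g gA g0 5 τ τ0
  obtain ⟨kk, hkA, hk⟩ := F0 hA d dA d0 2 τ τ0
  -- the orthogonal copies
  obtain ⟨X, hX⟩ : ∃ X : Fin 5 → M, X = fun i => vq * t i := ⟨_, rfl⟩
  have hXX : ∀ i j, ‖star (X i) * X j - (if i = j then g else 0)‖ ≤ τ := by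
    intro i j
    have e1 : star (X i) * X j = star (t i) * g * t j := by
      rw [hX]
      simp only [star_mul, vs]
      rw [← vv_g]; noncomm_ring
    rw [e1]; exact (ht i j).le
  have hXg : ∀ i, ‖star (X i) * X i - g‖ ≤ τ := by
    intro i
    have := hXX i i
    rwa [if_pos rfl] at this
  have hXA : ∀ i, X i ∈ A := fun i => by rw [hX]; exact hA.mul_left _ _ (htA i)
  have hXn : ∀ i, ‖X i‖ ≤ 2 := by
    intro i
    apply norm_le_of_sq _ 2 (by norm_num)
    have a1 := norm_add_le (star (X i) * X i - g) g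
    rw [sub_add_cancel] at a1
    have := hXg i
    linarith
  -- k1, k2
  set k1 := dh * kk 0 with hk1
  set k2 := dh * kk 1 with hk2
  have kij : ∀ i j, star (dh * kk i) * (dh * kk j) = star (kk i) * d * kk j := by
    intro i j
    simp only [star_mul, dhs]
    rw [← dh_dh]; noncomm_ring
  have k11 : ‖star k1 * k1 - d‖ ≤ τ := by
    have := (hk 0 0).le
    rwa [if_pos rfl, ← kij 0 0] at this
  have k22 : ‖star k2 * k2 - d‖ ≤ τ := by
    have := (hk 1 1).le
    rwa [if_pos rfl, ← kij 1 1] at this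
  have k12 : ‖star k1 * k2‖ ≤ τ := by
    have := (hk 0 1).le
    rwa [if_neg (by decide), sub_zero, ← kij 0 1] at this
  have k1n : ‖k1‖ ≤ 2 := by
    apply norm_le_of_sq _ 2 (by norm_num)
    have a1 := norm_add_le (star k1 * k1 - d) d
    rw [sub_add_cancel] at a1
    linarith
  have k2n : ‖k2‖ ≤ 2 := by
    apply norm_le_of_sq _ 2 (by norm_num)
    have a1 := norm_add_le (star k2 * k2 - d) d
    rw [sub_add_cancel] at a1
    linarith
  -- ew
  obtain ⟨ew, ewJ, ew0, ew1, ew_w, ewc⟩ := QC (idl_cideal w (IsSelfAdjoint.of_nonneg w0)) w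
    (self_mem_idl w) w0 {c, u, f0, chi, fi, b, y, d, h, h1, X 0, X 1, X 2, k1, k2, f00} τ τ0
  have ews : star ew = ew := (IsSelfAdjoint.of_nonneg ew0).star_eq
  -- s
  obtain ⟨r', hr', s_s, sn⟩ := exists_s hA w wh f00 f0 ew wA w0 wh_wh whs f00s f00n f0n f0_0
    f00_f0 f0_f00 ew0 ew1 ewJ τ τ0 τ1 (ewc f00 (by simp)).le
  set s := wh * r' * f00 with hs_def
  have u_s : u * s = s := by
    rw [hs_def]
    calc u * (wh * r' * f00) = (u * wh) * r' * f00 := by noncomm_ring
      _ = _ := by rw [u_wh]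
  have s_u : s * u = s := by
    rw [hs_def]
    calc wh * r' * f00 * u = wh * r' * (f00 * u) := by noncomm_ring
      _ = _ := by rw [f00_u]
  have b_s : b * s = 0 := by
    rw [hs_def]
    calc b * (wh * r' * f00) = (b * wh) * r' * f00 := by noncomm_ring
      _ = _ := by rw [b_wh]; noncomm_ring
  have fi_s : fi * s = 0 := by
    rw [hs_def]
    calc fi * (wh * r' * f00) = (fi * wh) * r' * f00 := by noncomm_ring
      _ = _ := by rw [fi_wh]; noncomm_ring
  -- block 1
  obtain ⟨e1, v1, p1, m1, z1, hv1, hz1A, blk1, com1, v1n, p1n, m1n⟩ :=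
    block hA c (X 1) k1 chi y h hc (hXA 1) (hXn 1) k1n chis (chin.trans (by norm_num)) yA y0 y1
      h0 h1' y_h {ew, s, c, u, f0, chi, fi, b, y, d, h, h1, X 0, X 1, X 2, k1, k2} ηb ηb0 ηb1 g
      g_y ((hXg 1).trans τηb)
  -- block 2
  have R2s : star (R2 f0 s b) = R2 f0 s b := by
    unfold R2
    simp only [star_sub, star_mul, star_star, f0s, bs]
    abel
  have R2n : ‖R2 f0 s b‖ ≤ 10 := by
    unfold R2
    have n1 : ‖s * star s‖ ≤ 2 * 2 := norm_mul_le_mul _ _ _ _ sn (by rw [norm_star]; exact sn)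
    have n2 : ‖s * b‖ ≤ 2 * 1 := norm_mul_le_mul _ _ _ _ sn bn
    have n3 : ‖b * star s‖ ≤ 1 * 2 := norm_mul_le_mul _ _ _ _ bn (by rw [norm_star]; exact sn)
    have a1 := norm_sub_le (f0 - s * star s - s * b) (b * star s)
    have a2 := norm_sub_le (f0 - s * star s) (s * b)
    have a3 := norm_sub_le f0 (s * star s)
    linarith
  obtain ⟨e2, v2, p2, m2, z2, hv2, hz2A, blk2, com2, v2n, p2n, m2n⟩ :=
    block hA c (X 2) k1 (R2 f0 s b) y h hc (hXA 2) (hXn 2) k1n R2s R2n yA y0 y1
      h0 h1' y_h {e1, ew, s, c, u, f0, chi, fi, b, y, d, h, h1, X 0, X 1, X 2, k1, k2} ηb ηb0 ηb1 g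
      g_y ((hXg 2).trans τηb)
  -- ρ
  obtain ⟨ρ1, ρ1A, gρ1, ρ1s, ρ1n, ρ1e⟩ := exists_rho hA.toCIdeal g h h1 e1 h1A gs h1s h1_h1 g_h1
    h1n blk1.e_nonneg blk1.e_le ηb ηb0.le (com1 h1 (by simp))
  obtain ⟨ρ2, ρ2A, gρ2, ρ2s, ρ2n, ρ2e⟩ := exists_rho hA.toCIdeal g h h1 e2 h1A gs h1s h1_h1 g_h1
    h1n blk2.e_nonneg blk2.e_le ηb ηb0.le (com2 h1 (by simp))
  have gv1 : g * v1 = v1 := by rw [hv1, ← mul_assoc, g_y]
  have gv2 : g * v2 = v2 := by rw [hv2, ← mul_assoc, g_y]
  obtain ⟨a, ha⟩ : ∃ a : Fin 5 → M, a = ![h1, 2 * v1, 2 * v2, 2 * ρ1, 2 * ρ2] := ⟨_, rfl⟩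
  have a0 : a 0 = h1 := by rw [ha]; rfl
  have a1 : a 1 = 2 * v1 := by rw [ha]; rfl
  have a2 : a 2 = 2 * v2 := by rw [ha]; rfl
  have a3 : a 3 = 2 * ρ1 := by rw [ha]; rfl
  have a4 : a 4 = 2 * ρ2 := by rw [ha]; rfl
  have g2 : ∀ z : M, g * z = z → g * (2 * z) = 2 * z := by
    intro z hz
    calc g * (2 * z) = 2 * (g * z) := by noncomm_ring
      _ = _ := by rw [hz]
  have hga : ∀ i, g * a i = a i := by
    intro i
    fin_cases i
    · show g * a 0 = a 0
      rw [a0, g_h1]
    · show g * a 1 = a 1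
      rw [a1, g2 _ gv1]
    · show g * a 2 = a 2
      rw [a2, g2 _ gv2]
    · show g * a 3 = a 3
      rw [a3, g2 _ gρ1]
    · show g * a 4 = a 4
      rw [a4, g2 _ gρ2]
  have han : ∀ i, ‖a i‖ ≤ 4 := by
    intro i
    fin_cases i
    · show ‖a 0‖ ≤ 4
      rw [a0]; linarith
    · show ‖a 1‖ ≤ 4
      rw [a1]; have := norm_two_mul_le v1 2 v1n; linarith
    · show ‖a 2‖ ≤ 4
      rw [a2]; have := norm_two_mul_le v2 2 v2n; linarith
    · show ‖a 3‖ ≤ 4
      rw [a3]; have := norm_two_mul_le ρ1 1 ρ1n; linarith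
    · show ‖a 4‖ ≤ 4
      rw [a4]; have := norm_two_mul_le ρ2 1 ρ2n; linarith
  obtain ⟨gr1, gr2⟩ := gram X a g τ 4 τ0.le hXX hga han
  obtain ⟨T, hT⟩ : ∃ T : M, T = ∑ j, X j * a j := ⟨_, rfl⟩
  rw [← hT] at gr2
  have gr1' : ∀ i, ‖star (X i) * T - a i‖ ≤ 20 * τ := by
    intro i
    have := gr1 i
    rw [← hT] at this
    linarith
  have hTn : ‖T‖ ≤ 40 := by
    rw [hT]
    calc ‖∑ j, X j * a j‖ ≤ ∑ j, ‖X j * a j‖ := norm_sum_le _ _
      _ ≤ ∑ j : Fin 5, (2 * 4 : ℝ) := Finset.sum_le_sum fun j _ =>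
          norm_mul_le_mul _ _ _ _ (hXn j) (han j)
      _ = 40 := by simp; norm_num
  have hTT' : ∃ T' ∈ A, T = vq * T' := by
    refine ⟨∑ j, t j * a j, ?_, ?_⟩
    · exact A.sum_mem fun j _ => hA.mul_right _ _ (htA j)
    · rw [hT, Finset.mul_sum]
      refine Finset.sum_congr rfl fun j _ => ?_
      rw [hX]; noncomm_ring
  have hTT : ‖star T * T - 9 * h‖ ≤ ε := by
    have e1' : ∑ i, star (a i) * a i = h + 4 * (star v1 * v1) + 4 * (star v2 * v2)
        + 4 * (ρ1 * ρ1) + 4 * (ρ2 * ρ2) := by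
      rw [Fin.sum_univ_five, a0, a1, a2, a3, a4]
      simp only [star_mul, h1s, ρ1s, ρ2s, star_ofNat]
      rw [← h1_h1]; noncomm_ring
    have e2' : star T * T - 9 * h = (star T * T - ∑ i, star (a i) * a i)
        + 4 * (star v1 * v1 - e1 * h * e1) + 4 * (star v2 * v2 - e2 * h * e2)
        + 4 * (ρ1 * ρ1 - (h - e1 * h * e1)) + 4 * (ρ2 * ρ2 - (h - e2 * h * e2)) := by
      rw [e1']; noncomm_ring
    rw [e2']
    have n1 := norm_four_mul_le _ _ blk1.vv
    have n2 := norm_four_mul_le _ _ blk2.vv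
    have n3 := norm_four_mul_le _ _ ρ1e
    have n4 := norm_four_mul_le _ _ ρ2e
    have b1 := norm_add_le ((star T * T - ∑ i, star (a i) * a i)
        + 4 * (star v1 * v1 - e1 * h * e1) + 4 * (star v2 * v2 - e2 * h * e2)
        + 4 * (ρ1 * ρ1 - (h - e1 * h * e1))) (4 * (ρ2 * ρ2 - (h - e2 * h * e2)))
    have b2 := norm_add_le ((star T * T - ∑ i, star (a i) * a i)
        + 4 * (star v1 * v1 - e1 * h * e1) + 4 * (star v2 * v2 - e2 * h * e2))
        (4 * (ρ1 * ρ1 - (h - e1 * h * e1)))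
    have b3 := norm_add_le ((star T * T - ∑ i, star (a i) * a i)
        + 4 * (star v1 * v1 - e1 * h * e1)) (4 * (star v2 * v2 - e2 * h * e2))
    have b4 := norm_add_le (star T * T - ∑ i, star (a i) * a i)
        (4 * (star v1 * v1 - e1 * h * e1))
    have b5 : 25 * τ * 4 ^ 2 + 24 * ηb ≤ ε := by
      rw [hτdef, hηbdef]; linarith
    linarith
  have τ20 : 20 * τ ≤ ε := by rw [hτdef]; linarith
  have e1n : ‖e1‖ ≤ 1 := norm_le_one_of _ blk1.e_nonneg blk1.e_le
  have e2n : ‖e2‖ ≤ 1 := norm_le_one_of _ blk2.e_nonneg blk2.e_le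
  have ewn : ‖ew‖ ≤ 1 := norm_le_one_of _ ew0 ew1
  have Ly : ∀ i, ‖star (X i) * X i * y - y‖ ≤ ε := by
    intro i
    have e : star (X i) * X i * y - y = (star (X i) * X i - g) * y := by
      rw [sub_mul, g_y]
    rw [e]
    have := norm_mul_le_mul _ _ _ _ (hXg i) yn
    linarith
  let x : Nm → M := fun i => match i with
    | .c => c | .u => u | .f0 => f0 | .chi => chi | .fi => fi | .b => b | .s => s | .ew => ew
    | .y => y | .d => d | .h => h | .h1 => h1 | .R => X 0 | .L1 => X 1 | .L2 => X 2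
    | .k1 => k1 | .k2 => k2 | .e1 => e1 | .e2 => e2 | .v1 => v1 | .v2 => v2
    | .p1 => p1 | .m1 => m1 | .p2 => p2 | .m2 => m2 | .T => T
  refine ⟨x, rfl, rfl, rfl, rfl, hTT', ?_, ?_⟩
  · intro i
    cases i
    · exact hc.trans (by norm_num)
    · exact un.trans (by norm_num)
    · exact f0n.trans (by norm_num)
    · exact chin.trans (by norm_num)
    · exact fin.trans (by norm_num)
    · exact bn.trans (by norm_num)
    · exact sn.trans (by norm_num)
    · exact ewn.trans (by norm_num)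
    · exact yn.trans (by norm_num)
    · exact dn.trans (by norm_num)
    · exact hn.trans (by norm_num)
    · exact h1n.trans (by norm_num)
    · exact (hXn 0).trans (by norm_num)
    · exact (hXn 1).trans (by norm_num)
    · exact (hXn 2).trans (by norm_num)
    · exact k1n.trans (by norm_num)
    · exact k2n.trans (by norm_num)
    · exact e1n.trans (by norm_num)
    · exact e2n.trans (by norm_num)
    · exact v1n.trans (by norm_num)
    · exact v2n.trans (by norm_num)
    · exact p1n.trans (by norm_num)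
    · exact m1n.trans (by norm_num)
    · exact p2n.trans (by norm_num)
    · exact m2n.trans (by norm_num)
    · exact hTn.trans (by norm_num)
  · exact
    { c_norm := hc
      sa := by
        intro i hi
        simp only [List.mem_cons, List.not_mem_nil, or_false] at hi
        rcases hi with rfl | rfl | rfl | rfl | rfl | rfl | rfl | rfl | rfl | rfl | rfl | rfl
        · exact us
        · exact f0s
        · exact chis
        · exact fis
        · exact bs
        · exact ews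
        · exact ys
        · exact ds
        · exact hs
        · exact h1s
        · exact (IsSelfAdjoint.of_nonneg blk1.e_nonneg).star_eq
        · exact (IsSelfAdjoint.of_nonneg blk2.e_nonneg).star_eq
      h_nonneg := h0
      h_le := h1'
      u_f0 := u_f0
      u_chi := u_chi
      u_s := u_s
      s_u := s_u
      u_b := u_b
      b_b := b_b
      b_s := b_s
      fi_s := fi_s
      fi_b := fi_b
      fi_f0 := fi_f0
      chi_fi := chi_fi
      chi_f0 := chi_f0
      s_s := s_s.trans ((by linarith : 3 * τ ≤ 20 * τ).trans (τ20.trans εη))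
      ew_w := by
        have := ew_w.le.trans (τε.trans εη)
        rwa [w_eq] at this
      y_h := y_h
      d_h := d_h
      h1_h1 := h1_h1
      y_k1 := by
        show y * (dh * kk 0) = dh * kk 0
        rw [← mul_assoc, y_dh]
      y_k2 := by
        show y * (dh * kk 1) = dh * kk 1
        rw [← mul_assoc, y_dh]
      k11 := k11.trans (τε.trans εη)
      k12 := k12.trans (τε.trans εη)
      k22 := k22.trans (τε.trans εη)
      L1y := (Ly 1).trans εη
      L2y := (Ly 2).trans εη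
      T_T := hTT.trans εη
      R_T := by
        have := gr1' 0
        rw [a0] at this
        exact this.trans (τ20.trans εη)
      L1_T := by
        have := gr1' 1
        rw [a1] at this
        exact this.trans (τ20.trans εη)
      L2_T := by
        have := gr1' 2
        rw [a2] at this
        exact this.trans (τ20.trans εη)
      blk1 := blk1.weaken (ηbε.trans εη)
      blk2 := blk2.weaken (ηbε.trans εη)
      comm_w := by
        intro i hi
        refine le_trans ?_ (τε.trans εη)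
        simp only [base, List.mem_cons, List.not_mem_nil, or_false] at hi
        rcases hi with rfl | rfl | rfl | rfl | rfl | rfl | rfl | rfl | rfl | rfl | rfl | rfl | rfl
          | rfl | rfl
        all_goals exact (ewc _ (by simp [x])).le
      comm_1 := by
        intro i hi
        refine le_trans ?_ (ηbε.trans εη)
        simp only [base, List.mem_cons, List.not_mem_nil, or_false] at hi
        rcases hi with rfl | rfl | rfl | rfl | rfl | rfl | rfl | rfl | rfl | rfl | rfl | rfl | rfl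
          | rfl | rfl | rfl | rfl
        all_goals exact com1 _ (by simp [x])
      comm_2 := by
        intro i hi
        refine le_trans ?_ (ηbε.trans εη)
        simp only [base, List.mem_cons, List.not_mem_nil, or_false] at hi
        rcases hi with rfl | rfl | rfl | rfl | rfl | rfl | rfl | rfl | rfl | rfl | rfl | rfl | rfl
          | rfl | rfl | rfl | rfl | rfl
        all_goals exact com2 _ (by simp [x]) }

end Crest.Agent.SPI
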