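import Crest.Agent.SPI.Trans
import Crest.Agent.SPI.Fail
import Crest.Agent.SPI.Level

/-! Row 110: the improvement lemma. Chunk R110-IMPR. -/

set_option autoImplicit false

namespace Crest.Agent.SPI

universe u

variable {M : Type u} [CStarAlgebra M] [PartialOrder M] [StarOrderedRing M] [Nontrivial M]

omit [Nontrivial M] in
theorem Blk.mono {η η' : ℝ} (h : η ≤ η') {c L k r y hh e v p m : M}
    (H : Blk η c L k r y hh e v p m) : Blk η' c L k r y hh e v p m where
  e_nonneg := H.e_nonneg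
  e_le := H.e_le
  p_nonneg := H.p_nonneg
  m_nonneg := H.m_nonneg
  pm := H.pm
  N_eq := H.N_eq
  ep := H.ep.trans h
  vv := H.vv.trans h
  Lv := H.Lv.trans h
  Kv := H.Kv

omit [Nontrivial M] in
theorem Data.mono {η η' : ℝ} (h : η ≤ η') {x : Nm → M} (H : Data η x) : Data η' x where
  c_norm := H.c_norm
  sa := H.sa
  h_nonneg := H.h_nonneg
  h_le := H.h_le
  u_f0 := H.u_f0
  u_chi := H.u_chi
  u_s := H.u_s
  s_u := H.s_u
  u_b := H.u_b
  b_b := H.b_b
  b_s := H.b_s
  fi_s := H.fi_s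
  fi_b := H.fi_b
  fi_f0 := H.fi_f0
  chi_fi := H.chi_fi
  chi_f0 := H.chi_f0
  s_s := H.s_s.trans h
  ew_w := H.ew_w.trans h
  y_h := H.y_h
  d_h := H.d_h
  h1_h1 := H.h1_h1
  y_k1 := H.y_k1
  y_k2 := H.y_k2
  k11 := H.k11.trans h
  k12 := H.k12.trans h
  k22 := H.k22.trans h
  L1y := H.L1y.trans h
  L2y := H.L2y.trans h
  T_T := H.T_T.trans h
  R_T := H.R_T.trans h
  L1_T := H.L1_T.trans h
  L2_T := H.L2_T.trans h
  blk1 := H.blk1.mono h
  blk2 := H.blk2.mono h
  comm_w := fun i hi => (H.comm_w i hi).trans h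
  comm_1 := fun i hi => (H.comm_1 i hi).trans h
  comm_2 := fun i hi => (H.comm_2 i hi).trans h

/-- The improvement lemma.
PROOF. By contradiction: for `n : ℕ` take `δ n = 1 - 1/(n+2)` and get `p q c η`. `level` with
tolerance `min (9 η) (1/(n+1)) (…)` gives `x n`, `T n = (1/3) x n T`, `θ n = δ n ^ 3 < δ n ^ 2`,
`N n = u (θ n - c T T⋆ c⋆) u = P' - Q'` (positive and negative part); `I n = idl P'`. If
`cfc Ft p ∈ I n`, `exists_S` (with `‖(T⋆T) - Ft q‖ < η` from `Data.T_T`, `x .T = cfc ut q * T'`)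
contradicts the choice. `transfer` with `P = 9 P'`, `Q = 9 Q'` (`|9 - 9 θ n| ≤ 27/(n+2)`) gives `n`
and `z ∈ I n` with `‖x n fi - z‖ < 1/2`; `cfc fit p * cfc Ft p = cfc Ft p` and `mem_of_near`:
contradiction. -/
theorem improvement {A : Submodule ℂ M} (hA : PIIdeal A) :
    ∃ δ : ℝ, 0 < δ ∧ δ < 1 ∧ ∀ p q c : M, p ∈ A → q ∈ A → 0 ≤ p → p ≤ 1 → 0 ≤ q → q ≤ 1 →
      ‖c‖ ≤ 1 → ∀ η : ℝ, 0 < η → ∃ S' ∈ A, ∃ T' ∈ A,
        ‖star (cfc ut p * S') * (cfc ut p * S') - cfc Ft p‖ < η ∧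
        ‖star (cfc ut q * T') * (cfc ut q * T') - cfc Ft q‖ < η ∧
        ‖star (cfc ut p * S') * c * (cfc ut q * T')‖ ≤ δ := by
  by_contra hcon
  push Not at hcon
  -- the parameters
  have hδ : ∀ n : ℕ, (0 : ℝ) < 1 - 1 / ((n : ℝ) + 2) ∧ 1 - 1 / ((n : ℝ) + 2) < 1 := by
    intro n
    have hn : (0 : ℝ) < (n : ℝ) + 2 := by positivity
    have h1 : (0 : ℝ) < 1 / ((n : ℝ) + 2) := by positivity
    have h2 : 1 / ((n : ℝ) + 2) < 1 := by
      rw [div_lt_one hn]
      have : (0 : ℝ) ≤ n := n.cast_nonneg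
      linarith
    constructor <;> linarith
  choose p q c hp hq hp0 hp1 hq0 hq1 hc η hη hneg using
    fun n : ℕ => hcon (1 - 1 / ((n : ℝ) + 2)) (hδ n).1 (hδ n).2
  have htol : ∀ n : ℕ, (0 : ℝ) < min (η n) (1 / ((n : ℝ) + 1)) := fun n =>
    lt_min (hη n) (by positivity)
  choose x hxc hxu hxfi hxh hxT hxb hxD using fun n : ℕ =>
    level hA (p n) (q n) (c n) (hp n) (hq n) (hp0 n) (hp1 n) (hq0 n) (hq1 n) (hc n)
      (min (η n) (1 / ((n : ℝ) + 1))) (htol n)
  choose T' hT'A hT' using hxT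
  set δ : ℕ → ℝ := fun n => 1 - 1 / ((n : ℝ) + 2) with hδdef
  set θ : ℕ → ℝ := fun n => δ n ^ 3 with hθdef
  have hθpos : ∀ n, 0 < θ n := fun n => pow_pos (hδ n).1 3
  have hθlt : ∀ n, θ n < δ n ^ 2 := by
    intro n
    have h1 := (hδ n).1
    have h2 := (hδ n).2
    have : δ n ^ 3 = δ n ^ 2 * δ n := by ring
    simp only [hθdef, this]
    have h3 : 0 < δ n ^ 2 := pow_pos h1 2
    nlinarith
  set T : ℕ → M := fun n => cfc ut (q n) * ((1 / 3 : ℝ) • T' n) with hTdef
  have hTx : ∀ n, T n = (1 / 3 : ℝ) • x n .T := by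
    intro n
    simp only [hTdef, hT' n, mul_smul_comm]
  set N : ℕ → M := fun n => cfc ut (p n) *
    (algebraMap ℝ M (θ n) - c n * T n * star (T n) * star (c n)) * cfc ut (p n) with hNdef
  have hNsa : ∀ n, IsSelfAdjoint (N n) := by
    intro n
    have h1 : star (cfc ut (p n)) = cfc ut (p n) := (cfc_predicate ut (p n) : IsSelfAdjoint _)
    have h2 : star (algebraMap ℝ M (θ n)) = algebraMap ℝ M (θ n) := by
      rw [← algebraMap_star_comm]
      simp
    rw [IsSelfAdjoint]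
    simp only [hNdef, star_mul, star_sub, star_star, h1, h2, mul_assoc]
  set P' : ℕ → M := fun n => (N n)⁺ with hP'def
  set Q' : ℕ → M := fun n => (N n)⁻ with hQ'def
  have hP'0 : ∀ n, 0 ≤ P' n := fun n => CFC.posPart_nonneg _
  have hQ'0 : ∀ n, 0 ≤ Q' n := fun n => CFC.negPart_nonneg _
  have hPQ : ∀ n, P' n * Q' n = 0 := fun n => CFC.posPart_mul_negPart _
  have hNPQ : ∀ n, N n = P' n - Q' n := fun n => (CFC.posPart_sub_negPart (N n) (hNsa n)).symm
  -- no membership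
  have hnot : ∀ n, cfc Ft (p n) ∉ idl (P' n) := by
    intro n hmem
    obtain ⟨S', hS'A, hS1, hS2⟩ := exists_S hA (p n) (c n) (T n) (hp n) (hp0 n) (hp1 n) (θ n)
      (δ n) (hθpos n) (hδ n).1 (hδ n).2.le (hθlt n) (P' n) (Q' n) (hP'0 n) (hQ'0 n) (hPQ n)
      (hNPQ n) hmem (η n) (hη n)
    have hTA : ((1 / 3 : ℝ) • T' n) ∈ A := by
      have : ((1 / 3 : ℝ) • T' n) = ((1 / 3 : ℝ) : ℂ) • T' n := (Complex.coe_smul _ _).symm
      rw [this]
      exact A.smul_mem _ (hT'A n)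
    have hTT : ‖star (cfc ut (q n) * ((1 / 3 : ℝ) • T' n)) * (cfc ut (q n) * ((1 / 3 : ℝ) • T' n)) -
        cfc Ft (q n)‖ < η n := by
      have h1 := (hxD n).T_T
      have h2 : star (T n) * T n - cfc Ft (q n) =
          (1 / 9 : ℝ) • (star (x n .T) * x n .T - 9 * x n .h) := by
        rw [hTx, hxh, star_smul, smul_mul_smul_comm, smul_sub]
        have h9 : (9 : M) * cfc Ft (q n) = (9 : ℝ) • cfc Ft (q n) := by
          rw [Algebra.smul_def, map_ofNat]
        rw [h9, smul_smul]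
        norm_num
      have h3 : ‖star (T n) * T n - cfc Ft (q n)‖ ≤ 1 / 9 * η n := by
        rw [h2, norm_smul]
        have h4 : ‖(1 / 9 : ℝ)‖ = 1 / 9 := by norm_num
        rw [h4]
        exact mul_le_mul_of_nonneg_left (h1.trans (min_le_left _ _)) (by norm_num)
      have h5 := hη n
      have h6 : 1 / 9 * η n < η n := by linarith
      exact lt_of_le_of_lt h3 h6
    have := hneg n S' hS'A ((1 / 3 : ℝ) • T' n) hTA hS1 hTT
    exact absurd hS2 (not_le.2 this)
  have hu1 : ∀ n, ‖cfc ut (p n)‖ ≤ 1 := fun n =>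
    norm_le_one_of _ (cfc_ramp_nonneg _ _ _) (cfc_ramp_le_one _ _ _)
  have hθ1 : ∀ n, 9 * (1 - θ n) ≤ 100 / ((n : ℝ) + 1) ∧ 0 ≤ 1 - θ n ∧ θ n ≤ 1 := by
    intro n
    have h1 := (hδ n).1
    have h2 := (hδ n).2
    have hd : 1 - δ n = 1 / ((n : ℝ) + 2) := by simp only [hδdef]; ring
    have h3 : 1 - θ n = (1 - δ n) * (1 + δ n + δ n ^ 2) := by simp only [hθdef]; ring
    have h4 : 1 + δ n + δ n ^ 2 ≤ 3 := by nlinarith
    have h5 : 0 ≤ 1 - δ n := by linarith
    have h6 : 1 - θ n ≤ 3 * (1 / ((n : ℝ) + 2)) := by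
      rw [h3, ← hd]
      nlinarith
    have h7 : 1 / ((n : ℝ) + 2) ≤ 1 / ((n : ℝ) + 1) :=
      one_div_le_one_div_of_le (by positivity) (by linarith)
    have h8 : 0 ≤ 1 - θ n := by
      rw [h3]
      have : 0 ≤ 1 + δ n + δ n ^ 2 := by positivity
      exact mul_nonneg h5 this
    refine ⟨?_, h8, by linarith⟩
    have h9 : (0 : ℝ) < 1 / ((n : ℝ) + 1) := by positivity
    have h10 : 100 / ((n : ℝ) + 1) = 100 * (1 / ((n : ℝ) + 1)) := by ring
    rw [h10]
    linarith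
  -- bounds
  have hNb : ∀ n, ‖N n‖ ≤ 1 + 1000000 * 1000000 := by
    intro n
    have hTb : ‖T n‖ ≤ 1000000 := by
      rw [hTx, norm_smul]
      have h4 : ‖(1 / 3 : ℝ)‖ = 1 / 3 := by norm_num
      rw [h4]
      have := hxb n .T
      have h0 := norm_nonneg (x n .T)
      linarith
    have h1 : ‖algebraMap ℝ M (θ n)‖ ≤ 1 := by
      rw [norm_algebraMap']
      rw [Real.norm_eq_abs, abs_of_pos (hθpos n)]
      exact (hθ1 n).2.2
    have h2 : ‖c n * T n * star (T n) * star (c n)‖ ≤ 1000000 * 1000000 := by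
      have e1 : ‖c n * T n * star (T n) * star (c n)‖ ≤ ‖c n‖ * ‖T n‖ * ‖star (T n)‖ * ‖star (c n)‖ := by
        refine (norm_mul_le _ _).trans ?_
        gcongr
        refine (norm_mul_le _ _).trans ?_
        gcongr
        exact norm_mul_le _ _
      rw [norm_star, norm_star] at e1
      refine e1.trans ?_
      have hc0 := norm_nonneg (c n)
      have hT0 := norm_nonneg (T n)
      have hcn := hc n
      calc ‖c n‖ * ‖T n‖ * ‖T n‖ * ‖c n‖ ≤ 1 * 1000000 * 1000000 * 1 := by gcongr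
        _ = 1000000 * 1000000 := by ring
    have h3 : ‖N n‖ ≤ ‖cfc ut (p n)‖ *
        ‖algebraMap ℝ M (θ n) - c n * T n * star (T n) * star (c n)‖ * ‖cfc ut (p n)‖ := by
      refine (norm_mul_le _ _).trans ?_
      gcongr
      exact norm_mul_le _ _
    have h4 := norm_sub_le (algebraMap ℝ M (θ n)) (c n * T n * star (T n) * star (c n))
    have h5 := hu1 n
    have h6 : ‖cfc ut (p n)‖ * ‖algebraMap ℝ M (θ n) - c n * T n * star (T n) * star (c n)‖ *
        ‖cfc ut (p n)‖ ≤ 1 * (1 + 1000000 * 1000000) * 1 := by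
      gcongr
      linarith
    linarith
  obtain ⟨n, z, hz, hnz⟩ := transfer (fun n => idl (P' n))
    (fun n => idl_cideal _ (hP'0 n).isSelfAdjoint) x
    (fun n => (hxD n).mono (min_le_right _ _)) hxb (fun n => (9 : ℝ) • P' n)
    (fun n => (9 : ℝ) • Q' n)
    (fun n => by
      have : ((9 : ℝ) • P' n) = ((9 : ℝ) : ℂ) • P' n := (Complex.coe_smul _ _).symm
      rw [this]
      exact (idl (P' n)).smul_mem _ (self_mem_idl _))
    (fun n => smul_nonneg (by norm_num) (hQ'0 n))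
    (fun n => by
      have h1 : (9 : ℝ) • P' n - (9 : ℝ) • Q' n = (9 : ℝ) • N n := by
        rw [← smul_sub, ← hNPQ]
      have h9 : (9 : M) = algebraMap ℝ M 9 := (map_ofNat (algebraMap ℝ M) 9).symm
      have h2 : x n .u * (9 - x n .c * x n .T * star (x n .T) * star (x n .c)) * x n .u -
          (9 : ℝ) • N n = (9 * (1 - θ n)) • (cfc ut (p n) * cfc ut (p n)) := by
        have hTT : c n * T n * star (T n) * star (c n) =
            (1 / 9 : ℝ) • (c n * x n .T * star (x n .T) * star (c n)) := by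
          rw [hTx, star_smul]
          simp only [mul_smul_comm, smul_mul_assoc, smul_smul]
          norm_num
        simp only [hNdef]
        rw [hxu, hxc, hTT]
        simp only [mul_sub, sub_mul, smul_sub, mul_smul_comm, smul_mul_assoc, smul_smul]
        rw [h9]
        simp only [Algebra.algebraMap_eq_smul_one, mul_smul_comm, smul_mul_assoc, mul_one, smul_smul]
        have e1 : (9 : ℝ) * (1 / 9) = 1 := by norm_num
        rw [e1, one_smul]
        try rw [mul_one]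
        rw [sub_smul]
        abel
      rw [h1, h2, norm_smul]
      have h3 : ‖(9 * (1 - θ n) : ℝ)‖ = 9 * (1 - θ n) := by
        rw [Real.norm_eq_abs, abs_of_nonneg]
        have := (hθ1 n).2.1
        linarith
      rw [h3]
      have h4 : ‖cfc ut (p n) * cfc ut (p n)‖ ≤ 1 := by
        refine (norm_mul_le _ _).trans ?_
        have h5 := hu1 n
        have h6 := norm_nonneg (cfc ut (p n))
        nlinarith
      have h7 := (hθ1 n).1
      have h8 := (hθ1 n).2.1
      calc 9 * (1 - θ n) * ‖cfc ut (p n) * cfc ut (p n)‖ ≤ 9 * (1 - θ n) * 1 :=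
            mul_le_mul_of_nonneg_left h4 (by linarith)
        _ ≤ 100 / ((n : ℝ) + 1) := by linarith)
    ⟨9 * (1 + 1000000 * 1000000), fun n => by
      rw [norm_smul]
      have h1 : ‖(9 : ℝ)‖ = 9 := by norm_num
      rw [h1]
      have h2 : ‖P' n‖ ≤ ‖N n‖ := CStarAlgebra.norm_posPart_le _
      have := hNb n
      linarith⟩
    ⟨9 * (1 + 1000000 * 1000000), fun n => by
      rw [norm_smul]
      have h1 : ‖(9 : ℝ)‖ = 9 := by norm_num
      rw [h1]
      have h2 : ‖Q' n‖ ≤ ‖N n‖ := CStarAlgebra.norm_negPart_le _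
      have := hNb n
      linarith⟩
  refine hnot n (mem_of_near (idl (P' n)) (idl_cideal _ (hP'0 n).isSelfAdjoint) (cfc fit (p n))
    (cfc Ft (p n)) z ?_ hz ?_)
  · exact cfc_ramp_mul _ _ _ _ (by norm_num) le_rfl (by norm_num) _ (hp0 n).isSelfAdjoint
  · rw [← hxfi]
    exact hnz

end Crest.Agent.SPI
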