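import Crest.Agent.SPI.Improve

/-! Row 110: iteration. Chunk R110-ITER. -/

set_option autoImplicit false

namespace Crest.Agent.SPI

universe u

variable {M : Type u} [CStarAlgebra M] [PartialOrder M] [StarOrderedRing M] [Nontrivial M]

/-- `φ(s) = ramp (3/4) 1`; `Ft = 1` on `[3/4,1]`. Iteration of the improvement lemma. -/
noncomputable def phit : ℝ → ℝ := ramp (3/4) 1

theorem phit_continuous : Continuous phit := ramp_continuous _ _

theorem phit_iter_continuous (m : ℕ) : Continuous (phit^[m]) := phit_continuous.iterate m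

theorem Ft_mul_ut_phit (t : ℝ) : Ft t * ut (phit t) = ut (phit t) := by
  rcases le_or_gt t (3/4) with h | h
  · have h1 : phit t = 0 := by
      unfold phit ramp
      have : min 1 ((t - 3/4) / (1 - 3/4)) ≤ 0 := by
        refine (min_le_right _ _).trans ?_
        apply div_nonpos_of_nonpos_of_nonneg <;> linarith
      exact max_eq_left this
    have h2 : ut (phit t) = 0 := by
      rw [h1]; exact ramp_zero 0 (1/4) le_rfl (by norm_num)
    rw [h2, mul_zero]
  · have h1 : Ft t = 1 := by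
      unfold Ft ramp
      have h2 : 1 ≤ (t - 1/2) / (3/4 - 1/2) := by
        rw [le_div_iff₀ (by norm_num)]; linarith
      rw [min_eq_left h2, max_eq_right (by norm_num)]
    rw [h1, one_mul]

omit [Nontrivial M] in
theorem cfc_comp_phit (f : ℝ → ℝ) (hf : Continuous f) (p : M) (hp : IsSelfAdjoint p) :
    cfc f (cfc phit p) = cfc (fun t => f (phit t)) p :=
  (cfc_comp' f phit p hf.continuousOn phit_continuous.continuousOn hp).symm

omit [Nontrivial M] in
theorem iter_est (p S0' S1' : M) (hp : IsSelfAdjoint p) (F : M) (η : ℝ)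
    (hη1 : η ≤ 1) (hη : 0 < η) (hF : ‖F‖ ≤ 1)
    (h0 : ‖star (cfc ut p * S0') * (cfc ut p * S0') - cfc Ft p‖ < η / 4)
    (h1 : ‖star (cfc ut (cfc phit p) * S1') * (cfc ut (cfc phit p) * S1') - F‖ < η / 2) :
    ‖star (cfc ut p * (S0' * (cfc ut (cfc phit p) * S1'))) *
      (cfc ut p * (S0' * (cfc ut (cfc phit p) * S1'))) - F‖ < η := by
  have hu : cfc ut (cfc phit p) = cfc (fun t => ut (phit t)) p :=
    cfc_comp_phit ut (ramp_continuous _ _) p hp
  have hFu : cfc Ft p * cfc ut (cfc phit p) = cfc ut (cfc phit p) := by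
    rw [hu, ← cfc_mul Ft (fun t => ut (phit t)) p (ramp_continuous _ _).continuousOn
      ((ramp_continuous 0 (1/4)).comp phit_continuous).continuousOn]
    exact congrArg (fun f => cfc f p) (funext Ft_mul_ut_phit)
  set S0 := cfc ut p * S0' with hS0
  set S1 := cfc ut (cfc phit p) * S1' with hS1
  have hFS1 : cfc Ft p * S1 = S1 := by rw [hS1, ← mul_assoc, hFu]
  have e1 : cfc ut p * (S0' * S1) = S0 * S1 := by rw [hS0, mul_assoc]
  rw [e1]
  have e2 : star (S0 * S1) * (S0 * S1) - F =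
      star S1 * (star S0 * S0 - cfc Ft p) * S1 + (star S1 * S1 - F) := by
    have : star S1 * S1 = star S1 * cfc Ft p * S1 := by rw [mul_assoc, hFS1]
    rw [this, star_mul]
    noncomm_ring
  have hS1n : ‖S1‖ * ‖S1‖ ≤ 2 := by
    rw [← CStarRing.norm_star_mul_self]
    have := norm_add_le (star S1 * S1 - F) F
    rw [sub_add_cancel] at this
    linarith
  rw [e2]
  calc ‖star S1 * (star S0 * S0 - cfc Ft p) * S1 + (star S1 * S1 - F)‖
      ≤ ‖star S1 * (star S0 * S0 - cfc Ft p) * S1‖ + ‖star S1 * S1 - F‖ := norm_add_le _ _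
    _ ≤ ‖S1‖ * ‖star S0 * S0 - cfc Ft p‖ * ‖S1‖ + ‖star S1 * S1 - F‖ := by
        have h := norm_mul_le (star S1 * (star S0 * S0 - cfc Ft p)) S1
        have h' := norm_mul_le (star S1) (star S0 * S0 - cfc Ft p)
        rw [norm_star] at h'
        have := mul_le_mul_of_nonneg_right h' (norm_nonneg S1)
        linarith
    _ < η := by
        have h3 : ‖S1‖ * ‖star S0 * S0 - cfc Ft p‖ * ‖S1‖ =
            (‖S1‖ * ‖S1‖) * ‖star S0 * S0 - cfc Ft p‖ := by ring
        rw [h3]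
        have h4 : (‖S1‖ * ‖S1‖) * ‖star S0 * S0 - cfc Ft p‖ ≤ 2 * (η / 4) :=
          mul_le_mul hS1n h0.le (norm_nonneg _) (by norm_num)
        linarith

/-- PROOF. Induction on `m`, for all `p q c η`. `m = 0` is `improvement`. Step: `S₀ = cfc ut p * S₀'`,
`T₀` from `improvement` with a small tolerance; induction hypothesis for
`(φ(p), φ(q), δ⁻¹ S₀⋆ c T₀)` (`‖·‖ ≤ 1`) gives `S₁ = cfc ut (φ p) * S₁'`, `T₁`. `S = S₀ S₁`
`= cfc ut p * (S₀' * S₁)`. `S⋆ S = S₁⋆ (S₀⋆ S₀) S₁ ≈ S₁⋆ Ft(p) S₁ = S₁⋆ S₁` since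
`Ft(t) ut(φ t) = ut(φ t)`; `cfc (Ft ∘ φ^[m]) (φ p) = cfc (Ft ∘ φ^[m+1]) p` (`cfc_comp`). -/
theorem iterate {A : Submodule ℂ M} (hA : PIIdeal A) :
    ∃ δ : ℝ, 0 < δ ∧ δ < 1 ∧ ∀ (m : ℕ), ∀ p q c : M, p ∈ A → q ∈ A → 0 ≤ p → p ≤ 1 → 0 ≤ q →
      q ≤ 1 → ‖c‖ ≤ 1 → ∀ η : ℝ, 0 < η → ∃ S' ∈ A, ∃ T' ∈ A,
        ‖star (cfc ut p * S') * (cfc ut p * S') - cfc (fun t => Ft (phit^[m] t)) p‖ < η ∧
        ‖star (cfc ut q * T') * (cfc ut q * T') - cfc (fun t => Ft (phit^[m] t)) q‖ < η ∧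
        ‖star (cfc ut p * S') * c * (cfc ut q * T')‖ ≤ δ ^ (m + 1) := by
  obtain ⟨δ, hδ0, hδ1, hδ⟩ := improvement (M := M) hA
  refine ⟨δ, hδ0, hδ1, ?_⟩
  intro m
  induction m with
  | zero =>
    intro p q c hp hq hp0 hp1 hq0 hq1 hc η hη
    obtain ⟨S', hS', T', hT', h1, h2, h3⟩ := hδ p q c hp hq hp0 hp1 hq0 hq1 hc η hη
    refine ⟨S', hS', T', hT', ?_, ?_, ?_⟩
    · simpa using h1
    · simpa using h2
    · simpa using h3
  | succ m ih =>
    intro p q c hp hq hp0 hp1 hq0 hq1 hc η hη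
    set η' := min η 1 with hη'
    have hη'0 : 0 < η' := lt_min hη one_pos
    have hη'1 : η' ≤ 1 := min_le_right _ _
    have hη'η : η' ≤ η := min_le_left _ _
    obtain ⟨S0', hS0', T0', hT0', a1, a2, a3⟩ :=
      hδ p q c hp hq hp0 hp1 hq0 hq1 hc (η' / 4) (by linarith)
    have hpsa : IsSelfAdjoint p := IsSelfAdjoint.of_nonneg hp0
    have hqsa : IsSelfAdjoint q := IsSelfAdjoint.of_nonneg hq0
    have hph0 : phit 0 = 0 := ramp_zero (3/4) 1 (by norm_num) (by norm_num)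
    have hpA : cfc phit p ∈ A :=
      hA.toCIdeal.cfc_mem p hp hpsa phit phit_continuous.continuousOn hph0
    have hqA : cfc phit q ∈ A :=
      hA.toCIdeal.cfc_mem q hq hqsa phit phit_continuous.continuousOn hph0
    have hc' : ‖(δ⁻¹ : ℝ) • (star (cfc ut p * S0') * c * (cfc ut q * T0'))‖ ≤ 1 := by
      rw [norm_smul, Real.norm_eq_abs, abs_of_pos (inv_pos.2 hδ0)]
      calc δ⁻¹ * ‖star (cfc ut p * S0') * c * (cfc ut q * T0')‖ ≤ δ⁻¹ * δ :=
            mul_le_mul_of_nonneg_left a3 (inv_pos.2 hδ0).le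
        _ = 1 := inv_mul_cancel₀ hδ0.ne'
    obtain ⟨S1', hS1', T1', hT1', b1, b2, b3⟩ :=
      ih (cfc phit p) (cfc phit q) ((δ⁻¹ : ℝ) • (star (cfc ut p * S0') * c * (cfc ut q * T0')))
        hpA hqA (cfc_ramp_nonneg _ _ p) (cfc_ramp_le_one _ _ p) (cfc_ramp_nonneg _ _ q)
        (cfc_ramp_le_one _ _ q) hc' (η' / 2) (by linarith)
    have hcomp : ∀ r : M, IsSelfAdjoint r →
        cfc (fun t => Ft (phit^[m] t)) (cfc phit r) = cfc (fun t => Ft (phit^[m + 1] t)) r := by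
      intro r hr
      exact cfc_comp_phit (fun t => Ft (phit^[m] t))
        ((ramp_continuous _ _).comp (phit_iter_continuous m)) r hr
    rw [hcomp p hpsa] at b1
    rw [hcomp q hqsa] at b2
    have hF : ∀ r : M, ‖cfc (fun t => Ft (phit^[m + 1] t)) r‖ ≤ 1 := by
      intro r
      apply norm_cfc_le zero_le_one
      intro x _
      have h0 : 0 ≤ Ft (phit^[m + 1] x) := ramp_nonneg _ _ _
      have h1 : Ft (phit^[m + 1] x) ≤ 1 := ramp_le_one _ _ _
      rw [Real.norm_eq_abs, abs_of_nonneg h0]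
      exact h1
    refine ⟨S0' * (cfc ut (cfc phit p) * S1'), hA.mul_right _ _ hS0',
      T0' * (cfc ut (cfc phit q) * T1'), hA.mul_right _ _ hT0', ?_, ?_, ?_⟩
    · exact (iter_est p S0' S1' hpsa _ η' hη'1 hη'0 (hF p) a1 b1).trans_le hη'η
    · exact (iter_est q T0' T1' hqsa _ η' hη'1 hη'0 (hF q) a2 b2).trans_le hη'η
    · have e : star (cfc ut p * (S0' * (cfc ut (cfc phit p) * S1'))) * c *
          (cfc ut q * (T0' * (cfc ut (cfc phit q) * T1'))) =
          δ • (star (cfc ut (cfc phit p) * S1') *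
            ((δ⁻¹ : ℝ) • (star (cfc ut p * S0') * c * (cfc ut q * T0'))) *
            (cfc ut (cfc phit q) * T1')) := by
        rw [mul_smul_comm, smul_mul_assoc, smul_smul, mul_inv_cancel₀ hδ0.ne', one_smul]
        simp only [star_mul, mul_assoc]
      rw [e, norm_smul, Real.norm_eq_abs, abs_of_pos hδ0, pow_succ' δ (m + 1)]
      exact mul_le_mul_of_nonneg_left b3 hδ0.le

end Crest.Agent.SPI
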