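import Crest.Agent.SPI.Ramp

/-! Row 110: functions of `p` and `q` at a fixed level (exact relations). -/

set_option autoImplicit false
set_option linter.unusedSectionVars false
set_option linter.unusedVariables false

namespace Crest.Agent.SPI

universe u

variable {M : Type u} [CStarAlgebra M] [PartialOrder M] [StarOrderedRing M]

theorem cfc_mul' (f g h : ℝ → ℝ) (hf : Continuous f) (hg : Continuous g)
    (hfg : ∀ t, f t * g t = h t) (p : M) : cfc f p * cfc g p = cfc h p := by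
  rw [← cfc_mul f g p hf.continuousOn hg.continuousOn]
  exact cfc_congr fun t _ => hfg t

theorem cfc_star_eq (f : ℝ → ℝ) (p : M) : star (cfc f p) = cfc f p :=
  (cfc_predicate (R := ℝ) f p : IsSelfAdjoint (cfc f p)).star_eq

/-- all functions of `p` -/
theorem levelP {A : Submodule ℂ M} (hA : CIdeal A) (p : M) (hp : p ∈ A) (hp0 : 0 ≤ p) :
    ∃ f00 f0 chi b w wh : M,
      cfc ut p ∈ A ∧ f00 ∈ A ∧ f0 ∈ A ∧ chi ∈ A ∧ w ∈ A ∧ wh ∈ A ∧
      star (cfc ut p) = cfc ut p ∧ star f00 = f00 ∧ star f0 = f0 ∧ star chi = chi ∧ star b = b ∧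
      star wh = wh ∧ star (cfc fit p) = cfc fit p ∧
      ‖(cfc ut p : M)‖ ≤ 1 ∧ ‖f00‖ ≤ 1 ∧ ‖f0‖ ≤ 1 ∧ ‖chi‖ ≤ 1 ∧ ‖b‖ ≤ 1 ∧ ‖wh‖ ≤ 1 ∧
      ‖(cfc fit p : M)‖ ≤ 1 ∧ 0 ≤ f0 ∧ 0 ≤ w ∧ f0 ≤ 1 ∧
      cfc ut p * f0 = f0 ∧ cfc ut p * chi = chi ∧ cfc ut p * f00 = f00 ∧ f00 * cfc ut p = f00 ∧
      f00 * f0 = f0 ∧ f0 * f00 = f0 ∧ cfc ut p * b = b * cfc ut p ∧ b * b = 1 - f0 ∧
      cfc fit p * b = 0 ∧ cfc fit p * f0 = cfc fit p ∧ chi * cfc fit p = cfc fit p ∧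
      chi * f0 = f0 * chi ∧ w = chi - chi * chi ∧ wh * wh = w ∧ cfc ut p * wh = wh ∧
      b * wh = 0 ∧ cfc fit p * wh = 0 := by
  have hsa : IsSelfAdjoint p := IsSelfAdjoint.of_nonneg hp0
  set F00 : ℝ → ℝ := ramp (8/32) (9/32) with hF00
  set F0 : ℝ → ℝ := ramp (9/32) (10/32) with hF0
  set X : ℝ → ℝ := ramp (11/32) (12/32) with hX
  set Bf : ℝ → ℝ := fun t => Real.sqrt (1 - ramp (9/32) (10/32) t) with hBf
  set W : ℝ → ℝ := fun t => ramp (11/32) (12/32) t - ramp (11/32) (12/32) t * ramp (11/32) (12/32) t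
    with hW
  set Wh : ℝ → ℝ := fun t => Real.sqrt (W t) with hWh
  have c00 : Continuous F00 := ramp_continuous _ _
  have c0 : Continuous F0 := ramp_continuous _ _
  have cX : Continuous X := ramp_continuous _ _
  have cu : Continuous ut := ramp_continuous _ _
  have cfi : Continuous fit := ramp_continuous _ _
  have cB : Continuous Bf := (continuous_const.sub (ramp_continuous _ _)).sqrt
  have cW : Continuous W :=
    (ramp_continuous _ _).sub ((ramp_continuous _ _).mul (ramp_continuous _ _))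
  have cWh : Continuous Wh := cW.sqrt
  have W0 : ∀ t, 0 ≤ W t := fun t => by
    have h1 := ramp_nonneg (11/32) (12/32) t
    have h2 := ramp_le_one (11/32) (12/32) t
    simp only [hW]; nlinarith
  have W1 : ∀ t, W t ≤ 1 := fun t => by
    have h1 := ramp_nonneg (11/32) (12/32) t
    have h2 := ramp_le_one (11/32) (12/32) t
    simp only [hW]; nlinarith
  have mem : ∀ f : ℝ → ℝ, Continuous f → f 0 = 0 → cfc f p ∈ A := fun f hf h0 =>
    hA.cfc_mem p hp hsa f hf.continuousOn h0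
  have W00 : W 0 = 0 := by
    simp only [hW]; rw [ramp_zero _ _ (by norm_num) (by norm_num)]; norm_num
  have nrm : ∀ f : ℝ → ℝ, (∀ t, 0 ≤ f t) → (∀ t, f t ≤ 1) → ‖(cfc f p : M)‖ ≤ 1 := by
    intro f h0 h1
    exact norm_le_one_of _ (cfc_nonneg fun t _ => h0 t) (cfc_le_one _ _ fun t _ => h1 t)
  have B0 : ∀ t, 0 ≤ Bf t := fun t => Real.sqrt_nonneg _
  have B1 : ∀ t, Bf t ≤ 1 := fun t => by
    simp only [hBf]
    rw [Real.sqrt_le_iff, one_pow]; refine ⟨zero_le_one, ?_⟩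
    linarith [ramp_nonneg (9/32) (10/32) t]
  have Wh0 : ∀ t, 0 ≤ Wh t := fun t => Real.sqrt_nonneg _
  have Wh1 : ∀ t, Wh t ≤ 1 := fun t => by
    simp only [hWh]
    rw [Real.sqrt_le_iff, one_pow]; refine ⟨zero_le_one, ?_⟩
    exact W1 t
  have n0 : ∀ t, (0 : ℝ) * t = 0 := fun t => zero_mul t
  refine ⟨cfc F00 p, cfc F0 p, cfc X p, cfc Bf p, cfc W p, cfc Wh p, mem _ cu ?_, mem _ c00 ?_,
    mem _ c0 ?_, mem _ cX ?_, mem _ cW W00, mem _ cWh ?_, cfc_star_eq _ _, cfc_star_eq _ _,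
    cfc_star_eq _ _, cfc_star_eq _ _, cfc_star_eq _ _, cfc_star_eq _ _, cfc_star_eq _ _,
    nrm _ (ramp_nonneg _ _) (ramp_le_one _ _), nrm _ (ramp_nonneg _ _) (ramp_le_one _ _),
    nrm _ (ramp_nonneg _ _) (ramp_le_one _ _), nrm _ (ramp_nonneg _ _) (ramp_le_one _ _),
    nrm _ B0 B1, nrm _ Wh0 Wh1, nrm _ (ramp_nonneg _ _) (ramp_le_one _ _),
    cfc_ramp_nonneg _ _ _, cfc_nonneg fun t _ => W0 t, cfc_ramp_le_one _ _ _,
    ?_, ?_, ?_, ?_, ?_, ?_, ?_, ?_, ?_, ?_, ?_, ?_, ?_, ?_, ?_, ?_, ?_⟩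
  · exact ramp_zero _ _ (by norm_num) (by norm_num)
  · exact ramp_zero _ _ (by norm_num) (by norm_num)
  · exact ramp_zero _ _ (by norm_num) (by norm_num)
  · exact ramp_zero _ _ (by norm_num) (by norm_num)
  · simp only [hWh]; rw [W00, Real.sqrt_zero]
  · exact cfc_ramp_mul _ _ _ _ (by norm_num) (by norm_num) (by norm_num) p hsa
  · exact cfc_ramp_mul _ _ _ _ (by norm_num) (by norm_num) (by norm_num) p hsa
  · exact cfc_ramp_mul _ _ _ _ (by norm_num) (by norm_num) (by norm_num) p hsa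
  · rw [(cfc_commute_cfc F00 ut p).eq]
    exact cfc_ramp_mul _ _ _ _ (by norm_num) (by norm_num) (by norm_num) p hsa
  · exact cfc_ramp_mul _ _ _ _ (by norm_num) (by norm_num) (by norm_num) p hsa
  · rw [(cfc_commute_cfc F0 F00 p).eq]
    exact cfc_ramp_mul _ _ _ _ (by norm_num) (by norm_num) (by norm_num) p hsa
  · exact (cfc_commute_cfc ut Bf p).eq
  · -- b * b = 1 - f0
    rw [cfc_mul' Bf Bf (fun t => 1 - F0 t) cB cB (fun t => ?_) p]
    · rw [cfc_sub (fun _ => (1 : ℝ)) F0 p continuousOn_const c0.continuousOn, cfc_const_one ℝ p]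
    · simp only [hBf]
      exact Real.mul_self_sqrt (by linarith [ramp_le_one (9/32) (10/32) t])
  · -- fi * b = 0
    rw [cfc_mul' fit Bf (fun _ => 0) cfi cB (fun t => ?_) p]
    · exact cfc_const_zero ℝ p
    · simp only [hBf, fit]
      rcases le_total t (7/16) with h | h
      · rw [Ramp_eq_zero (by norm_num) h, zero_mul]
      · rw [Ramp_eq_one (a := 9/32) (b := 10/32) (by norm_num) (by linarith)]
        simp
  · -- fi * f0 = fi
    rw [(cfc_commute_cfc fit F0 p).eq]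
    exact cfc_ramp_mul _ _ _ _ (by norm_num) (by norm_num) (by norm_num) p hsa
  · exact cfc_ramp_mul _ _ _ _ (by norm_num) (by norm_num) (by norm_num) p hsa
  · exact (cfc_commute_cfc X F0 p).eq
  · -- w
    rw [← cfc_mul X X p cX.continuousOn cX.continuousOn,
      ← cfc_sub X (fun t => X t * X t) p cX.continuousOn (cX.mul cX).continuousOn]
  · exact cfc_mul' Wh Wh W cWh cWh (fun t => Real.mul_self_sqrt (W0 t)) p
  · -- u * wh
    refine cfc_mul' ut Wh Wh cu cWh (fun t => ?_) p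
    simp only [hWh, ut]
    rcases le_total t (11/32) with h | h
    · have : W t = 0 := by
        simp only [hW]; rw [Ramp_eq_zero (by norm_num) h]; norm_num
      rw [this]; simp
    · rw [Ramp_eq_one (by norm_num) (by linarith), one_mul]
  · -- b * wh
    rw [cfc_mul' Bf Wh (fun _ => 0) cB cWh (fun t => ?_) p]
    · exact cfc_const_zero ℝ p
    · simp only [hBf, hWh]
      rcases le_total t (11/32) with h | h
      · have : W t = 0 := by
          simp only [hW]; rw [Ramp_eq_zero (by norm_num) h]; norm_num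
        rw [this]; simp
      · rw [Ramp_eq_one (a := 9/32) (b := 10/32) (by norm_num) (by linarith)]
        simp
  · -- fi * wh
    rw [cfc_mul' fit Wh (fun _ => 0) cfi cWh (fun t => ?_) p]
    · exact cfc_const_zero ℝ p
    · simp only [hWh, fit]
      rcases le_total t (7/16) with h | h
      · rw [Ramp_eq_zero (by norm_num) h, zero_mul]
      · have : W t = 0 := by
          simp only [hW]; rw [Ramp_eq_one (by norm_num) (by linarith)]; norm_num
        rw [this]; simp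

/-- all functions of `q` -/
theorem levelQ {A : Submodule ℂ M} (hA : CIdeal A) (q : M) (hq : q ∈ A) (hq0 : 0 ≤ q) :
    ∃ g y d dh h1 : M,
      cfc ut q ∈ A ∧ g ∈ A ∧ y ∈ A ∧ d ∈ A ∧ dh ∈ A ∧ h1 ∈ A ∧ cfc Ft q ∈ A ∧
      star (cfc ut q) = cfc ut q ∧ star y = y ∧ star d = d ∧ star dh = dh ∧ star h1 = h1 ∧
      star (cfc Ft q) = cfc Ft q ∧
      ‖(cfc ut q : M)‖ ≤ 1 ∧ ‖g‖ ≤ 1 ∧ ‖y‖ ≤ 1 ∧ ‖d‖ ≤ 1 ∧ ‖dh‖ ≤ 1 ∧ ‖h1‖ ≤ 1 ∧
      ‖(cfc Ft q : M)‖ ≤ 1 ∧
      0 ≤ g ∧ 0 ≤ y ∧ y ≤ 1 ∧ 0 ≤ d ∧ 0 ≤ cfc Ft q ∧ cfc Ft q ≤ 1 ∧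
      cfc ut q * cfc ut q = g ∧ g * y = y ∧ y * d = d ∧ y * dh = dh ∧ dh * dh = d ∧
      y * cfc Ft q = cfc Ft q ∧ d * cfc Ft q = cfc Ft q ∧ h1 * h1 = cfc Ft q ∧
      g * h1 = h1 ∧ cfc ut q * h1 = h1 ∧ y * h1 = h1 := by
  have hsa : IsSelfAdjoint q := IsSelfAdjoint.of_nonneg hq0
  set G : ℝ → ℝ := fun t => ut t * ut t with hG
  set Y : ℝ → ℝ := ramp (1/4) (3/8) with hY
  set D : ℝ → ℝ := ramp (3/8) (1/2) with hD
  set Dh : ℝ → ℝ := fun t => Real.sqrt (ramp (3/8) (1/2) t) with hDh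
  set H1 : ℝ → ℝ := fun t => Real.sqrt (Ft t) with hH1
  have cu : Continuous ut := ramp_continuous _ _
  have cF : Continuous Ft := ramp_continuous _ _
  have cG : Continuous G := cu.mul cu
  have cY : Continuous Y := ramp_continuous _ _
  have cD : Continuous D := ramp_continuous _ _
  have cDh : Continuous Dh := (ramp_continuous _ _).sqrt
  have cH : Continuous H1 := cF.sqrt
  have mem : ∀ f : ℝ → ℝ, Continuous f → f 0 = 0 → cfc f q ∈ A := fun f hf h0 =>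
    hA.cfc_mem q hq hsa f hf.continuousOn h0
  have nrm : ∀ f : ℝ → ℝ, (∀ t, 0 ≤ f t) → (∀ t, f t ≤ 1) → ‖(cfc f q : M)‖ ≤ 1 := by
    intro f h0 h1
    exact norm_le_one_of _ (cfc_nonneg fun t _ => h0 t) (cfc_le_one _ _ fun t _ => h1 t)
  have G0 : ∀ t, 0 ≤ G t := fun t => mul_self_nonneg _
  have G1 : ∀ t, G t ≤ 1 := fun t => by
    have h1 : 0 ≤ ut t := ramp_nonneg _ _ t
    have h2 : ut t ≤ 1 := ramp_le_one _ _ t
    simp only [hG]; nlinarith
  have Dh0 : ∀ t, 0 ≤ Dh t := fun t => Real.sqrt_nonneg _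
  have Dh1 : ∀ t, Dh t ≤ 1 := fun t => by
    simp only [hDh]
    rw [Real.sqrt_le_iff, one_pow]; refine ⟨zero_le_one, ?_⟩
    exact ramp_le_one _ _ t
  have H0 : ∀ t, 0 ≤ H1 t := fun t => Real.sqrt_nonneg _
  have H1' : ∀ t, H1 t ≤ 1 := fun t => by
    simp only [hH1]
    rw [Real.sqrt_le_iff, one_pow]; refine ⟨zero_le_one, ?_⟩
    exact ramp_le_one _ _ t
  have u0 : ut 0 = 0 := ramp_zero _ _ (by norm_num) (by norm_num)
  have sup : ∀ (a b : ℝ) (t : ℝ), a < b → b ≤ 1 / 2 → ramp a b t * H1 t = H1 t := by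
    intro a b t hab hb
    simp only [hH1, Ft]
    rcases le_total t (1/2) with h | h
    · rw [Ramp_eq_zero (by norm_num) h]; simp
    · rw [Ramp_eq_one hab (hb.trans h), one_mul]
  refine ⟨cfc G q, cfc Y q, cfc D q, cfc Dh q, cfc H1 q, mem _ cu u0, mem _ cG ?_, mem _ cY ?_,
    mem _ cD ?_, mem _ cDh ?_, mem _ cH ?_, mem _ cF ?_, cfc_star_eq _ _, cfc_star_eq _ _,
    cfc_star_eq _ _, cfc_star_eq _ _, cfc_star_eq _ _, cfc_star_eq _ _,
    nrm _ (ramp_nonneg _ _) (ramp_le_one _ _), nrm _ G0 G1,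
    nrm _ (ramp_nonneg _ _) (ramp_le_one _ _), nrm _ (ramp_nonneg _ _) (ramp_le_one _ _),
    nrm _ Dh0 Dh1, nrm _ H0 H1', nrm _ (ramp_nonneg _ _) (ramp_le_one _ _),
    cfc_nonneg fun t _ => G0 t, cfc_ramp_nonneg _ _ _, cfc_ramp_le_one _ _ _,
    cfc_ramp_nonneg _ _ _, cfc_ramp_nonneg _ _ _, cfc_ramp_le_one _ _ _,
    ?_, ?_, ?_, ?_, ?_, ?_, ?_, ?_, ?_, ?_, ?_⟩
  · simp only [hG]; rw [u0, mul_zero]
  · exact ramp_zero _ _ (by norm_num) (by norm_num)
  · exact ramp_zero _ _ (by norm_num) (by norm_num)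
  · simp only [hDh]; rw [ramp_zero _ _ (by norm_num) (by norm_num), Real.sqrt_zero]
  · simp only [hH1, Ft]; rw [ramp_zero _ _ (by norm_num) (by norm_num), Real.sqrt_zero]
  · exact ramp_zero _ _ (by norm_num) (by norm_num)
  · exact cfc_mul' ut ut G cu cu (fun t => rfl) q
  · refine cfc_mul' G Y Y cG cY (fun t => ?_) q
    simp only [hG, ut, hY]
    rw [mul_assoc, ramp_mul _ _ _ _ _ (by norm_num) (by norm_num) (by norm_num),
      ramp_mul _ _ _ _ _ (by norm_num) (by norm_num) (by norm_num)]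
  · exact cfc_ramp_mul _ _ _ _ (by norm_num) (by norm_num) (by norm_num) q hsa
  · refine cfc_mul' Y Dh Dh cY cDh (fun t => ?_) q
    simp only [hDh, hY]
    rcases le_total t (3/8) with h | h
    · rw [Ramp_eq_zero (a := 3/8) (by norm_num) h]; simp
    · rw [Ramp_eq_one (a := 1/4) (by norm_num) h, one_mul]
  · exact cfc_mul' Dh Dh D cDh cDh (fun t => Real.mul_self_sqrt (ramp_nonneg _ _ t)) q
  · exact cfc_ramp_mul _ _ _ _ (by norm_num) (by norm_num) (by norm_num) q hsa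
  · exact cfc_ramp_mul _ _ _ _ (by norm_num) (by norm_num) (by norm_num) q hsa
  · exact cfc_mul' H1 H1 Ft cH cH (fun t => Real.mul_self_sqrt (ramp_nonneg _ _ t)) q
  · refine cfc_mul' G H1 H1 cG cH (fun t => ?_) q
    simp only [hG, ut]
    rw [mul_assoc, sup 0 (1/4) t (by norm_num) (by norm_num), sup 0 (1/4) t (by norm_num)
      (by norm_num)]
  · exact cfc_mul' ut H1 H1 cu cH (fun t => sup 0 (1/4) t (by norm_num) (by norm_num)) q
  · exact cfc_mul' Y H1 H1 cY cH (fun t => sup (1/4) (3/8) t (by norm_num) (by norm_num)) q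

end Crest.Agent.SPI
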