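import Crest.Agent.SPI.Ramp

/-! Row 110: quasi-central elements, unitary case. Chunk R110-QCU. -/

set_option autoImplicit false

namespace Crest.Agent.SPI

universe u

variable {M : Type u} [CStarAlgebra M] [PartialOrder M] [StarOrderedRing M]

/-- `-c ≤ D ≤ c` implies `‖D‖ ≤ c`. -/
theorem QCU_norm_le (D : M) (hD : IsSelfAdjoint D) (c : ℝ) (hc : 0 ≤ c) (h1 : D ≤ algebraMap ℝ M c)
    (h2 : -D ≤ algebraMap ℝ M c) : ‖D‖ ≤ c := by
  have h3 := (le_algebraMap_iff_spectrum_le (a := D) (r := c)).1 h1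
  have h4 : algebraMap ℝ M (-c) ≤ D := by
    rw [map_neg]; exact neg_le.1 h2
  have h5 := (algebraMap_le_iff_le_spectrum (a := D) (r := -c)).1 h4
  have h6 : D = cfc (fun r : ℝ => r) D := (cfc_id' ℝ D).symm
  rw [h6]
  refine norm_cfc_le hc fun r hr => ?_
  rw [Real.norm_eq_abs, abs_le]
  exact ⟨h5 r hr, h3 r hr⟩

theorem QCU_norm_le_one (a : M) (h0 : 0 ≤ a) (h : ‖a‖ ≤ 1) : a ≤ 1 := by
  have h1 := IsSelfAdjoint.le_algebraMap_norm_self (a := a)
  refine h1.trans ?_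
  rw [← map_one (algebraMap ℝ M)]
  exact algebraMap_mono M h

/-- powers of a conjugate -/
theorem QCU_conj (w : M) (hw : w ∈ unitary M) (a : M) (ha : 0 ≤ a) (t : ℝ) (ht : 0 < t) :
    (w * a * star w) ^ t = w * a ^ t * star w := by
  have hwa : 0 ≤ w * a * star w := star_right_conjugate_nonneg ha w
  rw [CFC.rpow_eq_cfc_real hwa, CFC.rpow_eq_cfc_real ha]
  have h := StarAlgHomClass.map_cfc (S := ℂ) (Unitary.conjStarAlgAut ℂ M ⟨w, hw⟩)
    (fun x : ℝ => x ^ t) a (Continuous.continuousOn (Real.continuous_rpow_const ht.le))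
    (by
      have : Continuous fun x : M => w * x * star w := by fun_prop
      exact this) (IsSelfAdjoint.of_nonneg ha) (by
      rw [Unitary.conjStarAlgAut_apply]
      exact IsSelfAdjoint.of_nonneg hwa)
  rw [Unitary.conjStarAlgAut_apply, Unitary.conjStarAlgAut_apply] at h
  exact h.symm

/-- powers of a multiple -/
theorem QCU_smul (a : M) (ha : 0 ≤ a) (r : ℝ) (hr : 0 ≤ r) (t : ℝ) (ht : 0 < t) :
    (r • a) ^ t = r ^ t • a ^ t := by
  have hra : 0 ≤ r • a := smul_nonneg hr ha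
  have hc : Continuous fun x : ℝ => x ^ t := Real.continuous_rpow_const ht.le
  rw [CFC.rpow_eq_cfc_real hra, CFC.rpow_eq_cfc_real ha]
  rw [← cfc_comp_smul r (fun x : ℝ => x ^ t) a hc.continuousOn (IsSelfAdjoint.of_nonneg ha)]
  rw [← cfc_smul (r ^ t) (fun x : ℝ => x ^ t) a hc.continuousOn]
  refine cfc_congr fun x hx => ?_
  have hx0 : 0 ≤ x := spectrum_nonneg_of_nonneg ha hx
  simp only [smul_eq_mul]
  rw [Real.mul_rpow hr hx0]

theorem QCU_real (r t : ℝ) (hr : 0 ≤ r) (hr1 : r ≤ 1) (ht : 0 < t) :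
    0 ≤ (1 - r ^ t) * r * (1 - r ^ t) ∧ (1 - r ^ t) * r * (1 - r ^ t) ≤ t := by
  have h1 : r ^ t ≤ 1 := Real.rpow_le_one hr hr1 ht.le
  have h0 : 0 ≤ r ^ t := Real.rpow_nonneg hr t
  have h2 : 0 ≤ 1 - r ^ t := by linarith
  refine ⟨by positivity, ?_⟩
  rcases hr.eq_or_lt with h | h
  · rw [← h]; simp only [mul_zero, zero_mul]; exact ht.le
  · have h3 : 1 + t * Real.log r ≤ r ^ t := by
      rw [Real.rpow_def_of_pos h]
      have := Real.add_one_le_exp (Real.log r * t)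
      linarith
    have h4 : -Real.log r ≤ r⁻¹ - 1 := by
      have := Real.log_le_sub_one_of_pos (inv_pos.2 h)
      rw [Real.log_inv] at this
      exact this
    have h5 : r * (1 - r ^ t) ≤ t := by
      have h6 : 1 - r ^ t ≤ t * (r⁻¹ - 1) := by nlinarith
      calc r * (1 - r ^ t) ≤ r * (t * (r⁻¹ - 1)) := by
            exact mul_le_mul_of_nonneg_left h6 hr
        _ = t * (1 - r) := by field_simp
        _ ≤ t := by nlinarith
    calc (1 - r ^ t) * r * (1 - r ^ t) = (1 - r ^ t) * (r * (1 - r ^ t)) := by ring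
      _ ≤ 1 * t := mul_le_mul (by linarith) h5 (by positivity) zero_le_one
      _ = t := one_mul t

/-- `‖(1 - a^t) x‖² ≤ 2 t` if `0 ≤ x ≤ 2a`, `x ≤ 1`, `0 ≤ a ≤ 1`. -/
theorem QCU_small (a x : M) (ha : 0 ≤ a) (ha1 : a ≤ 1) (hx : 0 ≤ x) (hx1 : x ≤ 1)
    (hxa : x ≤ (2 : ℝ) • a) (t : ℝ) (ht : 0 < t) : ‖(1 - a ^ t) * x‖ ^ 2 ≤ 2 * t := by
  have hsa : IsSelfAdjoint a := IsSelfAdjoint.of_nonneg ha
  have hc : Continuous fun x : ℝ => x ^ t := Real.continuous_rpow_const ht.le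
  have hesa : IsSelfAdjoint (a ^ t) := IsSelfAdjoint.of_nonneg CFC.rpow_nonneg
  have hysa : IsSelfAdjoint (1 - a ^ t) := (IsSelfAdjoint.one M).sub hesa
  have hspec : ∀ r ∈ spectrum ℝ a, 0 ≤ r ∧ r ≤ 1 := by
    intro r hr
    refine ⟨spectrum_nonneg_of_nonneg ha hr, ?_⟩
    have := (le_algebraMap_iff_spectrum_le (a := a) (r := (1 : ℝ))).1 (by rw [map_one]; exact ha1)
    exact this r hr
  -- the compression
  have h1 : ‖(1 - a ^ t) * a * (1 - a ^ t)‖ ≤ t := by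
    have e : (1 - a ^ t) * a * (1 - a ^ t)
        = cfc (fun r : ℝ => (1 - r ^ t) * r * (1 - r ^ t)) a := by
      have e1 : (1 - a ^ t) = cfc (fun r : ℝ => 1 - r ^ t) a := by
        rw [cfc_sub (fun _ : ℝ => (1 : ℝ)) (fun r : ℝ => r ^ t) a continuous_const.continuousOn
          hc.continuousOn, CFC.rpow_eq_cfc_real ha, cfc_const_one ℝ a]
      have hc1 : Continuous fun r : ℝ => 1 - r ^ t := continuous_const.sub hc
      rw [e1]
      nth_rewrite 2 [← cfc_id' ℝ a]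
      rw [← cfc_mul (fun r : ℝ => 1 - r ^ t) (fun r : ℝ => r) a hc1.continuousOn
        continuous_id.continuousOn,
        ← cfc_mul (fun r : ℝ => (1 - r ^ t) * r) (fun r : ℝ => 1 - r ^ t) a
          (hc1.mul continuous_id).continuousOn hc1.continuousOn]
    rw [e]
    refine norm_cfc_le ht.le fun r hr => ?_
    obtain ⟨h2, h3⟩ := hspec r hr
    obtain ⟨h4, h5⟩ := QCU_real r t h2 h3 ht
    rw [Real.norm_eq_abs, abs_of_nonneg h4]
    exact h5
  have h2 : ‖(1 - a ^ t) * x * (1 - a ^ t)‖ ≤ 2 * t := by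
    have h3 : (1 - a ^ t) * x * (1 - a ^ t) ≤ (1 - a ^ t) * ((2 : ℝ) • a) * (1 - a ^ t) := by
      have := star_right_conjugate_le_conjugate hxa (1 - a ^ t)
      rwa [hysa.star_eq] at this
    have h4 : 0 ≤ (1 - a ^ t) * x * (1 - a ^ t) := by
      have := star_right_conjugate_nonneg hx (1 - a ^ t)
      rwa [hysa.star_eq] at this
    refine (CStarAlgebra.norm_le_norm_of_nonneg_of_le h4 h3).trans ?_
    rw [mul_smul_comm, smul_mul_assoc, norm_smul]
    rw [Real.norm_eq_abs, abs_of_pos (by norm_num : (0 : ℝ) < 2)]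
    linarith
  -- the square root of `x`
  have hs0 : 0 ≤ CFC.sqrt x := CFC.sqrt_nonneg x
  have hss : CFC.sqrt x * CFC.sqrt x = x := CFC.sqrt_mul_sqrt_self x hx
  have hssa : IsSelfAdjoint (CFC.sqrt x) := IsSelfAdjoint.of_nonneg hs0
  have hx1' : ‖x‖ ≤ 1 := by
    refine (CStarAlgebra.norm_le_norm_of_nonneg_of_le hx hx1).trans ?_
    nontriviality M
    rw [norm_one]
  have hs1 : ‖CFC.sqrt x‖ ≤ 1 := by
    have h3 : ‖CFC.sqrt x‖ * ‖CFC.sqrt x‖ = ‖x‖ := by
      rw [← CStarRing.norm_star_mul_self, hssa.star_eq, hss]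
    nlinarith [norm_nonneg (CFC.sqrt x)]
  have h5 : ‖(1 - a ^ t) * CFC.sqrt x‖ ^ 2 ≤ 2 * t := by
    have e : ‖(1 - a ^ t) * CFC.sqrt x‖ ^ 2 = ‖(1 - a ^ t) * x * (1 - a ^ t)‖ := by
      rw [sq, ← CStarRing.norm_self_mul_star, star_mul, hysa.star_eq, hssa.star_eq]
      congr 1
      calc (1 - a ^ t) * CFC.sqrt x * (CFC.sqrt x * (1 - a ^ t))
          = (1 - a ^ t) * (CFC.sqrt x * CFC.sqrt x) * (1 - a ^ t) := by noncomm_ring
        _ = _ := by rw [hss]
    rw [e]; exact h2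
  have h6 : ‖(1 - a ^ t) * x‖ ≤ ‖(1 - a ^ t) * CFC.sqrt x‖ := by
    calc ‖(1 - a ^ t) * x‖ = ‖(1 - a ^ t) * CFC.sqrt x * CFC.sqrt x‖ := by
          rw [mul_assoc, hss]
      _ ≤ ‖(1 - a ^ t) * CFC.sqrt x‖ * ‖CFC.sqrt x‖ := norm_mul_le _ _
      _ ≤ ‖(1 - a ^ t) * CFC.sqrt x‖ * 1 := by gcongr
      _ = _ := mul_one _
  calc ‖(1 - a ^ t) * x‖ ^ 2 ≤ ‖(1 - a ^ t) * CFC.sqrt x‖ ^ 2 := by gcongr
    _ ≤ 2 * t := h5

/-- the averaged element -/
theorem QCU_avg {J : Submodule ℂ M} (hJ : CIdeal J) (x : M) (hx : x ∈ J) (hx0 : 0 ≤ x)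
    (hx1 : x ≤ 1) (U : Finset M) (hU : ∀ w ∈ U, w ∈ unitary M) (m : ℝ) (hm : 0 < m)
    (hcard : (U.card : ℝ) ≤ m) :
    ∃ a ∈ J, 0 ≤ a ∧ a ≤ 1 ∧ x ≤ (2 : ℝ) • a ∧ ∀ w ∈ U, w * a * star w ≤ (2 * m) • a := by
  classical
  let Φ : M →+ M :=
    { toFun := fun z => ∑ w ∈ U, w * z * star w
      map_zero' := by simp
      map_add' := fun a b => by
        rw [← Finset.sum_add_distrib]
        exact Finset.sum_congr rfl fun w _ => by noncomm_ring }
  have hΦ : ∀ z, Φ z = ∑ w ∈ U, w * z * star w := fun z => rfl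
  have hΦc : Continuous Φ := by
    change Continuous fun z => ∑ w ∈ U, w * z * star w
    fun_prop
  have hnu : ∀ w ∈ U, ∀ z : M, ‖w * z * star w‖ ≤ ‖z‖ := by
    intro w hw z
    rw [CStarRing.norm_mul_mem_unitary (w * z) (Unitary.star_mem (hU w hw)),
      CStarRing.norm_mem_unitary_mul z (hU w hw)]
  have hΦn : ∀ z, ‖Φ z‖ ≤ m * ‖z‖ := by
    intro z
    rw [hΦ]
    calc ‖∑ w ∈ U, w * z * star w‖ ≤ ∑ w ∈ U, ‖w * z * star w‖ := norm_sum_le _ _
      _ ≤ ∑ _w ∈ U, ‖z‖ := Finset.sum_le_sum fun w hw => hnu w hw z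
      _ = U.card * ‖z‖ := by rw [Finset.sum_const, nsmul_eq_mul]
      _ ≤ m * ‖z‖ := by gcongr
  have hΦ0 : ∀ z, 0 ≤ z → 0 ≤ Φ z := fun z hz => by
    rw [hΦ]
    exact Finset.sum_nonneg fun w _ => star_right_conjugate_nonneg hz w
  have hΦJ : ∀ z ∈ J, Φ z ∈ J := fun z hz => by
    rw [hΦ]
    exact J.sum_mem fun w _ => hJ.mul_right _ _ (hJ.mul_left _ _ hz)
  set c : ℝ := 1 / (2 * m) with hc
  have hc0 : 0 < c := by positivity
  have hcm : c * m = 1 / 2 := by rw [hc]; field_simp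
  let g : ℕ → M := fun k => Nat.rec x (fun _ z => c • Φ z) k
  have hg0 : g 0 = x := rfl
  have hgs : ∀ k, g (k + 1) = c • Φ (g k) := fun k => rfl
  have hx1' : ‖x‖ ≤ 1 := by
    refine (CStarAlgebra.norm_le_norm_of_nonneg_of_le hx0 hx1).trans ?_
    nontriviality M
    rw [norm_one]
  have hgn : ∀ k, ‖g k‖ ≤ (1 / 2 : ℝ) ^ k := by
    intro k
    induction k with
    | zero => rw [hg0, pow_zero]; exact hx1'
    | succ k ih =>
      rw [hgs, norm_smul, Real.norm_eq_abs, abs_of_pos hc0]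
      calc c * ‖Φ (g k)‖ ≤ c * (m * ‖g k‖) := by gcongr; exact hΦn _
        _ = (1 / 2) * ‖g k‖ := by rw [← mul_assoc, hcm]
        _ ≤ (1 / 2) * (1 / 2) ^ k := by gcongr
        _ = (1 / 2) ^ (k + 1) := by rw [pow_succ]; ring
  have hg_nonneg : ∀ k, 0 ≤ g k := by
    intro k
    induction k with
    | zero => exact hx0
    | succ k ih => rw [hgs]; exact smul_nonneg hc0.le (hΦ0 _ ih)
  have hgJ : ∀ k, g k ∈ J := by
    intro k
    induction k with
    | zero => exact hx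
    | succ k ih =>
      rw [hgs]
      have := J.smul_mem (c : ℂ) (hΦJ _ ih)
      rwa [Complex.coe_smul] at this
  have hsum : Summable g :=
    Summable.of_norm_bounded (summable_geometric_of_lt_one (by norm_num) (by norm_num)) hgn
  set X : M := ∑' k, g k with hX
  have hXs : HasSum g X := hsum.hasSum
  have hXJ : X ∈ J :=
    hJ.closed.mem_of_tendsto hXs.tendsto_sum_nat
      (Filter.Eventually.of_forall fun n => J.sum_mem fun k _ => hgJ k)
  have hX0 : 0 ≤ X := hXs.nonneg hg_nonneg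
  have hXn : ‖X‖ ≤ 2 := by
    have h1 : HasSum (fun k : ℕ => (1 / 2 : ℝ) ^ k) 2 := by
      have := hasSum_geometric_of_lt_one (r := (1 / 2 : ℝ)) (by norm_num) (by norm_num)
      norm_num at this
      simpa using this
    exact tsum_of_norm_bounded h1 hgn
  have hΦX : c • Φ X = X - x := by
    have h1 : HasSum (fun k => Φ (g k)) (Φ X) := hXs.map Φ hΦc
    have h2 : HasSum (fun k => c • Φ (g k)) (c • Φ X) := h1.const_smul c
    have h3 : HasSum (fun k => g (k + 1)) (X - g 0) := by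
      have := (hasSum_nat_add_iff' (f := g) (g := X) 1).2 hXs
      simpa using this
    exact h2.unique h3
  have hΦX0 : 0 ≤ Φ X := hΦ0 X hX0
  have hxX : x ≤ X := by
    have h1 : 0 ≤ X - x := by rw [← hΦX]; exact smul_nonneg hc0.le hΦX0
    exact sub_nonneg.1 h1
  have hΦX2 : Φ X ≤ (2 * m) • X := by
    have h1 : Φ X = (2 * m) • (X - x) := by
      rw [← hΦX, smul_smul, show 2 * m * c = 1 by rw [hc]; field_simp, one_smul]
    rw [h1]
    exact smul_le_smul_of_nonneg_left (sub_le_self X hx0) (by positivity)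
  refine ⟨(1 / 2 : ℝ) • X, ?_, smul_nonneg (by norm_num) hX0, ?_, ?_, ?_⟩
  · have := J.smul_mem ((1 / 2 : ℝ) : ℂ) hXJ
    rwa [Complex.coe_smul] at this
  · refine QCU_norm_le_one _ (smul_nonneg (by norm_num) hX0) ?_
    rw [norm_smul, Real.norm_eq_abs, abs_of_pos (by norm_num : (0 : ℝ) < 1 / 2)]
    linarith
  · rw [smul_smul]
    norm_num
    exact hxX
  · intro w hw
    have h1 : w * X * star w ≤ Φ X := by
      rw [hΦ]
      exact Finset.single_le_sum (f := fun w => w * X * star w)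
        (fun v _ => star_right_conjugate_nonneg hX0 v) hw
    have h2 := smul_le_smul_of_nonneg_left (h1.trans hΦX2) (by norm_num : (0 : ℝ) ≤ 1 / 2)
    rw [mul_smul_comm, smul_mul_assoc]
    refine h2.trans (le_of_eq ?_)
    rw [smul_comm]

/-- (QC) for unitaries. `U` a finite list of unitaries closed under adjoints, `m ≥ 1` bounds its
length; `Φ z = ∑ u z u⋆`, `X = ∑' k, (2m)^{-k} Φ^k x ∈ J` (norm convergent, `‖Φ‖ ≤ m`).
`x ≤ X ≤ 2`, `Φ X = 2m (X - x) ≤ 2m X`, so `u X u⋆ ≤ 2m X` and (adjoint) `X ≤ 2m u X u⋆`.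
For `t ∈ (0,1]` (`CFC.rpow_le_rpow`): `(u X u⋆)^t = u X^t u⋆`, so
`‖u X^t u⋆ - X^t‖ ≤ ((2m)^t - 1) ‖X‖^t → 0`. `e = (X/2)^t`. `‖(1-e) x^{1/2}‖² = ‖(1-e)x(1-e)‖ ≤
‖(1-e)X(1-e)‖ ≤ sup_{0≤s≤2} s (1-(s/2)^t)² → 0` as `t → 0`. -/
theorem QCunitary {J : Submodule ℂ M} (hJ : CIdeal J) (x : M) (hx : x ∈ J) (hx0 : 0 ≤ x)
    (hx1 : x ≤ 1) (U : Finset M) (hU : ∀ w ∈ U, w ∈ unitary M) (η : ℝ) (hη : 0 < η) :
    ∃ e ∈ J, 0 ≤ e ∧ e ≤ 1 ∧ ‖(1 - e) * x‖ < η ∧ ∀ w ∈ U, ‖e * w - w * e‖ < η := by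
  classical
  set U' : Finset M := U ∪ U.image star with hU'
  have hU'u : ∀ w ∈ U', w ∈ unitary M := by
    intro w hw
    rcases Finset.mem_union.1 hw with h | h
    · exact hU w h
    · obtain ⟨v, hv, rfl⟩ := Finset.mem_image.1 h
      exact Unitary.star_mem (hU v hv)
  set m : ℝ := U'.card + 1 with hm
  have hm1 : 1 ≤ m := by
    have : (0 : ℝ) ≤ U'.card := Nat.cast_nonneg _
    linarith
  obtain ⟨a, haJ, ha0, ha1, hxa, hwa⟩ := QCU_avg hJ x hx hx0 hx1 U' hU'u m (by linarith)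
    (by linarith)
  -- choice of `t`
  obtain ⟨t, ht0, ht1, htη, htm⟩ : ∃ t : ℝ, 0 < t ∧ t ≤ 1 ∧ 2 * t < η ^ 2 ∧
      (2 * m) ^ t - 1 < η := by
    have hcont : Filter.Tendsto (fun t : ℝ => (2 * m) ^ t - 1) (nhds 0) (nhds 0) := by
      have h1 : Continuous fun t : ℝ => (2 * m) ^ t - 1 :=
        (Real.continuous_const_rpow (by positivity)).sub continuous_const
      have := h1.tendsto 0
      simpa using this
    have h2 : ∀ᶠ t : ℝ in nhds 0, (2 * m) ^ t - 1 < η := hcont.eventually_lt_const hη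
    obtain ⟨δ, hδ, h3⟩ := Metric.eventually_nhds_iff.1 h2
    refine ⟨min (δ / 2) (min 1 (η ^ 2 / 4)), by positivity,
      (min_le_right _ _).trans (min_le_left _ _), ?_, ?_⟩
    · have := (min_le_right (δ / 2) (min 1 (η ^ 2 / 4))).trans (min_le_right _ _)
      have h4 : 0 < η ^ 2 := by positivity
      linarith
    · apply h3
      have h5 : 0 < min (δ / 2) (min 1 (η ^ 2 / 4)) := by positivity
      rw [Real.dist_eq, sub_zero, abs_of_pos h5]
      have := min_le_left (δ / 2) (min 1 (η ^ 2 / 4))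
      linarith
  have he0 : (0 : M) ≤ a ^ t := CFC.rpow_nonneg
  have hesa : IsSelfAdjoint (a ^ t) := IsSelfAdjoint.of_nonneg he0
  have he1 : a ^ t ≤ 1 := by
    have := CFC.rpow_le_rpow (p := t) ⟨ht0.le, ht1⟩ ha1
    rwa [CFC.one_rpow] at this
  refine ⟨a ^ t, ?_, he0, he1, ?_, ?_⟩
  · rw [CFC.rpow_eq_cfc_real ha0]
    refine hJ.cfc_mem a haJ (IsSelfAdjoint.of_nonneg ha0) _
      (Real.continuous_rpow_const ht0.le).continuousOn ?_
    exact Real.zero_rpow ht0.ne'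
  · have h1 := QCU_small a x ha0 ha1 hx0 hx1 hxa t ht0
    exact lt_of_pow_lt_pow_left₀ 2 hη.le (h1.trans_lt htη)
  · intro w hw
    have hwu := hU w hw
    have hw1 : w ∈ U' := Finset.mem_union_left _ hw
    have hw2 : star w ∈ U' := Finset.mem_union_right _ (Finset.mem_image_of_mem _ hw)
    have hww : w * star w = 1 := Unitary.mul_star_self_of_mem hwu
    have hww' : star w * w = 1 := Unitary.star_mul_self_of_mem hwu
    have hm2 : (0 : ℝ) ≤ 2 * m := by positivity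
    have hK1 : 1 ≤ (2 * m) ^ t := Real.one_le_rpow (by linarith) ht0.le
    -- the two inequalities
    have h1 : w * a ^ t * star w ≤ (2 * m) ^ t • a ^ t := by
      rw [← QCU_conj w hwu a ha0 t ht0, ← QCU_smul a ha0 _ hm2 t ht0]
      exact CFC.rpow_le_rpow ⟨ht0.le, ht1⟩ (hwa w hw1)
    have h2 : a ^ t ≤ (2 * m) ^ t • (w * a ^ t * star w) := by
      have h3 := hwa (star w) hw2
      rw [star_star] at h3
      have h4 := star_right_conjugate_le_conjugate h3 w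
      have e1 : w * (star w * a * w) * star w = a := by
        calc w * (star w * a * w) * star w = (w * star w) * a * (w * star w) := by noncomm_ring
          _ = a := by rw [hww, one_mul, mul_one]
      rw [e1, mul_smul_comm, smul_mul_assoc] at h4
      have h5 := CFC.rpow_le_rpow (p := t) ⟨ht0.le, ht1⟩ h4
      rw [QCU_smul _ (star_right_conjugate_nonneg ha0 w) _ hm2 t ht0, QCU_conj w hwu a ha0 t ht0]
        at h5
      exact h5
    have hwe0 : 0 ≤ w * a ^ t * star w := star_right_conjugate_nonneg he0 w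
    have hwe1 : w * a ^ t * star w ≤ 1 := by
      have := star_right_conjugate_le_conjugate he1 w
      rwa [mul_one, hww] at this
    have h6 : ‖w * a ^ t * star w - a ^ t‖ ≤ (2 * m) ^ t - 1 := by
      refine QCU_norm_le _ ((IsSelfAdjoint.of_nonneg hwe0).sub hesa) _ (by linarith) ?_ ?_
      · rw [Algebra.algebraMap_eq_smul_one]
        calc w * a ^ t * star w - a ^ t ≤ (2 * m) ^ t • a ^ t - a ^ t := sub_le_sub_right h1 _
          _ = ((2 * m) ^ t - 1) • a ^ t := by rw [sub_smul, one_smul]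
          _ ≤ ((2 * m) ^ t - 1) • 1 := smul_le_smul_of_nonneg_left he1 (by linarith)
      · rw [Algebra.algebraMap_eq_smul_one, neg_sub]
        calc a ^ t - w * a ^ t * star w
            ≤ (2 * m) ^ t • (w * a ^ t * star w) - w * a ^ t * star w := sub_le_sub_right h2 _
          _ = ((2 * m) ^ t - 1) • (w * a ^ t * star w) := by rw [sub_smul, one_smul]
          _ ≤ ((2 * m) ^ t - 1) • 1 := smul_le_smul_of_nonneg_left hwe1 (by linarith)
    have e2 : a ^ t * w - w * a ^ t = -((w * a ^ t * star w - a ^ t) * w) := by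
      have : w * a ^ t * star w * w = w * a ^ t := by rw [mul_assoc, hww', mul_one]
      rw [sub_mul, this, neg_sub]
    rw [e2, norm_neg]
    rw [CStarRing.norm_mul_mem_unitary (w * a ^ t * star w - a ^ t) hwu]
    exact h6.trans_lt htm

end Crest.Agent.SPI
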