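import Crest.Agent.SPI.Defs

/-! Row 110: ramp functions and closed ideals. Chunk R110-RAMP. -/

set_option autoImplicit false
set_option linter.unusedSectionVars false
set_option linter.unusedVariables false

namespace Crest.Agent.SPI

universe u

theorem ramp_continuous (a b : ℝ) : Continuous (ramp a b) := by
  unfold ramp
  fun_prop

theorem ramp_nonneg (a b t : ℝ) : 0 ≤ ramp a b t := le_max_left _ _

theorem ramp_le_one (a b t : ℝ) : ramp a b t ≤ 1 := max_le zero_le_one (min_le_left _ _)

theorem Ramp_eq_zero {a b t : ℝ} (hab : a < b) (ht : t ≤ a) : ramp a b t = 0 := by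
  unfold ramp
  apply max_eq_left
  refine (min_le_right _ _).trans ?_
  exact div_nonpos_of_nonpos_of_nonneg (by linarith) (by linarith)

theorem Ramp_eq_one {a b t : ℝ} (hab : a < b) (ht : b ≤ t) : ramp a b t = 1 := by
  unfold ramp
  rw [min_eq_left]
  · exact max_eq_right zero_le_one
  · rw [le_div_iff₀ (by linarith)]
    linarith

theorem ramp_zero (a b : ℝ) (ha : 0 ≤ a) (hab : a < b) : ramp a b 0 = 0 :=
  Ramp_eq_zero hab ha

theorem ramp_mul (a b c d t : ℝ) (hab : a < b) (hbc : b ≤ c) (hcd : c < d) :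
    ramp a b t * ramp c d t = ramp c d t := by
  rcases le_total t c with h | h
  · rw [Ramp_eq_zero hcd h, mul_zero]
  · rw [Ramp_eq_one hab (hbc.trans h), one_mul]

variable {M : Type u} [CStarAlgebra M] [PartialOrder M] [StarOrderedRing M]

theorem cfc_ramp_mul (a b c d : ℝ) (hab : a < b) (hbc : b ≤ c) (hcd : c < d) (p : M)
    (hp : IsSelfAdjoint p) : cfc (ramp a b) p * cfc (ramp c d) p = cfc (ramp c d) p := by
  rw [← cfc_mul (ramp a b) (ramp c d) p (ramp_continuous a b).continuousOn
    (ramp_continuous c d).continuousOn]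
  exact cfc_congr fun t _ => ramp_mul a b c d t hab hbc hcd

theorem cfc_ramp_nonneg (a b : ℝ) (p : M) : 0 ≤ cfc (ramp a b) p :=
  cfc_nonneg fun t _ => ramp_nonneg a b t

theorem cfc_ramp_le_one (a b : ℝ) (p : M) : cfc (ramp a b) p ≤ 1 :=
  cfc_le_one _ _ fun t _ => ramp_le_one a b t

theorem norm_le_one_of (x : M) (h0 : 0 ≤ x) (h1 : x ≤ 1) : ‖x‖ ≤ 1 :=
  (CStarAlgebra.norm_le_one_iff_of_nonneg x h0).2 h1

/-- a closed star ideal as a non-unital star subalgebra -/
def CIdeal.sub {J : Submodule ℂ M} (hJ : CIdeal J) : NonUnitalStarSubalgebra ℂ M where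
  carrier := J
  add_mem' ha hb := J.add_mem ha hb
  zero_mem' := J.zero_mem
  mul_mem' {a b} _ hb := hJ.mul_left a b hb
  smul_mem' c _ hx := J.smul_mem c hx
  star_mem' {a} ha := hJ.star_mem a ha

/-- a closed star ideal is stable under functions vanishing at `0` (e.g. `cfcₙ_mem`, or: `J` as a
closed non-unital star subalgebra). -/
theorem CIdeal.cfc_mem {J : Submodule ℂ M} (hJ : CIdeal J) (x : M) (hx : x ∈ J)
    (hsa : IsSelfAdjoint x) (f : ℝ → ℝ) (hf : ContinuousOn f (spectrum ℝ x)) (h0 : f 0 = 0) :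
    cfc f x ∈ J := by
  have hq : ContinuousOn f (quasispectrum ℝ x) := by
    rw [quasispectrum_eq_spectrum_union_zero]
    exact hf.union_of_isClosed (by simp) (spectrum.isClosed x) isClosed_singleton
  rw [← cfcₙ_eq_cfc hq h0]
  have : IsClosed ((hJ.sub : NonUnitalStarSubalgebra ℂ M) : Set M) := hJ.closed
  exact cfcₙ_mem (𝕜' := ℂ) (s := hJ.sub) f (a := x) hx

/-- hereditary: `0 ≤ x ≤ z ∈ J ⇒ x ∈ J`.
PROOF: `x^{1/2} (1-e)` with `e = cfc (t/(ε+t)) z ∈ J`, `1-e = ε(ε+z)⁻¹`:
`‖x^{1/2}(1-e)‖² = ‖(1-e)x(1-e)‖ ≤ ‖(1-e)z(1-e)‖ ≤ ε`, so `x^{1/2}` is a limit of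
`x^{1/2} e ∈ J`, and `J` is closed; `x = x^{1/2} x^{1/2}`. -/
theorem CIdeal.hereditary {J : Submodule ℂ M} (hJ : CIdeal J) (x z : M) (h0 : 0 ≤ x)
    (hxz : x ≤ z) (hz : z ∈ J) : x ∈ J := by
  have hz0 : 0 ≤ z := h0.trans hxz
  have hzsa : IsSelfAdjoint z := .of_nonneg hz0
  set s := CFC.sqrt x with hs
  have hss : s * s = x := CFC.sqrt_mul_sqrt_self x h0
  have hs0 : 0 ≤ s := CFC.sqrt_nonneg x
  have hssa : star s = s := (IsSelfAdjoint.of_nonneg hs0).star_eq
  suffices h : s ∈ J by
    rw [← hss]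
    exact hJ.mul_left s s h
  have hcl : s ∈ closure (J : Set M) := by
    rw [Metric.mem_closure_iff]
    intro ε hε
    set δ := ε ^ 2 / 2 with hδ
    have hδ0 : 0 < δ := by positivity
    have hspec : ∀ t ∈ spectrum ℝ z, 0 ≤ t := fun t ht => spectrum_nonneg_of_nonneg hz0 ht
    have hcont : ContinuousOn (fun t : ℝ => t / (δ + t)) (spectrum ℝ z) := by
      apply ContinuousOn.div continuousOn_id (continuousOn_const.add continuousOn_id)
      intro t ht
      have := hspec t ht
      change δ + t ≠ 0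
      positivity
    have hcont' : ContinuousOn (fun t : ℝ => δ / (δ + t)) (spectrum ℝ z) := by
      apply ContinuousOn.div continuousOn_const (continuousOn_const.add continuousOn_id)
      intro t ht
      have := hspec t ht
      change δ + t ≠ 0
      positivity
    set e := cfc (fun t : ℝ => t / (δ + t)) z with he
    have heJ : e ∈ J := hJ.cfc_mem z hz hzsa _ hcont (by simp)
    have h1e : 1 - e = cfc (fun t : ℝ => δ / (δ + t)) z := by
      rw [he, ← cfc_const_one ℝ z, ← cfc_sub (fun _ => (1 : ℝ)) (fun t : ℝ => t / (δ + t)) z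
        continuousOn_const hcont]
      apply cfc_congr
      intro t ht
      have := hspec t ht
      have : δ + t ≠ 0 := by positivity
      field_simp
      ring
    have h1esa : star (1 - e) = 1 - e := by
      rw [h1e]
      exact (cfc_predicate (p := IsSelfAdjoint) _ z).star_eq
    refine ⟨s * e, hJ.mul_left s e heJ, ?_⟩
    rw [dist_eq_norm]
    have h2 : s - s * e = s * (1 - e) := by rw [mul_sub, mul_one]
    rw [h2]
    have h3 : ‖s * (1 - e)‖ ^ 2 = ‖(1 - e) * x * (1 - e)‖ := by
      rw [sq, ← CStarRing.norm_star_mul_self, star_mul, hssa, h1esa, ← hss]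
      simp only [mul_assoc]
    have h4 : (1 - e) * x * (1 - e) ≤ (1 - e) * z * (1 - e) := by
      have := star_left_conjugate_le_conjugate hxz (1 - e)
      rwa [h1esa] at this
    have h5 : 0 ≤ (1 - e) * x * (1 - e) := by
      have := star_left_conjugate_nonneg h0 (1 - e)
      rwa [h1esa] at this
    have h6 : (1 - e) * z * (1 - e) = cfc (fun t : ℝ => δ / (δ + t) * t * (δ / (δ + t))) z := by
      rw [cfc_mul (fun t : ℝ => δ / (δ + t) * t) (fun t : ℝ => δ / (δ + t)) z
        (hcont'.mul continuousOn_id) hcont', cfc_mul (fun t : ℝ => δ / (δ + t)) (fun t => t) z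
        hcont' continuousOn_id, ← h1e, cfc_id' ℝ z]
    have h7 : (1 - e) * z * (1 - e) ≤ algebraMap ℝ M δ := by
      rw [h6]
      apply cfc_le_algebraMap
      · intro t ht
        have ht0 := hspec t ht
        have hd : 0 < δ + t := by positivity
        have e1 : δ / (δ + t) * t * (δ / (δ + t)) = δ * (δ * t) / (δ + t) ^ 2 := by
          field_simp
        rw [e1, div_le_iff₀ (by positivity)]
        nlinarith [mul_nonneg hδ0.le ht0, sq_nonneg t, sq_nonneg δ, mul_pos hδ0 hδ0]
      · exact (hcont'.mul continuousOn_id).mul hcont'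
      · exact hzsa
    have h8 : ‖(1 - e) * x * (1 - e)‖ ≤ δ := by
      exact (CStarAlgebra.norm_le_iff_le_algebraMap _ hδ0.le h5).2 (h4.trans h7)
    have h10 : ‖s * (1 - e)‖ ^ 2 < ε ^ 2 := by
      rw [h3]
      refine h8.trans_lt ?_
      rw [hδ]
      have : 0 < ε ^ 2 := by positivity
      linarith
    exact lt_of_pow_lt_pow_left₀ 2 hε.le h10
  rwa [hJ.closed.closure_eq] at hcl

/-- `x ≥ 0`, `x² ∈ J ⇒ x ∈ J` (`x = sqrt (x²)`). -/
theorem CIdeal.of_sq {J : Submodule ℂ M} (hJ : CIdeal J) (x : M) (h0 : 0 ≤ x)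
    (hz : x * x ∈ J) : x ∈ J := by
  have hsa : IsSelfAdjoint x := .of_nonneg h0
  have h1 : cfc Real.sqrt (x ^ 2) = x := by
    rw [← cfc_comp_pow Real.sqrt 2 x Real.continuous_sqrt.continuousOn]
    conv_rhs => rw [← cfc_id' ℝ x]
    apply cfc_congr
    intro t ht
    exact Real.sqrt_sq (spectrum_nonneg_of_nonneg h0 ht)
  rw [← h1]
  apply hJ.cfc_mem _ _ _ _ Real.continuous_sqrt.continuousOn Real.sqrt_zero
  · rwa [sq]
  · exact hsa.pow 2

theorem self_mem_idl (y : M) : y ∈ idl y := by
  apply Submodule.le_topologicalClosure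
  apply Submodule.subset_span
  exact ⟨(1, 1), by simp⟩

theorem idl_cideal (y : M) (hy : IsSelfAdjoint y) : CIdeal (idl y) := by
  have hL : ∀ m a : M, a ∈ Submodule.span ℂ (Set.range fun ab : M × M => ab.1 * y * ab.2) →
      m * a ∈ Submodule.span ℂ (Set.range fun ab : M × M => ab.1 * y * ab.2) := by
    intro m a ha
    induction ha using Submodule.span_induction with
    | mem x hx =>
      obtain ⟨ab, rfl⟩ := hx
      exact Submodule.subset_span ⟨(m * ab.1, ab.2), by simp only [mul_assoc]⟩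
    | zero => rw [mul_zero]; exact Submodule.zero_mem _
    | add x z _ _ hx hz => rw [mul_add]; exact Submodule.add_mem _ hx hz
    | smul c x _ hx => rw [mul_smul_comm]; exact Submodule.smul_mem _ c hx
  have hR : ∀ m a : M, a ∈ Submodule.span ℂ (Set.range fun ab : M × M => ab.1 * y * ab.2) →
      a * m ∈ Submodule.span ℂ (Set.range fun ab : M × M => ab.1 * y * ab.2) := by
    intro m a ha
    induction ha using Submodule.span_induction with
    | mem x hx =>
      obtain ⟨ab, rfl⟩ := hx
      exact Submodule.subset_span ⟨(ab.1, ab.2 * m), by simp only [mul_assoc]⟩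
    | zero => rw [zero_mul]; exact Submodule.zero_mem _
    | add x z _ _ hx hz => rw [add_mul]; exact Submodule.add_mem _ hx hz
    | smul c x _ hx => rw [smul_mul_assoc]; exact Submodule.smul_mem _ c hx
  have hS : ∀ a : M, a ∈ Submodule.span ℂ (Set.range fun ab : M × M => ab.1 * y * ab.2) →
      star a ∈ Submodule.span ℂ (Set.range fun ab : M × M => ab.1 * y * ab.2) := by
    intro a ha
    induction ha using Submodule.span_induction with
    | mem x hx =>
      obtain ⟨ab, rfl⟩ := hx
      refine Submodule.subset_span ⟨(star ab.2, star ab.1), ?_⟩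
      simp only [star_mul, hy.star_eq, mul_assoc]
    | zero => rw [star_zero]; exact Submodule.zero_mem _
    | add x z _ _ hx hz => rw [star_add]; exact Submodule.add_mem _ hx hz
    | smul c x _ hx => rw [star_smul]; exact Submodule.smul_mem _ _ hx
  refine ⟨Submodule.isClosed_topologicalClosure _, ?_, ?_, ?_⟩
  · intro m a ha
    exact map_mem_closure (f := fun z => m * z) (by fun_prop) ha (fun z hz => hL m z hz)
  · intro m a ha
    exact map_mem_closure (f := fun z => z * m) (by fun_prop) ha (fun z hz => hR m z hz)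
  · intro a ha
    exact map_mem_closure (f := fun z => star z) continuous_star ha (fun z hz => hS z hz)

theorem idl_le {J : Submodule ℂ M} (hJ : CIdeal J) (y : M) (hy : y ∈ J) : idl y ≤ J := by
  apply Submodule.topologicalClosure_minimal _ _ hJ.closed
  rw [Submodule.span_le]
  rintro _ ⟨ab, rfl⟩
  exact hJ.mul_right _ _ (hJ.mul_left _ _ hy)

/-- elements of `idl y` are approximated by finite sums `∑ aᵢ y bᵢ`. -/
theorem idl_approx (y x : M) (hx : x ∈ idl y) (ε : ℝ) (hε : 0 < ε) :
    ∃ (n : ℕ) (a b : Fin n → M), ‖x - ∑ i, a i * y * b i‖ < ε := by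
  have hx' : x ∈ closure
      ((Submodule.span ℂ (Set.range fun ab : M × M => ab.1 * y * ab.2) : Submodule ℂ M) : Set M) :=
    hx
  rw [Metric.mem_closure_iff] at hx'
  obtain ⟨z, hz, hxz⟩ := hx' ε hε
  rw [dist_eq_norm] at hxz
  have key : ∃ (n : ℕ) (a b : Fin n → M), z = ∑ i, a i * y * b i := by
    clear hxz
    induction hz using Submodule.span_induction with
    | mem x hx =>
      obtain ⟨ab, rfl⟩ := hx
      exact ⟨1, fun _ => ab.1, fun _ => ab.2, by simp⟩
    | zero => exact ⟨0, fun _ => 0, fun _ => 0, by simp⟩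
    | add x z _ _ hx hz =>
      obtain ⟨n, a, b, h1⟩ := hx
      obtain ⟨m, a', b', h2⟩ := hz
      refine ⟨n + m, Fin.append a a', Fin.append b b', ?_⟩
      rw [Fin.sum_univ_add, h1, h2]
      simp
    | smul c x _ hx =>
      obtain ⟨n, a, b, h1⟩ := hx
      refine ⟨n, fun i => c • a i, b, ?_⟩
      rw [h1, Finset.smul_sum]
      exact Finset.sum_congr rfl fun i _ => by rw [smul_mul_assoc, smul_mul_assoc]
  obtain ⟨n, a, b, h⟩ := key
  exact ⟨n, a, b, by rw [← h]; exact hxz⟩

end Crest.Agent.SPI
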