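import Crest.Agent.SPI.Defs
import Crest.Agent.Lib.QT.Quotient
import Crest.Agent.Lib.QT.LpCStar

/-! Row 110: passage to `B = ℓ^∞(M) / {x | dist (xₙ, Iₙ) → 0}`. Chunk R110-SEQ. -/

set_option autoImplicit false

open scoped ENNReal

namespace Crest.Agent.SPI

universe u

/-- quotient C⋆-algebra (copy of `Crest.Agent.UG` `PreC.exists_quotient'`). -/
theorem exists_quotient' (A : Type u) [CStarAlgebra A] (J : Submodule ℂ A)
    (hJl : ∀ a x : A, x ∈ J → a * x ∈ J) (hJr : ∀ a x : A, x ∈ J → x * a ∈ J)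
    (hJstar : ∀ x ∈ J, star x ∈ J) (hJc : IsClosed (J : Set A)) :
    ∃ (B : Type u) (_ : CStarAlgebra B) (π : A →⋆ₐ[ℂ] B), Function.Surjective π ∧
      (∀ a, ‖π a‖ ≤ ‖a‖) ∧ ∀ a, π a = 0 ↔ a ∈ J := by
  let I : Ideal A :=
    { carrier := (J : Set A)
      add_mem' := fun ha hb => J.add_mem ha hb
      zero_mem' := J.zero_mem
      smul_mem' := fun a x hx => hJl a x hx }
  have hI : ∀ x, x ∈ I ↔ x ∈ J := fun x => Iff.rfl
  have h2 : I.IsTwoSided := ⟨fun {a} b ha => hJr b a ha⟩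
  have hc : IsClosed (I : Set A) := hJc
  have hs : ∀ x ∈ I, star x ∈ I := hJstar
  let inst : CStarAlgebra (A ⧸ I) := QT.QuotAux.cstar I hs
  refine ⟨A ⧸ I, inst,
    { toFun := Ideal.Quotient.mk I
      map_one' := rfl
      map_mul' := fun _ _ => rfl
      map_zero' := rfl
      map_add' := fun _ _ => rfl
      commutes' := fun _ => rfl
      map_star' := fun a => (QT.QuotAux.starOf_mk I hs a).symm }, ?_, ?_, ?_⟩
  · exact Ideal.Quotient.mk_surjective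
  · intro x
    exact QT.QuotAux.norm_mk_le' I x
  · intro a
    show Ideal.Quotient.mk I a = 0 ↔ _
    rw [Ideal.Quotient.eq_zero_iff_mem, hI]

section seq

variable {M : Type u} [CStarAlgebra M] [Nontrivial M]

/-- the ideal of sequences with `dist (xₙ, Iₙ) → 0` -/
def seqIdeal (I : ℕ → Submodule ℂ M) : Submodule ℂ (lp (fun _ : ℕ => M) ∞) where
  carrier := {f | ∀ ε : ℝ, 0 < ε → ∃ N : ℕ, ∀ n, N ≤ n → ∃ z ∈ I n, ‖(f : ℕ → M) n - z‖ < ε}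
  add_mem' := by
    intro f g hf hg ε hε
    obtain ⟨N1, h1⟩ := hf (ε / 2) (half_pos hε)
    obtain ⟨N2, h2⟩ := hg (ε / 2) (half_pos hε)
    refine ⟨max N1 N2, fun n hn => ?_⟩
    obtain ⟨z1, hz1, hz1'⟩ := h1 n (le_trans (le_max_left _ _) hn)
    obtain ⟨z2, hz2, hz2'⟩ := h2 n (le_trans (le_max_right _ _) hn)
    refine ⟨z1 + z2, (I n).add_mem hz1 hz2, ?_⟩
    have e : ((f + g : lp (fun _ : ℕ => M) ∞) : ℕ → M) n - (z1 + z2) =
        ((f : ℕ → M) n - z1) + ((g : ℕ → M) n - z2) := by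
      have : ((f + g : lp (fun _ : ℕ => M) ∞) : ℕ → M) n = (f : ℕ → M) n + (g : ℕ → M) n := rfl
      rw [this]; abel
    rw [e]
    calc _ ≤ ‖(f : ℕ → M) n - z1‖ + ‖(g : ℕ → M) n - z2‖ := norm_add_le _ _
      _ < ε := by linarith
  zero_mem' := by
    intro ε hε
    refine ⟨0, fun n _ => ⟨0, (I n).zero_mem, ?_⟩⟩
    have : ((0 : lp (fun _ : ℕ => M) ∞) : ℕ → M) n = 0 := rfl
    rw [this]
    simpa using hε
  smul_mem' := by
    intro c f hf ε hε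
    obtain ⟨N, h⟩ := hf (ε / (‖c‖ + 1)) (by positivity)
    refine ⟨N, fun n hn => ?_⟩
    obtain ⟨z, hz, hz'⟩ := h n hn
    refine ⟨c • z, (I n).smul_mem c hz, ?_⟩
    have e : ((c • f : lp (fun _ : ℕ => M) ∞) : ℕ → M) n - c • z = c • ((f : ℕ → M) n - z) := by
      have : ((c • f : lp (fun _ : ℕ => M) ∞) : ℕ → M) n = c • (f : ℕ → M) n := rfl
      rw [this, smul_sub]
    rw [e, norm_smul]
    have h1 : ‖c‖ * ‖(f : ℕ → M) n - z‖ ≤ ‖c‖ * (ε / (‖c‖ + 1)) :=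
      mul_le_mul_of_nonneg_left hz'.le (norm_nonneg _)
    have h2 : ‖c‖ * (ε / (‖c‖ + 1)) < ε := by
      rw [← mul_div_assoc, div_lt_iff₀ (by positivity)]
      nlinarith [norm_nonneg c]
    linarith

theorem mem_seqIdeal {I : ℕ → Submodule ℂ M} {f : lp (fun _ : ℕ => M) ∞} :
    f ∈ seqIdeal I ↔
      ∀ ε : ℝ, 0 < ε → ∃ N : ℕ, ∀ n, N ≤ n → ∃ z ∈ I n, ‖(f : ℕ → M) n - z‖ < ε := Iff.rfl

theorem seqIdeal_mul_left (I : ℕ → Submodule ℂ M) (hI : ∀ n, CIdeal (I n))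
    (a f : lp (fun _ : ℕ => M) ∞) (hf : f ∈ seqIdeal I) : a * f ∈ seqIdeal I := by
  intro ε hε
  obtain ⟨N, h⟩ := hf (ε / (‖a‖ + 1)) (by positivity)
  refine ⟨N, fun n hn => ?_⟩
  obtain ⟨z, hz, hz'⟩ := h n hn
  refine ⟨(a : ℕ → M) n * z, (hI n).mul_left _ _ hz, ?_⟩
  have e : ((a * f : lp (fun _ : ℕ => M) ∞) : ℕ → M) n - (a : ℕ → M) n * z =
      (a : ℕ → M) n * ((f : ℕ → M) n - z) := by
    have : ((a * f : lp (fun _ : ℕ => M) ∞) : ℕ → M) n = (a : ℕ → M) n * (f : ℕ → M) n := rfl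
    rw [this, mul_sub]
  rw [e]
  have h0 : ‖(a : ℕ → M) n‖ ≤ ‖a‖ := lp.norm_apply_le_norm ENNReal.top_ne_zero a n
  have h1 : ‖(a : ℕ → M) n * ((f : ℕ → M) n - z)‖ ≤ ‖a‖ * (ε / (‖a‖ + 1)) :=
    (norm_mul_le _ _).trans (mul_le_mul h0 hz'.le (norm_nonneg _) (norm_nonneg _))
  have h2 : ‖a‖ * (ε / (‖a‖ + 1)) < ε := by
    rw [← mul_div_assoc, div_lt_iff₀ (by positivity)]
    nlinarith [norm_nonneg a]
  linarith

theorem seqIdeal_mul_right (I : ℕ → Submodule ℂ M) (hI : ∀ n, CIdeal (I n))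
    (a f : lp (fun _ : ℕ => M) ∞) (hf : f ∈ seqIdeal I) : f * a ∈ seqIdeal I := by
  intro ε hε
  obtain ⟨N, h⟩ := hf (ε / (‖a‖ + 1)) (by positivity)
  refine ⟨N, fun n hn => ?_⟩
  obtain ⟨z, hz, hz'⟩ := h n hn
  refine ⟨z * (a : ℕ → M) n, (hI n).mul_right _ _ hz, ?_⟩
  have e : ((f * a : lp (fun _ : ℕ => M) ∞) : ℕ → M) n - z * (a : ℕ → M) n =
      ((f : ℕ → M) n - z) * (a : ℕ → M) n := by
    have : ((f * a : lp (fun _ : ℕ => M) ∞) : ℕ → M) n = (f : ℕ → M) n * (a : ℕ → M) n := rfl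
    rw [this, sub_mul]
  rw [e]
  have h0 : ‖(a : ℕ → M) n‖ ≤ ‖a‖ := lp.norm_apply_le_norm ENNReal.top_ne_zero a n
  have h1 : ‖((f : ℕ → M) n - z) * (a : ℕ → M) n‖ ≤ (ε / (‖a‖ + 1)) * ‖a‖ :=
    (norm_mul_le _ _).trans (mul_le_mul hz'.le h0 (norm_nonneg _) (by positivity))
  have h2 : (ε / (‖a‖ + 1)) * ‖a‖ < ε := by
    rw [div_mul_eq_mul_div, div_lt_iff₀ (by positivity)]
    nlinarith [norm_nonneg a]
  linarith

theorem seqIdeal_star (I : ℕ → Submodule ℂ M) (hI : ∀ n, CIdeal (I n))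
    (f : lp (fun _ : ℕ => M) ∞) (hf : f ∈ seqIdeal I) : star f ∈ seqIdeal I := by
  intro ε hε
  obtain ⟨N, h⟩ := hf ε hε
  refine ⟨N, fun n hn => ?_⟩
  obtain ⟨z, hz, hz'⟩ := h n hn
  refine ⟨star z, (hI n).star_mem _ hz, ?_⟩
  have e : ((star f : lp (fun _ : ℕ => M) ∞) : ℕ → M) n - star z =
      star ((f : ℕ → M) n - z) := by
    have : ((star f : lp (fun _ : ℕ => M) ∞) : ℕ → M) n = star ((f : ℕ → M) n) := rfl
    rw [this, star_sub]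
  rw [e, norm_star]
  exact hz'

theorem seqIdeal_closed (I : ℕ → Submodule ℂ M) :
    IsClosed ((seqIdeal I : Submodule ℂ (lp (fun _ : ℕ => M) ∞)) :
      Set (lp (fun _ : ℕ => M) ∞)) := by
  rw [← closure_subset_iff_isClosed]
  intro f hf ε hε
  rw [Metric.mem_closure_iff] at hf
  obtain ⟨g, hg, hfg⟩ := hf (ε / 2) (half_pos hε)
  obtain ⟨N, h⟩ := hg (ε / 2) (half_pos hε)
  refine ⟨N, fun n hn => ?_⟩
  obtain ⟨z, hz, hz'⟩ := h n hn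
  refine ⟨z, hz, ?_⟩
  have h3 : ‖(f : ℕ → M) n - (g : ℕ → M) n‖ ≤ ‖f - g‖ := by
    have := lp.norm_apply_le_norm ENNReal.top_ne_zero (f - g) n
    simpa using this
  rw [dist_eq_norm] at hfg
  calc ‖(f : ℕ → M) n - z‖ = ‖((f : ℕ → M) n - (g : ℕ → M) n) + ((g : ℕ → M) n - z)‖ := by
        congr 1; abel
    _ ≤ ‖(f : ℕ → M) n - (g : ℕ → M) n‖ + ‖(g : ℕ → M) n - z‖ := norm_add_le _ _
    _ < ε := by linarith

end seq

/-- The quotient `B` and the class map `cl` on bounded sequences, with all the rules needed to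
transfer relations. `cl f` is only meaningful for bounded `f`.
PROOF. `QT.lpCStar` (`ℓ^∞ = lp (fun _ : ℕ => M) ∞`), `J = {f | ∀ ε > 0, ∃ N, ∀ n ≥ N, ∃ z ∈ I n,
‖f n - z‖ < ε}` is a closed two-sided star ideal; `exists_quotient'`; spectral order
(`CStarAlgebra.spectralOrder`, `CStarAlgebra.spectralOrderedRing`) on `B`; positivity:
`QT.lp_nonneg` (with `S = ⊤`) or square roots entrywise. `cl f = π ⟨f, _⟩` for bounded `f`, `0`
otherwise. See `Crest/Agent/JS/Ultra.lean` for a similar construction. -/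
theorem exists_seqQuot {M : Type u} [CStarAlgebra M] [PartialOrder M] [StarOrderedRing M]
    [Nontrivial M] (I : ℕ → Submodule ℂ M) (hI : ∀ n, CIdeal (I n)) :
    ∃ (B : Type u) (_ : CStarAlgebra B) (_ : PartialOrder B) (_ : StarOrderedRing B)
      (cl : (ℕ → M) → B),
      cl (fun _ => 1) = 1 ∧
      (∀ f g : ℕ → M, (∃ C, ∀ n, ‖f n‖ ≤ C) → (∃ C, ∀ n, ‖g n‖ ≤ C) →
        cl (fun n => f n + g n) = cl f + cl g ∧ cl (fun n => f n - g n) = cl f - cl g ∧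
        cl (fun n => f n * g n) = cl f * cl g) ∧
      (∀ f : ℕ → M, (∃ C, ∀ n, ‖f n‖ ≤ C) → cl (fun n => star (f n)) = star (cl f)) ∧
      (∀ f : ℕ → M, ∀ C : ℝ, (∀ n, ‖f n‖ ≤ C) → ‖cl f‖ ≤ C) ∧
      (∀ f : ℕ → M, (∃ C, ∀ n, ‖f n‖ ≤ C) → (∀ n, 0 ≤ f n) → 0 ≤ cl f) ∧
      (∀ f : ℕ → M, (∃ C, ∀ n, ‖f n‖ ≤ C) → (cl f = 0 ↔
        ∀ ε : ℝ, 0 < ε → ∃ N : ℕ, ∀ n, N ≤ n → ∃ z ∈ I n, ‖f n - z‖ < ε)) := by
  classical
  obtain ⟨B, hB, π, -, hπ, hker⟩ := exists_quotient' (lp (fun _ : ℕ => M) ∞) (seqIdeal I)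
    (fun a x hx => seqIdeal_mul_left I hI a x hx) (fun a x hx => seqIdeal_mul_right I hI a x hx)
    (fun x hx => seqIdeal_star I hI x hx) (seqIdeal_closed I)
  have hmem : ∀ f : ℕ → M, (∃ C, ∀ n, ‖f n‖ ≤ C) → Memℓp f (∞ : ENNReal) := by
    rintro f ⟨C, hC⟩
    refine memℓp_infty ⟨C, ?_⟩
    rintro _ ⟨n, rfl⟩
    exact hC n
  let cl : (ℕ → M) → B := fun f =>
    if h : ∃ C, ∀ n, ‖f n‖ ≤ C then π (⟨f, hmem f h⟩ : lp (fun _ : ℕ => M) ∞) else 0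
  have hcl : ∀ f (h : ∃ C, ∀ n, ‖f n‖ ≤ C),
      cl f = π (⟨f, hmem f h⟩ : lp (fun _ : ℕ => M) ∞) := fun f h => dif_pos h
  refine ⟨B, hB, CStarAlgebra.spectralOrder B, CStarAlgebra.spectralOrderedRing B, cl,
    ?_, ?_, ?_, ?_, ?_, ?_⟩
  · have h1 : ∃ C : ℝ, ∀ n : ℕ, ‖(fun _ : ℕ => (1 : M)) n‖ ≤ C := ⟨‖(1 : M)‖, fun _ => le_rfl⟩
    rw [hcl _ h1, ← map_one π]
    rfl
  · rintro f g ⟨C, hC⟩ ⟨D, hD⟩
    have ha : ∃ C : ℝ, ∀ n : ℕ, ‖(fun n => f n + g n) n‖ ≤ C :=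
      ⟨C + D, fun n => (norm_add_le _ _).trans (add_le_add (hC n) (hD n))⟩
    have hs : ∃ C : ℝ, ∀ n : ℕ, ‖(fun n => f n - g n) n‖ ≤ C :=
      ⟨C + D, fun n => (norm_sub_le _ _).trans (add_le_add (hC n) (hD n))⟩
    have hm : ∃ C : ℝ, ∀ n : ℕ, ‖(fun n => f n * g n) n‖ ≤ C :=
      ⟨C * D, fun n => (norm_mul_le _ _).trans
        (mul_le_mul (hC n) (hD n) (norm_nonneg _) ((norm_nonneg _).trans (hC n)))⟩
    rw [hcl _ ha, hcl _ hs, hcl _ hm, hcl f ⟨C, hC⟩, hcl g ⟨D, hD⟩, ← map_add, ← map_sub,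
      ← map_mul]
    exact ⟨rfl, rfl, rfl⟩
  · rintro f ⟨C, hC⟩
    have hs : ∃ C : ℝ, ∀ n : ℕ, ‖(fun n => star (f n)) n‖ ≤ C :=
      ⟨C, fun n => by simpa using hC n⟩
    rw [hcl _ hs, hcl f ⟨C, hC⟩, ← map_star]
    rfl
  · intro f C hC
    rw [hcl f ⟨C, hC⟩]
    have hC0 : 0 ≤ C := (norm_nonneg _).trans (hC 0)
    exact (hπ _).trans (lp.norm_le_of_forall_le hC0 hC)
  · rintro f hf hf0
    have h1 : ∀ n, ∃ x, f n = star x * x := fun n =>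
      CStarAlgebra.nonneg_iff_eq_star_mul_self.1 (hf0 n)
    obtain ⟨x, -, hx⟩ := QT.lp_nonneg (⊤ : StarSubalgebra ℂ (lp (fun _ : ℕ => M) ∞))
      isClosed_univ (⟨f, hmem f hf⟩ : lp (fun _ : ℕ => M) ∞) trivial h1
    rw [hcl f hf, hx, map_mul, map_star]
    let _ := CStarAlgebra.spectralOrder B
    have := CStarAlgebra.spectralOrderedRing B
    exact star_mul_self_nonneg _
  · intro f hf
    rw [hcl f hf, hker, mem_seqIdeal]

end Crest.Agent.SPI
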