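import Crest.Agent.SPI.Seq
import Crest.Agent.SPI.Alg

/-! Row 110: transfer to B. Chunk R110-TRANS. -/

set_option autoImplicit false
set_option linter.unusedSectionVars false

namespace Crest.Agent.SPI

universe u

variable {M : Type u} [CStarAlgebra M] [PartialOrder M] [StarOrderedRing M] [Nontrivial M]

/-- terms of the relations -/
inductive Trans_Tm where
  | var : Nm → Trans_Tm
  | nat : ℕ → Trans_Tm
  | add : Trans_Tm → Trans_Tm → Trans_Tm
  | sub : Trans_Tm → Trans_Tm → Trans_Tm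
  | mul : Trans_Tm → Trans_Tm → Trans_Tm
  | st : Trans_Tm → Trans_Tm

/-- evaluation of terms -/
def Trans_ev {R : Type u} [Ring R] [StarRing R] (x : Nm → R) : Trans_Tm → R
  | .var i => x i
  | .nat k => (k : R)
  | .add a b => Trans_ev x a + Trans_ev x b
  | .sub a b => Trans_ev x a - Trans_ev x b
  | .mul a b => Trans_ev x a * Trans_ev x b
  | .st a => star (Trans_ev x a)

private theorem Trans_bd (x : ℕ → Nm → M) (hb : ∀ n i, ‖x n i‖ ≤ 1000000) (t : Trans_Tm) :
    ∃ C, ∀ n, ‖Trans_ev (x n) t‖ ≤ C := by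
  induction t with
  | var i => exact ⟨1000000, fun n => hb n i⟩
  | nat k => exact ⟨‖(k : M)‖, fun n => le_rfl⟩
  | add a b ha hb' =>
    obtain ⟨C, hC⟩ := ha
    obtain ⟨D, hD⟩ := hb'
    exact ⟨C + D, fun n => (norm_add_le _ _).trans (add_le_add (hC n) (hD n))⟩
  | sub a b ha hb' =>
    obtain ⟨C, hC⟩ := ha
    obtain ⟨D, hD⟩ := hb'
    exact ⟨C + D, fun n => (norm_sub_le _ _).trans (add_le_add (hC n) (hD n))⟩
  | mul a b ha hb' =>
    obtain ⟨C, hC⟩ := ha
    obtain ⟨D, hD⟩ := hb'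
    exact ⟨C * D, fun n => (norm_mul_le _ _).trans (mul_le_mul (hC n) (hD n) (norm_nonneg _)
      ((norm_nonneg _).trans (hC n)))⟩
  | st a ha =>
    obtain ⟨C, hC⟩ := ha
    exact ⟨C, fun n => by
      show ‖star (Trans_ev (x n) a)‖ ≤ C
      rw [norm_star]
      exact hC n⟩

private theorem zeroEq {B : Type u} [Ring B] [StarRing B] {x : ℕ → Nm → M} (X : Nm → B)
    (hEq : ∀ t s : Trans_Tm, (∀ n, Trans_ev (x n) t = Trans_ev (x n) s) →
      Trans_ev X t = Trans_ev X s) (t : Trans_Tm) (h : ∀ n, Trans_ev (x n) t = 0) :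
    Trans_ev X t = 0 := by
  have h1 := hEq t (.nat 0) fun n => by
    show _ = ((0 : ℕ) : M)
    rw [Nat.cast_zero]
    exact h n
  rw [h1]
  show ((0 : ℕ) : B) = 0
  rw [Nat.cast_zero]

/-- transfer of all relations to `B`.
PROOF. `exists_seqQuot I hI` gives `B`, `cl`. Put `X i = cl (fun n => x n i)`. Every relation of
`Data (1/(n+1)) (x n)` gives the exact relation of `Data 0 X` (a sequence with
`‖f n‖ ≤ C/(n+1)` has `cl f = 0`, take `z = 0`), positivity by the positivity rule; `cl P = 0`,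
`cl Q ≥ 0` give `X u (9 - X c X T X T⋆ X c⋆) X u = - cl Q ≤ 0`. `alg` gives `X fi = 0`; the
characterisation of `cl f = 0` with `ε = 1/2` gives the claim. -/
theorem transfer (I : ℕ → Submodule ℂ M) (hI : ∀ n, CIdeal (I n)) (x : ℕ → Nm → M)
    (hx : ∀ n : ℕ, Data (1 / ((n : ℝ) + 1)) (x n)) (hb : ∀ n i, ‖x n i‖ ≤ 1000000)
    (P Q : ℕ → M) (hP : ∀ n, P n ∈ I n) (hQ : ∀ n, 0 ≤ Q n)
    (hN : ∀ n : ℕ, ‖x n .u * (9 - x n .c * x n .T * star (x n .T) * star (x n .c)) * x n .u
      - (P n - Q n)‖ ≤ 100 / ((n : ℝ) + 1))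
    (hPb : ∃ C, ∀ n, ‖P n‖ ≤ C) (hQb : ∃ C, ∀ n, ‖Q n‖ ≤ C) :
    ∃ n, ∃ z ∈ I n, ‖x n .fi - z‖ < 1 / 2 := by
  obtain ⟨B, iB, iPO, iSO, cl, r1, rring, rstar, rnorm, rpos, rzero⟩ := exists_seqQuot I hI
  have rconst : ∀ k : ℕ, cl (fun _ => (k : M)) = (k : B) := by
    intro k
    have hc : ∀ a : M, ∃ C, ∀ _ : ℕ, ‖a‖ ≤ C := fun a => ⟨‖a‖, fun _ => le_rfl⟩
    induction k with
    | zero =>
      have h := (rring (fun _ => (1 : M)) (fun _ => 1) (hc 1) (hc 1)).2.1
      have e : (fun _ : ℕ => ((0 : ℕ) : M)) = fun _ => (1 : M) - 1 := by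
        funext; simp
      rw [e]
      exact h.trans (by rw [r1, sub_self, Nat.cast_zero])
    | succ k ih =>
      have h := (rring (fun _ => (k : M)) (fun _ => 1) (hc _) (hc 1)).1
      have e : (fun _ : ℕ => ((k + 1 : ℕ) : M)) = fun _ => (k : M) + 1 := by
        funext; simp
      rw [e, h, ih, r1, Nat.cast_add, Nat.cast_one]
  have hbd := Trans_bd x hb
  let X : Nm → B := fun i => cl (fun n => x n i)
  have hev : ∀ t : Trans_Tm, cl (fun n => Trans_ev (x n) t) = Trans_ev X t := by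
    intro t
    induction t with
    | var i => rfl
    | nat k => exact rconst k
    | add a b ha hb' =>
      exact ((rring _ _ (hbd a) (hbd b)).1).trans (by rw [ha, hb']; rfl)
    | sub a b ha hb' =>
      exact ((rring _ _ (hbd a) (hbd b)).2.1).trans (by rw [ha, hb']; rfl)
    | mul a b ha hb' =>
      exact ((rring _ _ (hbd a) (hbd b)).2.2).trans (by rw [ha, hb']; rfl)
    | st a ha => exact (rstar _ (hbd a)).trans (by rw [ha]; rfl)
  have hEq : ∀ t s : Trans_Tm, (∀ n, Trans_ev (x n) t = Trans_ev (x n) s) →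
      Trans_ev X t = Trans_ev X s := by
    intro t s h
    rw [← hev, ← hev]
    congr 1
    funext n
    exact h n
  have hzero : ∀ f : ℕ → M, (∃ C, ∀ n, ‖f n‖ ≤ C) → ∀ C : ℝ,
      (∀ n : ℕ, ‖f n‖ ≤ C / ((n : ℝ) + 1)) → cl f = 0 := by
    intro f hf C hC
    rw [rzero f hf]
    intro ε hε
    obtain ⟨N, hN'⟩ := exists_nat_gt (C / ε)
    refine ⟨N, fun n hn => ⟨0, (I n).zero_mem, ?_⟩⟩
    rw [sub_zero]
    refine (hC n).trans_lt ?_
    have hn' : (N : ℝ) ≤ n := by exact_mod_cast hn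
    rw [div_lt_iff₀ (by positivity)]
    rw [div_lt_iff₀ hε] at hN'
    nlinarith
  have hNm : ∀ t : Trans_Tm, (∀ n : ℕ, ‖Trans_ev (x n) t‖ ≤ 1 / ((n : ℝ) + 1)) →
      ‖Trans_ev X t‖ ≤ 0 := by
    intro t h
    rw [← hev, hzero _ (hbd t) 1 h, norm_zero]
  have hPos : ∀ t : Trans_Tm, (∀ n, 0 ≤ Trans_ev (x n) t) → 0 ≤ Trans_ev X t := by
    intro t h
    rw [← hev]
    exact rpos _ (hbd t) h
  have hblk : ∀ L k r y h e v p m : Trans_Tm,
      (∀ n : ℕ, Blk (1 / ((n : ℝ) + 1)) (x n .c) (Trans_ev (x n) L) (Trans_ev (x n) k)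
        (Trans_ev (x n) r) (Trans_ev (x n) y) (Trans_ev (x n) h) (Trans_ev (x n) e)
        (Trans_ev (x n) v) (Trans_ev (x n) p) (Trans_ev (x n) m)) →
      Blk 0 (X .c) (Trans_ev X L) (Trans_ev X k) (Trans_ev X r) (Trans_ev X y) (Trans_ev X h)
        (Trans_ev X e) (Trans_ev X v) (Trans_ev X p) (Trans_ev X m) := by
    intro L k r y h e v p m H
    let c : Trans_Tm := .var .c
    let tTh : Trans_Tm := .mul (.mul r (.add (.nat 9)
      (.mul (.mul (.mul (.mul c L) (.mul k (.st k))) (.st L)) (.st c)))) r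
    let tK : Trans_Tm := .mul (.mul (.st c) tTh) c
    let tN : Trans_Tm := .mul (.mul y (.sub (.mul (.st L) L) (.mul (.mul (.st L) tK) L))) y
    constructor
    · exact hPos e fun n => (H n).e_nonneg
    · rw [← sub_nonneg]
      have := hPos (.sub (.nat 1) e) fun n => by
        show 0 ≤ ((1 : ℕ) : M) - _
        rw [Nat.cast_one]
        exact sub_nonneg.2 (H n).e_le
      have e1 : Trans_ev X (.sub (.nat 1) e) = 1 - Trans_ev X e := by
        show ((1 : ℕ) : B) - _ = _
        rw [Nat.cast_one]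
      rw [← e1]
      exact this
    · exact hPos p fun n => (H n).p_nonneg
    · exact hPos m fun n => (H n).m_nonneg
    · have := hEq (.mul p m) (.nat 0) fun n => by
        show _ * _ = ((0 : ℕ) : M)
        rw [Nat.cast_zero]
        exact (H n).pm
      have e1 : Trans_ev X (.nat 0) = 0 := by
        show ((0 : ℕ) : B) = 0
        rw [Nat.cast_zero]
      rw [e1] at this
      exact this
    · exact hEq tN (.sub p m) fun n => (H n).N_eq
    · have := hNm (.mul (.sub (.nat 1) e) p) fun n => by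
        show ‖(((1 : ℕ) : M) - _) * _‖ ≤ _
        rw [Nat.cast_one]
        exact (H n).ep
      have e1 : Trans_ev X (.mul (.sub (.nat 1) e) p) = (1 - Trans_ev X e) * Trans_ev X p := by
        show (((1 : ℕ) : B) - _) * _ = _
        rw [Nat.cast_one]
      rw [← e1]
      exact this
    · exact hNm (.sub (.mul (.st v) v) (.mul (.mul e h) e)) fun n => (H n).vv
    · exact hNm (.sub (.mul (.mul (.st L) L) v) v) fun n => (H n).Lv
    · rw [← sub_nonneg]
      exact hPos (.sub (.mul (.mul (.st v) (.mul (.st L) L)) v)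
        (.mul (.mul (.st v) (.mul (.mul (.st L) tK) L)) v)) fun n => sub_nonneg.2 (H n).Kv
  have hD : Data 0 X := by
    have vr : Nm → Trans_Tm := Trans_Tm.var
    constructor
    · exact rnorm _ 1 fun n => (hx n).c_norm
    · intro i hi
      exact hEq (.st (.var i)) (.var i) fun n => (hx n).sa i hi
    · exact hPos (.var .h) fun n => (hx n).h_nonneg
    · rw [← sub_nonneg]
      have := hPos (.sub (.nat 1) (.var .h)) fun n => by
        show 0 ≤ ((1 : ℕ) : M) - _
        rw [Nat.cast_one]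
        exact sub_nonneg.2 (hx n).h_le
      have e1 : Trans_ev X (.sub (.nat 1) (.var .h)) = 1 - X .h := by
        show ((1 : ℕ) : B) - _ = _
        rw [Nat.cast_one]
        rfl
      rw [← e1]
      exact this
    · exact hEq (.mul (.var .u) (.var .f0)) (.var .f0) fun n => (hx n).u_f0
    · exact hEq (.mul (.var .u) (.var .chi)) (.var .chi) fun n => (hx n).u_chi
    · exact hEq (.mul (.var .u) (.var .s)) (.var .s) fun n => (hx n).u_s
    · exact hEq (.mul (.var .s) (.var .u)) (.var .s) fun n => (hx n).s_u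
    · exact hEq (.mul (.var .u) (.var .b)) (.mul (.var .b) (.var .u)) fun n => (hx n).u_b
    · have := hEq (.mul (.var .b) (.var .b)) (.sub (.nat 1) (.var .f0)) fun n => by
        show _ * _ = ((1 : ℕ) : M) - _
        rw [Nat.cast_one]
        exact (hx n).b_b
      have e1 : Trans_ev X (.sub (.nat 1) (.var .f0)) = 1 - X .f0 := by
        show ((1 : ℕ) : B) - _ = _
        rw [Nat.cast_one]
        rfl
      rw [e1] at this
      exact this
    · exact zeroEq X hEq (.mul (.var .b) (.var .s)) fun n => (hx n).b_s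
    · exact zeroEq X hEq (.mul (.var .fi) (.var .s)) fun n => (hx n).fi_s
    · exact zeroEq X hEq (.mul (.var .fi) (.var .b)) fun n => (hx n).fi_b
    · exact hEq (.mul (.var .fi) (.var .f0)) (.var .fi) fun n => (hx n).fi_f0
    · exact hEq (.mul (.var .chi) (.var .fi)) (.var .fi) fun n => (hx n).chi_fi
    · exact hEq (.mul (.var .chi) (.var .f0)) (.mul (.var .f0) (.var .chi))
        fun n => (hx n).chi_f0
    · exact hNm (.sub (.mul (.st (.var .s)) (.var .s))
        (.mul (.mul (.var .ew) (.var .f0)) (.var .ew))) fun n => (hx n).s_s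
    · have := hNm (.mul (.sub (.nat 1) (.var .ew)) (.sub (.var .chi)
        (.mul (.var .chi) (.var .chi)))) fun n => by
          show ‖(((1 : ℕ) : M) - _) * _‖ ≤ _
          rw [Nat.cast_one]
          exact (hx n).ew_w
      have e1 : Trans_ev X (.mul (.sub (.nat 1) (.var .ew)) (.sub (.var .chi)
          (.mul (.var .chi) (.var .chi)))) = (1 - X .ew) * (X .chi - X .chi * X .chi) := by
        show (((1 : ℕ) : B) - _) * _ = _
        rw [Nat.cast_one]
        rfl
      rw [← e1]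
      exact this
    · exact hEq (.mul (.var .y) (.var .h)) (.var .h) fun n => (hx n).y_h
    · exact hEq (.mul (.var .d) (.var .h)) (.var .h) fun n => (hx n).d_h
    · exact hEq (.mul (.var .h1) (.var .h1)) (.var .h) fun n => (hx n).h1_h1
    · exact hEq (.mul (.var .y) (.var .k1)) (.var .k1) fun n => (hx n).y_k1
    · exact hEq (.mul (.var .y) (.var .k2)) (.var .k2) fun n => (hx n).y_k2
    · exact hNm (.sub (.mul (.st (.var .k1)) (.var .k1)) (.var .d)) fun n => (hx n).k11
    · exact hNm (.mul (.st (.var .k1)) (.var .k2)) fun n => (hx n).k12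
    · exact hNm (.sub (.mul (.st (.var .k2)) (.var .k2)) (.var .d)) fun n => (hx n).k22
    · exact hNm (.sub (.mul (.mul (.st (.var .L1)) (.var .L1)) (.var .y)) (.var .y))
        fun n => (hx n).L1y
    · exact hNm (.sub (.mul (.mul (.st (.var .L2)) (.var .L2)) (.var .y)) (.var .y))
        fun n => (hx n).L2y
    · exact hNm (.sub (.mul (.st (.var .T)) (.var .T)) (.mul (.nat 9) (.var .h)))
        fun n => (hx n).T_T
    · exact hNm (.sub (.mul (.st (.var .R)) (.var .T)) (.var .h1)) fun n => (hx n).R_T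
    · exact hNm (.sub (.mul (.st (.var .L1)) (.var .T)) (.mul (.nat 2) (.var .v1)))
        fun n => (hx n).L1_T
    · exact hNm (.sub (.mul (.st (.var .L2)) (.var .T)) (.mul (.nat 2) (.var .v2)))
        fun n => (hx n).L2_T
    · exact hblk (.var .L1) (.var .k1) (.var .chi) (.var .y) (.var .h) (.var .e1) (.var .v1)
        (.var .p1) (.var .m1) fun n => (hx n).blk1
    · exact hblk (.var .L2) (.var .k1) (.sub (.sub (.sub (.var .f0)
        (.mul (.var .s) (.st (.var .s)))) (.mul (.var .s) (.var .b)))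
        (.mul (.var .b) (.st (.var .s)))) (.var .y) (.var .h) (.var .e2) (.var .v2)
        (.var .p2) (.var .m2) fun n => (hx n).blk2
    · intro i hi
      exact hNm (.sub (.mul (.var .ew) (.var i)) (.mul (.var i) (.var .ew)))
        fun n => (hx n).comm_w i hi
    · intro i hi
      exact hNm (.sub (.mul (.var .e1) (.var i)) (.mul (.var i) (.var .e1)))
        fun n => (hx n).comm_1 i hi
    · intro i hi
      exact hNm (.sub (.mul (.var .e2) (.var i)) (.mul (.var i) (.var .e2)))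
        fun n => (hx n).comm_2 i hi
  let tt : Trans_Tm := .mul (.mul (.var .u) (.sub (.nat 9)
    (.mul (.mul (.mul (.var .c) (.var .T)) (.st (.var .T))) (.st (.var .c))))) (.var .u)
  have hPQ : ∃ C, ∀ n, ‖P n - Q n‖ ≤ C := by
    obtain ⟨C, hC⟩ := hPb
    obtain ⟨D, hD'⟩ := hQb
    exact ⟨C + D, fun n => (norm_sub_le _ _).trans (add_le_add (hC n) (hD' n))⟩
  have hdiff : ∃ C, ∀ n, ‖Trans_ev (x n) tt - (P n - Q n)‖ ≤ C := by
    obtain ⟨C, hC⟩ := hbd tt
    obtain ⟨D, hD'⟩ := hPQ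
    exact ⟨C + D, fun n => (norm_sub_le _ _).trans (add_le_add (hC n) (hD' n))⟩
  have h1 : cl (fun n => Trans_ev (x n) tt - (P n - Q n)) = 0 := hzero _ hdiff 100 hN
  rw [(rring _ _ (hbd tt) hPQ).2.1, (rring _ _ hPb hQb).2.1, hev] at h1
  have hP0 : cl P = 0 := by
    rw [rzero P hPb]
    intro ε hε
    exact ⟨0, fun n _ => ⟨P n, hP n, by rw [sub_self, norm_zero]; exact hε⟩⟩
  have hQ0 : 0 ≤ cl Q := rpos Q hQb hQ
  have h0 : Trans_ev X tt ≤ 0 := by
    rw [hP0, zero_sub, sub_neg_eq_add] at h1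
    have : Trans_ev X tt = -cl Q := eq_neg_of_add_eq_zero_left h1
    rw [this]
    exact neg_nonpos.2 hQ0
  have hfi : X .fi = 0 := alg X hD h0
  have hfi' := (rzero (fun n => x n .fi) ⟨1000000, fun n => hb n _⟩).1 hfi (1 / 2) (by norm_num)
  obtain ⟨N, hN'⟩ := hfi'
  obtain ⟨z, hz, hz'⟩ := hN' N le_rfl
  exact ⟨N, z, hz, hz'⟩

end Crest.Agent.SPI
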